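import Vale.Agent.P214.Defs

/-!
A1. Lebesgue points for nu tensor nu (Besicovitch: IsUnifLocDoubling not available, use Besicovitch.vitaliFamily and VitaliFamily.ae_tendsto_lintegral_enorm_sub_div or similar on the finite measure mu). The hypothesis on the tangent plane gives mu(ball x r) <= C r^m for small r (take a continuous phi >= 1 on the ball), so averages of |nu y nu y - nu x nu x| over balls give the r^-m limit.
-/

namespace P214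

open MeasureTheory Set Filter Metric
open scoped Topology ContDiff InnerProductSpace ENNReal

private theorem A1_bil {m : ℕ} (a b v w : Sp m) (ha : ‖a‖ = 1) (hb : ‖b‖ = 1) :
    |⟪a, v⟫_ℝ * ⟪a, w⟫_ℝ - ⟪b, v⟫_ℝ * ⟪b, w⟫_ℝ| ≤ 2 * (‖v‖ * ‖w‖) * ‖a - b‖ := by
  have h1 : ⟪a, v⟫_ℝ * ⟪a, w⟫_ℝ - ⟪b, v⟫_ℝ * ⟪b, w⟫_ℝ =
      ⟪a - b, v⟫_ℝ * ⟪a, w⟫_ℝ + ⟪b, v⟫_ℝ * ⟪a - b, w⟫_ℝ := by
    rw [inner_sub_left, inner_sub_left]
    ring
  rw [h1]
  have h2 := abs_real_inner_le_norm (a - b) v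
  have h3 := abs_real_inner_le_norm a w
  have h4 := abs_real_inner_le_norm b v
  have h5 := abs_real_inner_le_norm (a - b) w
  rw [ha, one_mul] at h3
  rw [hb, one_mul] at h4
  have h6 : |⟪a - b, v⟫_ℝ| * |⟪a, w⟫_ℝ| ≤ (‖a - b‖ * ‖v‖) * ‖w‖ :=
    mul_le_mul h2 h3 (abs_nonneg _) (by positivity)
  have h7 : |⟪b, v⟫_ℝ| * |⟪a - b, w⟫_ℝ| ≤ ‖v‖ * (‖a - b‖ * ‖w‖) :=
    mul_le_mul h4 h5 (abs_nonneg _) (by positivity)
  calc |⟪a - b, v⟫_ℝ * ⟪a, w⟫_ℝ + ⟪b, v⟫_ℝ * ⟪a - b, w⟫_ℝ| ≤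
      |⟪a - b, v⟫_ℝ * ⟪a, w⟫_ℝ| + |⟪b, v⟫_ℝ * ⟪a - b, w⟫_ℝ| := abs_add_le _ _
    _ = |⟪a - b, v⟫_ℝ| * |⟪a, w⟫_ℝ| + |⟪b, v⟫_ℝ| * |⟪a - b, w⟫_ℝ| := by
      rw [abs_mul, abs_mul]
    _ ≤ (‖a - b‖ * ‖v‖) * ‖w‖ + ‖v‖ * (‖a - b‖ * ‖w‖) := add_le_add h6 h7
    _ = 2 * (‖v‖ * ‖w‖) * ‖a - b‖ := by ring

/-- the mass of small balls -/
private theorem A1_mass {m : ℕ} (μ : Measure (Sp m)) [IsFiniteMeasure μ] {x v : Sp m} {q : ℕ}
    (h : HasTangentPlane μ x v q) {R : ℝ} (hR : 0 < R) :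
    ∃ L : ℝ, 0 ≤ L ∧ ∀ᶠ r : ℝ in 𝓝[>] 0, (r ^ m)⁻¹ * μ.real (closedBall x (R * r)) ≤ L := by
  set ψ : Sp m → ℝ := fun y => max 0 (R + 1 - ‖y‖) with hψ
  have hc : Continuous ψ := by
    rw [hψ]
    fun_prop
  have hs : HasCompactSupport ψ := by
    refine HasCompactSupport.of_support_subset_isCompact (isCompact_closedBall (0 : Sp m) (R + 1)) ?_
    intro y hy
    rw [mem_closedBall_zero_iff]
    by_contra hcon
    push Not at hcon
    apply hy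
    show max 0 (R + 1 - ‖y‖) = 0
    exact max_eq_left (by linarith)
  have ht := h.2.2 ψ hc hs
  refine ⟨|(q : ℝ) * ∫ y, ψ y ∂(planeMeasure v)| + 1, by positivity, ?_⟩
  have h1 : ∀ᶠ r : ℝ in 𝓝[>] 0, (r ^ m)⁻¹ * ∫ y, ψ (r⁻¹ • (y - x)) ∂μ <
      |(q : ℝ) * ∫ y, ψ y ∂(planeMeasure v)| + 1 :=
    ht.eventually_lt_const (lt_of_le_of_lt (le_abs_self _) (lt_add_one _))
  filter_upwards [h1, self_mem_nhdsWithin] with r hr hr0
  have hr0' : (0 : ℝ) < r := hr0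
  refine le_trans ?_ hr.le
  refine mul_le_mul_of_nonneg_left ?_ (by positivity)
  have h2 : μ.real (closedBall x (R * r)) = ∫ y, (closedBall x (R * r)).indicator 1 y ∂μ := by
    rw [integral_indicator_one measurableSet_closedBall]
  rw [h2]
  have hψb : ∀ y, |ψ y| ≤ R + 1 := by
    intro y
    rw [abs_of_nonneg (le_max_left _ _)]
    exact max_le (by linarith) (by linarith [norm_nonneg y])
  refine integral_mono_of_nonneg (Eventually.of_forall fun y => ?_) ?_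
    (Eventually.of_forall fun y => ?_)
  · exact indicator_nonneg (fun _ _ => zero_le_one) y
  · refine Integrable.of_bound (C := R + 1) ?_ (Eventually.of_forall fun y => ?_)
    · exact (hc.comp (by fun_prop)).aestronglyMeasurable
    · exact hψb _
  · by_cases hy : y ∈ closedBall x (R * r)
    · rw [indicator_of_mem hy]
      show (1 : ℝ) ≤ max 0 (R + 1 - ‖r⁻¹ • (y - x)‖)
      refine le_max_of_le_right ?_
      rw [mem_closedBall, dist_eq_norm] at hy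
      rw [norm_smul, norm_inv, Real.norm_of_nonneg hr0'.le]
      have h3 : r⁻¹ * ‖y - x‖ ≤ R := by
        rw [inv_mul_le_iff₀ hr0']
        linarith
      linarith
    · rw [indicator_of_notMem hy]
      exact le_max_left _ _

/-- the limit at one point -/
private theorem A1_point {m : ℕ} (μ : Measure (Sp m)) [IsFiniteMeasure μ] (ν : Sp m → Sp m)
    (hν : Measurable ν) (hunit : ∀ᵐ y ∂μ, ‖ν y‖ = 1) {x : Sp m} {q : ℕ}
    (h : HasTangentPlane μ x (ν x) q)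
    (hleb : Tendsto (fun r => (∫⁻ y in closedBall x r, ‖ν y - ν x‖ₑ ∂μ) / μ (closedBall x r))
      (𝓝[>] 0) (𝓝 0))
    (φ : Sp m → ℝ) (hφ : Continuous φ) (hφs : HasCompactSupport φ) (v w : Sp m) :
    Tendsto (fun r : ℝ => (r ^ m)⁻¹ * ∫ y, φ (r⁻¹ • (y - x)) * (⟪ν y, v⟫_ℝ * ⟪ν y, w⟫_ℝ) ∂μ)
      (𝓝[>] 0)
      (𝓝 ((q : ℝ) * (⟪ν x, v⟫_ℝ * ⟪ν x, w⟫_ℝ) * ∫ y, φ y ∂(planeMeasure (ν x)))) := by
  obtain ⟨C, hC⟩ := hφ.bounded_above_of_compact_support hφs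
  have hC0 : 0 ≤ C := (norm_nonneg _).trans (hC 0)
  obtain ⟨R0, hR0⟩ := hφs.isCompact.isBounded.subset_closedBall (0 : Sp m)
  set R := max R0 1 with hR
  have hRpos : 0 < R := lt_of_lt_of_le one_pos (le_max_right _ _)
  have hsupp : ∀ y, R < ‖y‖ → φ y = 0 := by
    intro y hy
    by_contra hcon
    have h1 := hR0 (subset_tsupport φ hcon)
    rw [mem_closedBall_zero_iff] at h1
    have h2 : R0 ≤ R := le_max_left _ _
    linarith
  obtain ⟨L, hL0, hL⟩ := A1_mass μ h hRpos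
  have hmeas : ∀ r : ℝ, AEStronglyMeasurable (fun y => φ (r⁻¹ • (y - x))) μ := fun r =>
    (hφ.comp (by fun_prop)).aestronglyMeasurable
  have hνm : ∀ u : Sp m, AEStronglyMeasurable (fun y => ⟪ν y, u⟫_ℝ) μ := fun u =>
    (hν.inner measurable_const).aestronglyMeasurable
  have hint1 : ∀ r : ℝ, Integrable (fun y => φ (r⁻¹ • (y - x)) *
      (⟪ν y, v⟫_ℝ * ⟪ν y, w⟫_ℝ)) μ := by
    intro r
    refine Integrable.of_bound (C := C * (‖v‖ * ‖w‖))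
      ((hmeas r).mul ((hνm v).mul (hνm w))) ?_
    filter_upwards [hunit] with y hy
    rw [norm_mul, norm_mul]
    have h2 := norm_inner_le_norm (𝕜 := ℝ) (ν y) v
    have h3 := norm_inner_le_norm (𝕜 := ℝ) (ν y) w
    rw [hy, one_mul] at h2 h3
    exact mul_le_mul (hC _) (mul_le_mul h2 h3 (norm_nonneg _) (norm_nonneg _)) (by positivity) hC0
  have hint2 : ∀ r : ℝ, Integrable (fun y => φ (r⁻¹ • (y - x)) *
      (⟪ν x, v⟫_ℝ * ⟪ν x, w⟫_ℝ)) μ := by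
    intro r
    refine Integrable.mul_const ?_ _
    exact Integrable.of_bound (C := C) (hmeas r) (Eventually.of_forall fun y => hC _)
  -- the limit with frozen normal
  have hfr : Tendsto (fun r : ℝ => (r ^ m)⁻¹ * ∫ y, φ (r⁻¹ • (y - x)) *
      (⟪ν x, v⟫_ℝ * ⟪ν x, w⟫_ℝ) ∂μ) (𝓝[>] 0)
      (𝓝 ((q : ℝ) * (⟪ν x, v⟫_ℝ * ⟪ν x, w⟫_ℝ) * ∫ y, φ y ∂(planeMeasure (ν x)))) := by
    have h1 := (h.2.2 φ hφ hφs).mul_const (⟪ν x, v⟫_ℝ * ⟪ν x, w⟫_ℝ)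
    have e1 : (q : ℝ) * (⟪ν x, v⟫_ℝ * ⟪ν x, w⟫_ℝ) * ∫ y, φ y ∂(planeMeasure (ν x)) =
        (q : ℝ) * (∫ y, φ y ∂(planeMeasure (ν x))) * (⟪ν x, v⟫_ℝ * ⟪ν x, w⟫_ℝ) := by ring
    rw [e1]
    refine h1.congr fun r => ?_
    rw [integral_mul_const, mul_assoc]
  -- the difference
  have hdiff : Tendsto (fun r : ℝ => (r ^ m)⁻¹ * ∫ y, φ (r⁻¹ • (y - x)) *
      (⟪ν y, v⟫_ℝ * ⟪ν y, w⟫_ℝ - ⟪ν x, v⟫_ℝ * ⟪ν x, w⟫_ℝ) ∂μ) (𝓝[>] 0) (𝓝 0) := by
    have hmul : Tendsto (fun r : ℝ => R * r) (𝓝[>] 0) (𝓝[>] 0) := by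
      refine tendsto_nhdsWithin_iff.2 ⟨?_, ?_⟩
      · have h1 : Tendsto (fun r : ℝ => R * r) (𝓝 0) (𝓝 (R * 0)) :=
          (continuous_const.mul continuous_id).tendsto 0
        rw [mul_zero] at h1
        exact h1.mono_left nhdsWithin_le_nhds
      · filter_upwards [self_mem_nhdsWithin] with r hr
        exact mul_pos hRpos hr
    have hrat := hleb.comp hmul
    have hrat2 : Tendsto (fun r : ℝ => ((∫⁻ y in closedBall x (R * r), ‖ν y - ν x‖ₑ ∂μ) /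
        μ (closedBall x (R * r))).toReal) (𝓝[>] 0) (𝓝 0) := by
      have h1 := (ENNReal.tendsto_toReal ENNReal.zero_ne_top).comp hrat
      rw [ENNReal.toReal_zero] at h1
      exact h1
    have hbound : Tendsto (fun r : ℝ => C * (2 * (‖v‖ * ‖w‖)) * L *
        ((∫⁻ y in closedBall x (R * r), ‖ν y - ν x‖ₑ ∂μ) /
        μ (closedBall x (R * r))).toReal) (𝓝[>] 0) (𝓝 0) := by
      have h1 := hrat2.const_mul (C * (2 * (‖v‖ * ‖w‖)) * L)
      rw [mul_zero] at h1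
      exact h1
    refine squeeze_zero_norm' ?_ hbound
    filter_upwards [hL, self_mem_nhdsWithin] with r hr hr0
    have hr0' : (0 : ℝ) < r := hr0
    have hIint : Integrable (fun y => ‖ν y - ν x‖) (μ.restrict (closedBall x (R * r))) := by
      refine Integrable.of_bound (C := 2) ?_ ?_
      · exact ((hν.sub_const (ν x)).norm).aestronglyMeasurable
      · refine ae_restrict_of_ae ?_
        filter_upwards [hunit] with y hy
        rw [norm_norm]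
        have h1 := norm_sub_le (ν y) (ν x)
        rw [hy, h.1] at h1
        linarith
    have h1 : ‖∫ y, φ (r⁻¹ • (y - x)) *
        (⟪ν y, v⟫_ℝ * ⟪ν y, w⟫_ℝ - ⟪ν x, v⟫_ℝ * ⟪ν x, w⟫_ℝ) ∂μ‖ ≤
        C * (2 * (‖v‖ * ‖w‖)) * ∫ y in closedBall x (R * r), ‖ν y - ν x‖ ∂μ := by
      rw [← integral_const_mul, ← integral_indicator measurableSet_closedBall]
      refine norm_integral_le_of_norm_le ?_ ?_
      · exact (integrable_indicator_iff measurableSet_closedBall).2 (hIint.const_mul _)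
      · filter_upwards [hunit] with y hy
        by_cases hy2 : y ∈ closedBall x (R * r)
        · rw [indicator_of_mem hy2, norm_mul]
          have h2 := A1_bil (ν y) (ν x) v w hy h.1
          calc ‖φ (r⁻¹ • (y - x))‖ * ‖⟪ν y, v⟫_ℝ * ⟪ν y, w⟫_ℝ - ⟪ν x, v⟫_ℝ * ⟪ν x, w⟫_ℝ‖ ≤
              C * (2 * (‖v‖ * ‖w‖) * ‖ν y - ν x‖) :=
                mul_le_mul (hC _) h2 (norm_nonneg _) hC0
            _ = C * (2 * (‖v‖ * ‖w‖)) * ‖ν y - ν x‖ := by ring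
        · rw [indicator_of_notMem hy2]
          have h2 : φ (r⁻¹ • (y - x)) = 0 := by
            refine hsupp _ ?_
            rw [mem_closedBall, dist_eq_norm] at hy2
            push Not at hy2
            rw [norm_smul, norm_inv, Real.norm_of_nonneg hr0'.le, lt_inv_mul_iff₀ hr0']
            linarith
          rw [h2, zero_mul, norm_zero]
    have h2 : ∫ y in closedBall x (R * r), ‖ν y - ν x‖ ∂μ =
        ((∫⁻ y in closedBall x (R * r), ‖ν y - ν x‖ₑ ∂μ) /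
        μ (closedBall x (R * r))).toReal * μ.real (closedBall x (R * r)) := by
      rw [integral_norm_eq_lintegral_enorm ((hν.sub_const (ν x)).aestronglyMeasurable)]
      rw [Measure.real, ← ENNReal.toReal_mul]
      congr 1
      by_cases h0 : μ (closedBall x (R * r)) = 0
      · rw [h0, mul_zero, Measure.restrict_eq_zero.2 h0, lintegral_zero_measure]
      · exact (ENNReal.div_mul_cancel h0 (measure_ne_top _ _)).symm
    rw [norm_mul, Real.norm_of_nonneg (by positivity : (0 : ℝ) ≤ (r ^ m)⁻¹)]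
    set ρ := ((∫⁻ y in closedBall x (R * r), ‖ν y - ν x‖ₑ ∂μ) /
        μ (closedBall x (R * r))).toReal with hρ
    have hρ0 : 0 ≤ ρ := ENNReal.toReal_nonneg
    rw [h2] at h1
    calc (r ^ m)⁻¹ * ‖∫ y, φ (r⁻¹ • (y - x)) *
        (⟪ν y, v⟫_ℝ * ⟪ν y, w⟫_ℝ - ⟪ν x, v⟫_ℝ * ⟪ν x, w⟫_ℝ) ∂μ‖ ≤
        (r ^ m)⁻¹ * (C * (2 * (‖v‖ * ‖w‖)) * (ρ * μ.real (closedBall x (R * r)))) :=
          mul_le_mul_of_nonneg_left h1 (by positivity)
      _ = (C * (2 * (‖v‖ * ‖w‖)) * ρ) * ((r ^ m)⁻¹ * μ.real (closedBall x (R * r))) := by ring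
      _ ≤ (C * (2 * (‖v‖ * ‖w‖)) * ρ) * L :=
          mul_le_mul_of_nonneg_left hr (by positivity)
      _ = C * (2 * (‖v‖ * ‖w‖)) * L * ρ := by ring
  have hsum := hfr.add hdiff
  rw [add_zero] at hsum
  refine hsum.congr fun r => ?_
  rw [← mul_add, ← integral_add (hint2 r)]
  · congr 1
    refine integral_congr_ae (Eventually.of_forall fun y => ?_)
    show φ (r⁻¹ • (y - x)) * (⟪ν x, v⟫_ℝ * ⟪ν x, w⟫_ℝ) + φ (r⁻¹ • (y - x)) *
      (⟪ν y, v⟫_ℝ * ⟪ν y, w⟫_ℝ - ⟪ν x, v⟫_ℝ * ⟪ν x, w⟫_ℝ) = _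
    ring
  · refine ((hint1 r).sub (hint2 r)).congr (Eventually.of_forall fun y => ?_)
    show φ (r⁻¹ • (y - x)) * (⟪ν y, v⟫_ℝ * ⟪ν y, w⟫_ℝ) -
      φ (r⁻¹ • (y - x)) * (⟪ν x, v⟫_ℝ * ⟪ν x, w⟫_ℝ) = _
    ring

theorem A1 {m : ℕ} (μ : Measure (Sp m)) [IsFiniteMeasure μ] (ν : Sp m → Sp m)
    (hν : Measurable ν) (ht : ∀ᵐ x ∂μ, ∃ q : ℕ, HasTangentPlane μ x (ν x) q) :
    ∀ᵐ x ∂μ, ∃ q : ℕ, ‖ν x‖ = 1 ∧ 1 ≤ q ∧
      ∀ φ : Sp m → ℝ, Continuous φ → HasCompactSupport φ → ∀ v w : Sp m,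
        Tendsto (fun r : ℝ => (r ^ m)⁻¹ * ∫ y, φ (r⁻¹ • (y - x)) * (⟪ν y, v⟫_ℝ * ⟪ν y, w⟫_ℝ) ∂μ)
          (𝓝[>] 0)
          (𝓝 ((q : ℝ) * (⟪ν x, v⟫_ℝ * ⟪ν x, w⟫_ℝ) * ∫ y, φ y ∂(planeMeasure (ν x)))) := by
  have hunit : ∀ᵐ y ∂μ, ‖ν y‖ = 1 := by
    filter_upwards [ht] with y hy
    obtain ⟨q, hq⟩ := hy
    exact hq.1
  have hint : Integrable ν μ := by
    refine Integrable.of_bound (C := 1) hν.aestronglyMeasurable ?_
    filter_upwards [hunit] with y hy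
    exact hy.le
  have hleb := (Besicovitch.vitaliFamily μ).ae_tendsto_lintegral_enorm_sub_div_of_integrable hint
  filter_upwards [ht, hleb] with x hx hl
  obtain ⟨q, hq⟩ := hx
  exact ⟨q, hq.1, hq.2.1, fun φ hφ hφs v w =>
    A1_point μ ν hν hunit hq (hl.comp (Besicovitch.tendsto_filterAt μ x)) φ hφ hφs v w⟩

end P214
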