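import Vale.Agent.P214.Defs

/-!
A2. Scaling identity: apply the potential identity to phi((y - x)/r), change variables y = x + r z, and use that the integral of a second derivative of a compactly supported function is 0.
-/

namespace P214

open MeasureTheory Set Filter Metric
open scoped Topology ContDiff InnerProductSpace ENNReal

/-- derivative after rescaling -/
theorem A2_fderiv {m : ℕ} {F : Type*} [NormedAddCommGroup F] [NormedSpace ℝ F] (G : Sp m → F)
    (hG : Differentiable ℝ G) (r : ℝ) (x y : Sp m) :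
    fderiv ℝ (fun y => G (r⁻¹ • (y - x))) y = r⁻¹ • fderiv ℝ G (r⁻¹ • (y - x)) := by
  have h1 : HasFDerivAt (fun y : Sp m => r⁻¹ • (y - x)) (r⁻¹ • ContinuousLinearMap.id ℝ (Sp m)) y :=
    ((hasFDerivAt_id y).sub_const x).const_smul r⁻¹
  have h2 := ((hG (r⁻¹ • (y - x))).hasFDerivAt).comp y h1
  rw [ContinuousLinearMap.comp_smul, ContinuousLinearMap.comp_id] at h2
  exact h2.fderiv

/-- second derivative after rescaling -/
theorem A2_fderiv2 {m : ℕ} (φ : Sp m → ℝ) (hφ : ContDiff ℝ ∞ φ) (r : ℝ) (x y v w : Sp m) :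
    fderiv ℝ (fderiv ℝ (fun y => φ (r⁻¹ • (y - x)))) y v w =
      r⁻¹ * (r⁻¹ * fderiv ℝ (fderiv ℝ φ) (r⁻¹ • (y - x)) v w) := by
  have hd1 : Differentiable ℝ φ := hφ.differentiable (by simp)
  have hd2 : Differentiable ℝ (fderiv ℝ φ) :=
    (hφ.fderiv_right (m := 1) (by norm_cast)).differentiable one_ne_zero
  have e1 : fderiv ℝ (fun y => φ (r⁻¹ • (y - x))) =
      fun y => r⁻¹ • (fun y => fderiv ℝ φ (r⁻¹ • (y - x))) y := by
    funext y
    exact A2_fderiv φ hd1 r x y
  rw [e1]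
  have hd3 : DifferentiableAt ℝ (fun y => fderiv ℝ φ (r⁻¹ • (y - x))) y := by
    have h1 : HasFDerivAt (fun y : Sp m => r⁻¹ • (y - x)) (r⁻¹ • ContinuousLinearMap.id ℝ (Sp m)) y :=
      ((hasFDerivAt_id y).sub_const x).const_smul r⁻¹
    exact (((hd2 (r⁻¹ • (y - x))).hasFDerivAt).comp y h1).differentiableAt
  rw [fderiv_fun_const_smul hd3, A2_fderiv (fderiv ℝ φ) hd2 r x y]
  simp only [smul_apply, smul_eq_mul]

/-- the integral of a second derivative of a compactly supported function is zero -/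
theorem A2_int {m : ℕ} (φ : Sp m → ℝ) (hφ : ContDiff ℝ ∞ φ) (hc : HasCompactSupport φ)
    (v w : Sp m) : ∫ z, fderiv ℝ (fderiv ℝ φ) z v w = 0 := by
  have hC1 : ContDiff ℝ 1 (fderiv ℝ φ) := hφ.fderiv_right (m := 1) (by norm_cast)
  have hd2 : Differentiable ℝ (fderiv ℝ φ) := hC1.differentiable one_ne_zero
  have hg : Differentiable ℝ (fun z => fderiv ℝ φ z w) := fun z =>
    (hd2 z).clm_apply (differentiableAt_const w)
  have e1 : ∀ z, fderiv ℝ (fun z => fderiv ℝ φ z w) z v = fderiv ℝ (fderiv ℝ φ) z v w := by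
    intro z
    rw [fderiv_clm_apply (hd2 z) (differentiableAt_const w)]
    simp
  have hgs : HasCompactSupport (fun z => fderiv ℝ φ z w) := hc.fderiv_apply ℝ w
  have hgc : Continuous (fun z => fderiv ℝ φ z w) := hg.continuous
  have hDc : Continuous (fun z => fderiv ℝ (fderiv ℝ φ) z v w) :=
    ((hC1.continuous_fderiv one_ne_zero).clm_apply continuous_const).clm_apply continuous_const
  have hDs : HasCompactSupport (fun z => fderiv ℝ (fun z => fderiv ℝ φ z w) z v) :=
    hgs.fderiv_apply ℝ v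
  simp only [e1] at hDs
  have h := integral_mul_fderiv_eq_neg_fderiv_mul_of_integrable (μ := (volume : Measure (Sp m)))
    (f := fun _ : Sp m => (1 : ℝ)) (g := fun z => fderiv ℝ φ z w) (v := v) ?_ ?_ ?_
    (fun _ _ => differentiableAt_const _) (fun x _ => hg x)
  · simp only [one_mul, e1] at h
    rw [h]
    simp
  · simp
  · simp only [one_mul, e1]
    exact hDc.integrable_of_hasCompactSupport hDs
  · simp only [one_mul]
    exact hgc.integrable_of_hasCompactSupport hgs

/-- change of variables -/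
theorem A2_cov {m : ℕ} (f g : Sp m → ℝ) (x : Sp m) {r : ℝ} (hr : 0 < r) :
    ∫ y, f y * g (r⁻¹ • (y - x)) = r ^ (m + 1) * ∫ z, f (x + r • z) * g z := by
  have h1 := integral_add_left_eq_self (μ := (volume : Measure (Sp m)))
    (fun y => f y * g (r⁻¹ • (y - x))) x
  have h2 := Measure.integral_comp_smul (volume : Measure (Sp m))
    (fun y => f (x + y) * g (r⁻¹ • (x + y - x))) r
  rw [finrank_euclideanSpace_fin, h1, abs_of_pos (by positivity), smul_eq_mul] at h2
  have h3 : ∀ z : Sp m, f (x + r • z) * g (r⁻¹ • (x + r • z - x)) = f (x + r • z) * g z := by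
    intro z
    rw [add_sub_cancel_left, smul_smul, inv_mul_cancel₀ hr.ne', one_smul]
  simp only [h3] at h2
  rw [h2, ← mul_assoc, mul_inv_cancel₀ (by positivity), one_mul]

theorem A2 {m : ℕ} {U : Set (Sp m)} {μ : Measure (Sp m)} {ν : Sp m → Sp m} {f : Sp m → ℝ}
    (h : Core U μ ν f) (x : Sp m) (hx : x ∈ U) (φ : Sp m → ℝ) (hφ : ContDiff ℝ ∞ φ)
    (hc : HasCompactSupport φ) (v w : Sp m) :
    ∀ᶠ r in 𝓝[>] (0 : ℝ),
      (r ^ m)⁻¹ * ∫ y, φ (r⁻¹ • (y - x)) * (⟪ν y, v⟫_ℝ * ⟪ν y, w⟫_ℝ) ∂μ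
        = ∫ z, ((f (x + r • z) - f x) / r) * fderiv ℝ (fderiv ℝ φ) z v w := by
  obtain ⟨R, hR0, hR⟩ : ∃ R > 0, tsupport φ ⊆ closedBall (0 : Sp m) R := by
    obtain ⟨R, hR⟩ := (hc : IsCompact (tsupport φ)).isBounded.subset_closedBall (0 : Sp m)
    exact ⟨max R 1, lt_of_lt_of_le one_pos (le_max_right _ _),
      hR.trans (closedBall_subset_closedBall (le_max_left _ _))⟩
  obtain ⟨ε, hε, hU⟩ := Metric.isOpen_iff.1 h.isOpen x hx
  have hev : ∀ᶠ r in 𝓝[>] (0 : ℝ), r ∈ Ioo 0 (ε / R) := Ioo_mem_nhdsGT (by positivity)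
  filter_upwards [hev] with r hr
  have hr0 : 0 < r := hr.1
  have hrR : r * R < ε := by
    have := hr.2
    rwa [lt_div_iff₀ hR0] at this
  have hL : ContDiff ℝ ∞ (fun y : Sp m => r⁻¹ • (y - x)) := by fun_prop
  have hφr : ContDiff ℝ ∞ (fun y => φ (r⁻¹ • (y - x))) := hφ.comp hL
  let e : Sp m ≃ₜ Sp m :=
    { toFun := fun y => r⁻¹ • (y - x)
      invFun := fun z => x + r • z
      left_inv := fun y => by
        show x + r • (r⁻¹ • (y - x)) = y
        rw [smul_smul, mul_inv_cancel₀ hr0.ne', one_smul, add_sub_cancel]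
      right_inv := fun z => by
        show r⁻¹ • (x + r • z - x) = z
        rw [add_sub_cancel_left, smul_smul, inv_mul_cancel₀ hr0.ne', one_smul]
      continuous_toFun := by fun_prop
      continuous_invFun := by fun_prop }
  have hcr : HasCompactSupport (fun y => φ (r⁻¹ • (y - x))) := hc.comp_homeomorph e
  have hsr : tsupport (fun y => φ (r⁻¹ • (y - x))) ⊆ U := by
    have h1 : tsupport (fun y => φ (r⁻¹ • (y - x))) ⊆ e ⁻¹' tsupport φ := by
      refine closure_minimal ?_ ((isClosed_tsupport φ).preimage e.continuous)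
      intro y hy
      exact subset_tsupport φ hy
    intro y hy
    apply hU
    have h2 := hR (h1 hy)
    rw [mem_closedBall_zero_iff] at h2
    have h3 : ‖r⁻¹ • (y - x)‖ ≤ R := h2
    rw [norm_smul, Real.norm_eq_abs, abs_of_pos (by positivity)] at h3
    rw [mem_ball, dist_eq_norm]
    have h4 : ‖y - x‖ ≤ r * R := by
      have := mul_le_mul_of_nonneg_left h3 hr0.le
      rwa [← mul_assoc, mul_inv_cancel₀ hr0.ne', one_mul] at this
    linarith
  have hpot := h.hess _ hφr hcr hsr v w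
  rw [← hpot]
  simp only [A2_fderiv2 φ hφ r x]
  have hC1 : ContDiff ℝ 1 (fderiv ℝ φ) := hφ.fderiv_right (m := 1) (by norm_cast)
  have hDc : Continuous (fun z => fderiv ℝ (fderiv ℝ φ) z v w) :=
    ((hC1.continuous_fderiv one_ne_zero).clm_apply continuous_const).clm_apply continuous_const
  have hDs : HasCompactSupport (fun z => fderiv ℝ (fderiv ℝ φ) z v w) := by
    have h1 : HasCompactSupport (fderiv ℝ (fderiv ℝ φ)) := (hc.fderiv ℝ).fderiv ℝ
    exact h1.comp_left (g := fun T : Sp m →L[ℝ] Sp m →L[ℝ] ℝ => T v w) (by simp)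
  have hfc : Continuous f := h.conv.locallyLipschitz.continuous
  have hcov := A2_cov f (fun z => fderiv ℝ (fderiv ℝ φ) z v w) x hr0
  have e1 : ∀ y, f y * (r⁻¹ * (r⁻¹ * fderiv ℝ (fderiv ℝ φ) (r⁻¹ • (y - x)) v w)) =
      (r⁻¹ * r⁻¹) * (f y * fderiv ℝ (fderiv ℝ φ) (r⁻¹ • (y - x)) v w) := fun y => by ring
  simp only [e1]
  rw [integral_const_mul, hcov]
  have hI1 : Integrable (fun z => f (x + r • z) * fderiv ℝ (fderiv ℝ φ) z v w) :=
    ((hfc.comp (by fun_prop)).mul hDc).integrable_of_hasCompactSupport hDs.mul_left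
  have hI2 : Integrable (fun z => f x * fderiv ℝ (fderiv ℝ φ) z v w) :=
    (hDc.integrable_of_hasCompactSupport hDs).const_mul _
  have e2 : ∀ z, (f (x + r • z) - f x) / r * fderiv ℝ (fderiv ℝ φ) z v w =
      r⁻¹ * (f (x + r • z) * fderiv ℝ (fderiv ℝ φ) z v w - f x * fderiv ℝ (fderiv ℝ φ) z v w) :=
    fun z => by ring
  simp only [e2]
  rw [integral_const_mul, integral_sub hI1 hI2, integral_const_mul, A2_int φ hφ hc v w, mul_zero,
    sub_zero]
  have hrm : r ^ m ≠ 0 := by positivity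
  rw [pow_succ]
  field_simp

end P214
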