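import Vale.Agent.P214.Defs

/-!
A3. Directional derivative F of a convex function on the whole space at x: existence, continuity,
homogeneity, F z = max over the subdifferential of <p,z>.
-/

namespace P214

open MeasureTheory Set Filter Metric
open scoped Topology ContDiff InnerProductSpace ENNReal

theorem A3_line {m : ℕ} (f : Sp m → ℝ) (hf : ConvexOn ℝ univ f) (x z : Sp m) :
    ConvexOn ℝ univ (fun t : ℝ => f (x + t • z)) := by
  refine ⟨convex_univ, ?_⟩
  intro a _ b _ s t hs ht hst
  have h := hf.2 (mem_univ (x + a • z)) (mem_univ (x + b • z)) hs ht hst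
  have e : s • (x + a • z) + t • (x + b • z) = x + (s • a + t • b) • z := by
    have : x = (s + t) • x := by rw [hst, one_smul]
    simp only [smul_eq_mul]
    rw [smul_add, smul_add, add_smul, smul_smul, smul_smul]
    conv_rhs => rw [this, add_smul]
    abel
  rw [e] at h
  exact h

theorem A3 {m : ℕ} (f : Sp m → ℝ) (hf : ConvexOn ℝ univ f) (x : Sp m) :
    ∃ F : Sp m → ℝ, Continuous F ∧ (∀ (t : ℝ) (z : Sp m), 0 ≤ t → F (t • z) = t * F z) ∧
      (∀ z, Tendsto (fun r : ℝ => (f (x + r • z) - f x) / r) (𝓝[>] 0) (𝓝 (F z))) ∧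
      (∀ z, ∀ p ∈ sub f x, ⟪p, z⟫_ℝ ≤ F z) ∧ (∀ z, ∃ p ∈ sub f x, ⟪p, z⟫_ℝ = F z) ∧
      (∀ p : Sp m, (∀ z, ⟪p, z⟫_ℝ ≤ F z) → p ∈ sub f x) := by
  have hline := A3_line f hf x
  have hex : ∀ z : Sp m, ∃ a : ℝ,
      Tendsto (fun r : ℝ => (f (x + r • z) - f x) / r) (𝓝[>] 0) (𝓝 a) ∧
        ∀ r : ℝ, 0 < r → a ≤ (f (x + r • z) - f x) / r := by
    intro z
    have h1 := (hline z).hasDerivWithinAt_sInf_slope_of_mem_interior
      (x := 0) (by simp)
    have h2 := h1
    rw [hasDerivWithinAt_iff_tendsto_slope] at h1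
    simp only [mem_Ioi, lt_self_iff_false, not_false_eq_true, sdiff_singleton_eq_self] at h1
    refine ⟨sInf (slope (fun t : ℝ => f (x + t • z)) 0 '' {y | y ∈ univ ∧ 0 < y}), ?_, ?_⟩
    · refine h1.congr' ?_
      filter_upwards [self_mem_nhdsWithin] with r hr
      simp [slope_def_field]
    · intro r hr
      have h3 := (hline z).le_slope_of_hasDerivWithinAt_Ioi (mem_univ 0) (mem_univ r) hr h2
      simpa [slope_def_field] using h3
  choose F hF hFle using hex
  have hhom : ∀ (t : ℝ) (z : Sp m), 0 ≤ t → F (t • z) = t * F z := by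
    intro t z ht
    rcases eq_or_lt_of_le ht with h0 | h0
    · rw [← h0, zero_smul, zero_mul]
      refine tendsto_nhds_unique (hF 0) ?_
      simp
    · refine tendsto_nhds_unique (hF (t • z)) ?_
      have h1 : Tendsto (fun r : ℝ => r * t) (𝓝[>] 0) (𝓝[>] 0) := by
        refine tendsto_nhdsWithin_iff.2 ⟨?_, ?_⟩
        · have : Tendsto (fun r : ℝ => r * t) (𝓝 0) (𝓝 (0 * t)) :=
            tendsto_id.mul_const t
          rw [zero_mul] at this
          exact this.mono_left nhdsWithin_le_nhds
        · filter_upwards [self_mem_nhdsWithin] with r hr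
          exact mul_pos hr h0
      have h2 := ((hF z).comp h1).const_mul t
      refine h2.congr' ?_
      filter_upwards [self_mem_nhdsWithin] with r hr
      have hr' : (0 : ℝ) < r := hr
      simp only [Function.comp, smul_smul]
      field_simp
  have hadd : ∀ z w : Sp m, F (z + w) ≤ F z + F w := by
    intro z w
    have h1 : Tendsto (fun r : ℝ => 2 * r) (𝓝[>] 0) (𝓝[>] 0) := by
      refine tendsto_nhdsWithin_iff.2 ⟨?_, ?_⟩
      · have : Tendsto (fun r : ℝ => 2 * r) (𝓝 0) (𝓝 (2 * 0)) :=
          tendsto_id.const_mul 2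
        rw [mul_zero] at this
        exact this.mono_left nhdsWithin_le_nhds
      · filter_upwards [self_mem_nhdsWithin] with r hr
        have hr' : (0 : ℝ) < r := hr
        exact mul_pos two_pos hr'
    refine le_of_tendsto_of_tendsto (hF (z + w)) (((hF z).comp h1).add ((hF w).comp h1)) ?_
    filter_upwards [self_mem_nhdsWithin] with r hr
    have hr' : (0 : ℝ) < r := hr
    have h2 := hf.2 (mem_univ (x + (2 * r) • z)) (mem_univ (x + (2 * r) • w))
      (by norm_num : (0 : ℝ) ≤ 1 / 2) (by norm_num : (0 : ℝ) ≤ 1 / 2) (by norm_num)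
    have e : (1 / 2 : ℝ) • (x + (2 * r) • z) + (1 / 2 : ℝ) • (x + (2 * r) • w)
        = x + r • (z + w) := by
      rw [smul_add, smul_add, smul_smul, smul_smul, smul_add]
      have e1 : (1 / 2 : ℝ) * (2 * r) = r := by ring
      rw [e1]
      have e2 : x = (1 / 2 : ℝ) • x + (1 / 2 : ℝ) • x := by
        rw [← add_smul]; norm_num
      conv_rhs => rw [e2]
      abel
    rw [e] at h2
    simp only [Function.comp, smul_eq_mul] at h2 ⊢
    rw [← add_div, div_le_div_iff₀ hr' (by positivity)]
    nlinarith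
  have hconv : ConvexOn ℝ univ F := by
    refine ⟨convex_univ, ?_⟩
    intro a _ b _ s t hs ht _
    have h := hadd (s • a) (t • b)
    rw [hhom s a hs, hhom t b ht] at h
    exact h
  have h0 : F 0 = 0 := by
    have := hhom 0 0 le_rfl
    simpa using this
  have hmem : ∀ p : Sp m, (∀ z, ⟪p, z⟫_ℝ ≤ F z) → p ∈ sub f x := by
    intro p hp y
    have h1 := hp (y - x)
    have h2 := hFle (y - x) 1 one_pos
    simp only [one_smul, div_one, add_sub_cancel] at h2
    linarith
  have hHB : ∀ z : Sp m, z ≠ 0 → ∃ p ∈ sub f x, ⟪p, z⟫_ℝ = F z := by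
    intro z hz
    obtain ⟨g, hg1, hg2⟩ := exists_extension_of_le_sublinear
      (LinearPMap.mkSpanSingleton (K := ℝ) z (F z) hz) F
      (fun c hc y => hhom c y hc.le) hadd (by
        rintro ⟨y, hy⟩
        obtain ⟨t, rfl⟩ := Submodule.mem_span_singleton.1 hy
        have e0 : (LinearPMap.mkSpanSingleton (K := ℝ) z (F z) hz) ⟨t • z, hy⟩ = t * F z := by
          have := LinearPMap.mkSpanSingleton'_apply (R := ℝ) z (F z)
            (fun (c : ℝ) (hc : c • z = 0) => (smul_eq_zero.1 hc).elim (fun h => by simp [h])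
              fun h => absurd h hz) t hy
          simpa using this
        rw [e0]
        rcases le_total 0 t with ht | ht
        · rw [hhom t z ht]
        · have h1 := hadd (t • z) ((-t) • z)
          rw [hhom (-t) z (by linarith), ← add_smul, add_neg_cancel, zero_smul, h0] at h1
          linarith)
    refine ⟨(InnerProductSpace.toDual ℝ (Sp m)).symm (LinearMap.toContinuousLinearMap g), ?_, ?_⟩
    · apply hmem
      intro y
      rw [InnerProductSpace.toDual_symm_apply]
      exact hg2 y
    · rw [InnerProductSpace.toDual_symm_apply]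
      have hy : (1 : ℝ) • z ∈
          (LinearPMap.mkSpanSingleton (K := ℝ) z (F z) hz : Sp m →ₗ.[ℝ] ℝ).domain :=
        Submodule.smul_mem _ _ (Submodule.mem_span_singleton_self (R := ℝ) z)
      have h1 := hg1 ⟨(1 : ℝ) • z, hy⟩
      have e0 := LinearPMap.mkSpanSingleton'_apply (R := ℝ) z (F z)
            (fun (c : ℝ) (hc : c • z = 0) => (smul_eq_zero.1 hc).elim (fun h => by simp [h])
              fun h => absurd h hz) 1 hy
      have e1 : (LinearPMap.mkSpanSingleton (K := ℝ) z (F z) hz : Sp m →ₗ.[ℝ] ℝ)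
          ⟨(1 : ℝ) • z, hy⟩ = F z := by
        simpa using e0
      rw [e1] at h1
      simpa using h1
  refine ⟨F, hconv.locallyLipschitz.continuous, hhom, hF, ?_, ?_, hmem⟩
  · intro z p hp
    refine ge_of_tendsto (hF z) ?_
    filter_upwards [self_mem_nhdsWithin] with r hr
    have hr' : (0 : ℝ) < r := hr
    rw [le_div_iff₀ hr']
    have h1 := hp (x + r • z)
    rw [add_sub_cancel_left, inner_smul_right] at h1
    linarith
  · intro z
    by_cases hz : z = 0
    · have hne : (EuclideanSpace.single (0 : Fin (m + 1)) (1 : ℝ)) ≠ 0 := by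
        intro h
        have := congrArg (fun u => u 0) h
        simp at this
      obtain ⟨p, hp, _⟩ := hHB _ hne
      exact ⟨p, hp, by rw [hz, inner_zero_right, h0]⟩
    · exact hHB z hz

end P214
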