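import Vale.Agent.P214.Defs

/-!
A3B. Limit of the blow-ups tested against a compactly supported continuous function (dominated convergence, local Lipschitz bound of the convex function f).
-/

namespace P214

open MeasureTheory Set Filter Metric
open scoped Topology ContDiff InnerProductSpace ENNReal

private theorem A3B_upper {m : ℕ} (f : Sp m → ℝ) (hf : ConvexOn ℝ univ f) (x z : Sp m) (r : ℝ)
    (hr : 0 < r) (hr1 : r ≤ 1) : (f (x + r • z) - f x) / r ≤ f (x + z) - f x := by
  have h := hf.2 (mem_univ x) (mem_univ (x + z)) (sub_nonneg.2 hr1) hr.le (by ring)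
  have e : (1 - r) • x + r • (x + z) = x + r • z := by
    rw [smul_add, ← add_assoc, ← add_smul]
    simp
  rw [e] at h
  simp only [smul_eq_mul] at h
  rw [div_le_iff₀ hr]
  nlinarith

private theorem A3B_lower {m : ℕ} (f : Sp m → ℝ) (hf : ConvexOn ℝ univ f) (x z : Sp m) (r : ℝ)
    (hr : 0 < r) : f x - f (x - z) ≤ (f (x + r • z) - f x) / r := by
  have h1 : 0 < 1 + r := by linarith
  have h := hf.2 (mem_univ (x - z)) (mem_univ (x + r • z))
    (show 0 ≤ r / (1 + r) by positivity) (show 0 ≤ 1 / (1 + r) by positivity)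
    (by field_simp; ring)
  have e : (r / (1 + r)) • (x - z) + (1 / (1 + r)) • (x + r • z) = x := by
    have : (r / (1 + r)) • (x - z) + (1 / (1 + r)) • (x + r • z) =
        (r / (1 + r) + 1 / (1 + r)) • x + ((1 / (1 + r)) * r - r / (1 + r)) • z := by
      module
    rw [this]
    have a1 : r / (1 + r) + 1 / (1 + r) = 1 := by field_simp; ring
    have a2 : (1 / (1 + r)) * r - r / (1 + r) = 0 := by ring
    rw [a1, a2]
    simp
  rw [e] at h
  simp only [smul_eq_mul] at h
  rw [le_div_iff₀ hr]
  have h2 : (1 + r) * f x ≤ r * f (x - z) + f (x + r • z) := by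
    have := mul_le_mul_of_nonneg_left h h1.le
    have e2 : (1 + r) * (r / (1 + r) * f (x - z) + 1 / (1 + r) * f (x + r • z)) =
        r * f (x - z) + f (x + r • z) := by
      field_simp
    linarith
  linarith

theorem A3B {m : ℕ} (f : Sp m → ℝ) (hf : ConvexOn ℝ univ f) (x : Sp m) (F : Sp m → ℝ)
    (hF : ∀ z, Tendsto (fun r : ℝ => (f (x + r • z) - f x) / r) (𝓝[>] 0) (𝓝 (F z)))
    (ψ : Sp m → ℝ) (hψ : Continuous ψ) (hc : HasCompactSupport ψ) :
    Tendsto (fun r : ℝ => ∫ z, ((f (x + r • z) - f x) / r) * ψ z) (𝓝[>] 0)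
      (𝓝 (∫ z, F z * ψ z)) := by
  have hcf : Continuous f := hf.locallyLipschitz.continuous
  refine tendsto_integral_filter_of_dominated_convergence
    (fun z => (|f (x + z) - f x| + |f x - f (x - z)|) * |ψ z|) ?_ ?_ ?_ ?_
  · refine Eventually.of_forall fun r => ?_
    exact Continuous.aestronglyMeasurable (by fun_prop)
  · filter_upwards [self_mem_nhdsWithin, Ioc_mem_nhdsGT (zero_lt_one' ℝ)] with r hr hr1
    refine Eventually.of_forall fun z => ?_
    rw [Real.norm_eq_abs, abs_mul]
    refine mul_le_mul_of_nonneg_right ?_ (abs_nonneg _)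
    have u := A3B_upper f hf x z r hr hr1.2
    have l := A3B_lower f hf x z r hr
    rw [abs_le]
    constructor
    · linarith [neg_abs_le (f x - f (x - z)), abs_nonneg (f (x + z) - f x)]
    · linarith [le_abs_self (f (x + z) - f x), abs_nonneg (f x - f (x - z))]
  · refine Continuous.integrable_of_hasCompactSupport (by fun_prop) ?_
    exact (hc.comp_left (g := fun t : ℝ => |t|) (by simp)).mul_left
  · refine Eventually.of_forall fun z => ?_
    exact (hF z).mul_const _

end P214
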