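import Vale.Agent.P214.Defs

/-!
PL. Elementary facts on planeMeasure: sigma-finite, finite on compacts, carried by the hyperplane, finite integrals.
-/

namespace P214

open MeasureTheory Set Filter Metric
open scoped Topology ContDiff InnerProductSpace ENNReal

theorem PL_meas {m : ℕ} (v : Sp m) :
    Measurable (fun y : ((ℝ ∙ v)ᗮ : Submodule ℝ (Sp m)) => (y : Sp m)) :=
  measurable_subtype_coe

instance instLocFinPlane {m : ℕ} (e : Sp m) : IsFiniteMeasureOnCompacts (planeMeasure e) := by
  refine ⟨fun K hK => ?_⟩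
  unfold planeMeasure
  rw [Measure.map_apply (PL_meas e) hK.isClosed.measurableSet]
  have h1 : Topology.IsClosedEmbedding
      (fun y : ((ℝ ∙ e)ᗮ : Submodule ℝ (Sp m)) => (y : Sp m)) :=
    (Submodule.isClosed_orthogonal _).isClosedEmbedding_subtypeVal
  exact (h1.isCompact_preimage hK).measure_lt_top

instance instSigmaFinitePlane {m : ℕ} (e : Sp m) : SigmaFinite (planeMeasure e) := by
  infer_instance

theorem PL {m : ℕ} (e : Sp m) : ∀ᵐ y ∂(planeMeasure e), ⟪y, e⟫_ℝ = 0 := by
  unfold planeMeasure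
  rw [ae_map_iff (PL_meas e).aemeasurable
    (measurableSet_eq_fun (by fun_prop) measurable_const)]
  refine Eventually.of_forall fun y => ?_
  exact Submodule.mem_orthogonal_singleton_iff_inner_left.1 y.2

theorem PL_pos {m : ℕ} (e : Sp m) (y : Sp m) (hy : ⟪y, e⟫_ℝ = 0) (r : ℝ) (hr : 0 < r) :
    0 < planeMeasure e (ball y r) := by
  have hy' : y ∈ ((ℝ ∙ e)ᗮ : Submodule ℝ (Sp m)) :=
    Submodule.mem_orthogonal_singleton_iff_inner_left.2 hy
  unfold planeMeasure
  rw [Measure.map_apply (PL_meas e) measurableSet_ball]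
  refine lt_of_lt_of_le (measure_ball_pos volume
    (⟨y, hy'⟩ : ((ℝ ∙ e)ᗮ : Submodule ℝ (Sp m))) hr) (measure_mono fun z hz => ?_)
  exact hz

end P214
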