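import Vale.Agent.P214.PL

/-!
PM. Orthogonal decomposition: volume = planeMeasure e x Lebesgue (use the orthogonal decomposition isometry, LinearIsometryEquiv.measurePreserving, WithLp volume).
-/

namespace P214

open MeasureTheory Set Filter Metric
open scoped Topology ContDiff InnerProductSpace ENNReal

theorem PM {m : ℕ} (e : Sp m) (he : ‖e‖ = 1) :
    MeasurePreserving (fun p : Sp m × ℝ => p.1 + p.2 • e)
      ((planeMeasure e).prod (volume : Measure ℝ)) (volume : Measure (Sp m)) := by
  have a1 : MeasurePreserving (Prod.swap : ((ℝ ∙ e)ᗮ : Submodule ℝ (Sp m)) × ℝ → _)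
      (volume.prod volume) (volume.prod volume) := Measure.measurePreserving_swap
  have a2 : MeasurePreserving (Prod.map (LinearIsometryEquiv.toSpanUnitSingleton (𝕜 := ℝ) e he)
      (id : ((ℝ ∙ e)ᗮ : Submodule ℝ (Sp m)) → _)) (volume.prod volume) (volume.prod volume) :=
    (LinearIsometryEquiv.measurePreserving _).prod (MeasurePreserving.id _)
  have a3 := WithLp.volume_preserving_toLp (ℝ ∙ e) ((ℝ ∙ e)ᗮ : Submodule ℝ (Sp m))
  have a4 := ((ℝ ∙ e).orthogonalDecomposition (𝕜 := ℝ)).symm.measurePreserving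
  have a5 := a4.comp (a3.comp (a2.comp a1))
  have hm : Measurable fun p : Sp m × ℝ => p.1 + p.2 • e := by fun_prop
  refine ⟨hm, ?_⟩
  have h1 : (planeMeasure e).prod (volume : Measure ℝ) =
      Measure.map (Prod.map (fun y : ((ℝ ∙ e)ᗮ : Submodule ℝ (Sp m)) => (y : Sp m)) id)
        ((volume : Measure ((ℝ ∙ e)ᗮ : Submodule ℝ (Sp m))).prod (volume : Measure ℝ)) := by
    rw [← Measure.map_prod_map _ _ (PL_meas e) measurable_id, Measure.map_id]
    rfl
  rw [h1, Measure.map_map hm ((PL_meas e).prodMap measurable_id), ← a5.map_eq]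
  congr 1
  funext q
  simp [add_comm]

end P214
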