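import Vale.Agent.P214.Defs
import Vale.Agent.P214.PM
import Vale.Agent.P214.PL

/-!
A4. Hessian of the half-space function (use PM: integrate along lines in direction e; by parts in t; horizontal derivatives integrate to 0, decompose v and w).
-/

namespace P214

open MeasureTheory Set Filter Metric
open scoped Topology ContDiff InnerProductSpace ENNReal

theorem A4_zero {m : ℕ} (e u : Sp m) (hu : ⟪e, u⟫_ℝ = 0) (ψ : Sp m → ℝ) (hψ : ContDiff ℝ 1 ψ)
    (hc : HasCompactSupport ψ) : ∫ z, max ⟪e, z⟫_ℝ 0 * fderiv ℝ ψ z u = 0 := by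
  obtain ⟨D, hD⟩ := hψ.lipschitzWith_of_hasCompactSupport hc one_ne_zero
  have hL : LipschitzWith ‖innerSL ℝ e‖₊ (fun z : Sp m => max ⟪e, z⟫_ℝ 0) :=
    LipschitzWith.max_const (innerSL ℝ e).lipschitz 0
  have h := hL.integral_lineDeriv_mul_eq (μ := volume) hD hc u
  have h1 : ∀ x, lineDeriv ℝ (fun z : Sp m => max ⟪e, z⟫_ℝ 0) x u = 0 := by
    intro x
    unfold lineDeriv
    simp [inner_add_right, inner_smul_right, hu]
  have h2 : ∀ x, lineDeriv ℝ ψ x (-u) = - fderiv ℝ ψ x u := by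
    intro x
    rw [(hψ.differentiable one_ne_zero x).lineDeriv_eq_fderiv, map_neg]
  simp only [h1, h2, zero_mul, integral_zero] at h
  have h3 : ∫ z, max ⟪e, z⟫_ℝ 0 * fderiv ℝ ψ z u =
      - ∫ z, - fderiv ℝ ψ z u * max ⟪e, z⟫_ℝ 0 := by
    rw [← integral_neg]
    refine integral_congr_ae (ae_of_all _ fun z => ?_)
    show _ = -(-_ * _)
    ring
  rw [h3, ← h, neg_zero]

theorem A4_line {g : ℝ → ℝ} (hg : ContDiff ℝ ∞ g) (hc : HasCompactSupport g) :
    ∫ t, max t 0 * deriv (deriv g) t = g 0 := by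
  have hg1 : ContDiff ℝ ∞ (deriv g) := (contDiff_infty_iff_deriv.1 hg).2
  have hg2 : ContDiff ℝ ∞ (deriv (deriv g)) := (contDiff_infty_iff_deriv.1 hg1).2
  have hd0 : ∀ t, HasDerivAt g (deriv g t) t := fun t =>
    (hg.differentiable (by simp) t).hasDerivAt
  have hd1 : ∀ t, HasDerivAt (deriv g) (deriv (deriv g) t) t := fun t =>
    (hg1.differentiable (by simp) t).hasDerivAt
  set F : ℝ → ℝ := fun t => t * deriv g t - g t with hF
  have hFd : ∀ t, HasDerivAt F (t * deriv (deriv g) t) t := by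
    intro t
    have h1 := ((hasDerivAt_id t).mul (hd1 t)).sub (hd0 t)
    refine h1.congr_deriv ?_
    simp
  have hFc : ContDiff ℝ 1 F := ((contDiff_id.mul hg1).sub hg).of_le (by simp)
  have hFs : HasCompactSupport F := (hc.deriv.mul_left).sub hc
  have h2 := hFs.integral_Ioi_deriv_eq hFc 0
  have h3 : deriv F = fun t => t * deriv (deriv g) t := funext fun t => (hFd t).deriv
  rw [h3] at h2
  have h4 : ∫ t, max t 0 * deriv (deriv g) t = ∫ t in Ioi (0 : ℝ), t * deriv (deriv g) t := by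
    rw [← integral_indicator measurableSet_Ioi]
    refine integral_congr_ae (ae_of_all _ fun t => ?_)
    show max t 0 * deriv (deriv g) t = (Ioi (0 : ℝ)).indicator _ t
    by_cases ht : 0 < t
    · rw [indicator_of_mem (show t ∈ Ioi (0 : ℝ) from ht), max_eq_left ht.le]
    · rw [indicator_of_notMem (show t ∉ Ioi (0 : ℝ) from ht), max_eq_right (not_lt.1 ht), zero_mul]
  rw [h4, h2, hF]
  simp

theorem A4_ee {m : ℕ} (e : Sp m) (he : ‖e‖ = 1) (φ : Sp m → ℝ) (hφ : ContDiff ℝ ∞ φ)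
    (hc : HasCompactSupport φ) :
    ∫ z, max ⟪e, z⟫_ℝ 0 * fderiv ℝ (fderiv ℝ φ) z e e = ∫ y, φ y ∂(planeMeasure e) := by
  have hee : ⟪e, e⟫_ℝ = 1 := by rw [real_inner_self_eq_norm_sq, he, one_pow]
  have hφ1 : ContDiff ℝ ∞ (fderiv ℝ φ) := hφ.fderiv_right (by simp)
  have hφ2 : ContDiff ℝ ∞ (fderiv ℝ (fderiv ℝ φ)) := hφ1.fderiv_right (by simp)
  set F : Sp m → ℝ := fun z => max ⟪e, z⟫_ℝ 0 * fderiv ℝ (fderiv ℝ φ) z e e with hF
  have hFcont : Continuous F := by
    refine Continuous.mul ?_ ?_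
    · exact (continuous_const.inner continuous_id).max continuous_const
    · exact (hφ2.continuous.clm_apply continuous_const).clm_apply continuous_const
  have hFs : HasCompactSupport F := by
    refine HasCompactSupport.mul_left ?_
    exact (hc.fderiv (𝕜 := ℝ)).fderiv (𝕜 := ℝ) |>.comp_left
      (g := fun L : Sp m →L[ℝ] Sp m →L[ℝ] ℝ => L e e) rfl
  have hFi : Integrable F volume := hFcont.integrable_of_hasCompactSupport hFs
  have hPM := PM e he
  have hmap : ∫ z, F z = ∫ p : Sp m × ℝ, F (p.1 + p.2 • e)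
      ∂((planeMeasure e).prod (volume : Measure ℝ)) := by
    rw [← hPM.map_eq] at hFi ⊢
    exact integral_map hPM.measurable.aemeasurable hFi.aestronglyMeasurable
  have hsf : SFinite (planeMeasure e) := by
    unfold planeMeasure
    infer_instance
  have hPi : Integrable (fun p : Sp m × ℝ => F (p.1 + p.2 • e))
      ((planeMeasure e).prod (volume : Measure ℝ)) := by
    rw [← hPM.map_eq] at hFi
    exact hFi.comp_measurable hPM.measurable
  rw [hmap, integral_prod _ hPi]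
  have hae : ∀ᵐ y ∂(planeMeasure e), ⟪e, y⟫_ℝ = 0 := by
    unfold planeMeasure
    rw [ae_map_iff measurable_subtype_coe.aemeasurable]
    · refine ae_of_all _ fun y => ?_
      exact Submodule.mem_orthogonal_singleton_iff_inner_right.1 y.2
    · exact (isClosed_eq (continuous_const.inner continuous_id) continuous_const).measurableSet
  refine integral_congr_ae (hae.mono fun y hy => ?_)
  show ∫ t : ℝ, F (y + t • e) = φ y
  set g : ℝ → ℝ := fun t => φ (y + t • e) with hg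
  have hline : ∀ t : ℝ, HasDerivAt (fun t : ℝ => y + t • e) e t := by
    intro t
    have h1 := ((hasDerivAt_id t).smul_const e).const_add y
    simpa using h1
  have hlc : ContDiff ℝ ∞ (fun t : ℝ => y + t • e) :=
    contDiff_const.add (contDiff_id.smul contDiff_const)
  have hgc : ContDiff ℝ ∞ g := hφ.comp hlc
  have hgs : HasCompactSupport g := by
    refine hc.comp_isClosedEmbedding ?_
    have h1 : Isometry (fun t : ℝ => y + t • e) := by
      refine Isometry.of_dist_eq fun s t => ?_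
      rw [dist_add_left, dist_eq_norm, ← sub_smul, norm_smul, he, mul_one, Real.dist_eq,
        Real.norm_eq_abs]
    exact h1.isClosedEmbedding
  have hg1 : deriv g = fun t => fderiv ℝ φ (y + t • e) e := by
    funext t
    have h1 := (hφ.differentiable (by simp) (y + t • e)).hasFDerivAt.comp_hasDerivAt t (hline t)
    exact h1.deriv
  have hg2 : deriv (deriv g) = fun t => fderiv ℝ (fderiv ℝ φ) (y + t • e) e e := by
    rw [hg1]
    funext t
    have h1 := (hφ1.differentiable (by simp) (y + t • e)).hasFDerivAt.comp_hasDerivAt t (hline t)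
    have h2 := h1.clm_apply (hasDerivAt_const t e)
    simpa using h2.deriv
  have h5 := A4_line hgc hgs
  rw [hg2] at h5
  have h6 : g 0 = φ y := by simp [hg]
  rw [h6] at h5
  rw [← h5]
  refine integral_congr_ae (ae_of_all _ fun t => ?_)
  show max ⟪e, y + t • e⟫_ℝ 0 * _ = max t 0 * _
  rw [inner_add_right, inner_smul_right, hy, hee, zero_add, mul_one]

theorem A4 {m : ℕ} (e : Sp m) (he : ‖e‖ = 1) (φ : Sp m → ℝ) (hφ : ContDiff ℝ ∞ φ)
    (hc : HasCompactSupport φ) (v w : Sp m) :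
    ∫ z, max ⟪e, z⟫_ℝ 0 * fderiv ℝ (fderiv ℝ φ) z v w
      = (⟪e, v⟫_ℝ * ⟪e, w⟫_ℝ) * ∫ y, φ y ∂(planeMeasure e) := by
  have hee : ⟪e, e⟫_ℝ = 1 := by rw [real_inner_self_eq_norm_sq, he, one_pow]
  have hφ1 : ContDiff ℝ ∞ (fderiv ℝ φ) := hφ.fderiv_right (by simp)
  have hφ2 : ContDiff ℝ ∞ (fderiv ℝ (fderiv ℝ φ)) := hφ1.fderiv_right (by simp)
  have hint : ∀ v w : Sp m,
      Integrable (fun z => max ⟪e, z⟫_ℝ 0 * fderiv ℝ (fderiv ℝ φ) z v w) volume := by
    intro v w
    refine Continuous.integrable_of_hasCompactSupport ?_ ?_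
    · refine Continuous.mul ?_ ?_
      · exact (continuous_const.inner continuous_id).max continuous_const
      · exact (hφ2.continuous.clm_apply continuous_const).clm_apply continuous_const
    · refine HasCompactSupport.mul_left ?_
      exact (hc.fderiv (𝕜 := ℝ)).fderiv (𝕜 := ℝ) |>.comp_left
        (g := fun L : Sp m →L[ℝ] Sp m →L[ℝ] ℝ => L v w) rfl
  have hsym : ∀ (z v w : Sp m), fderiv ℝ (fderiv ℝ φ) z v w = fderiv ℝ (fderiv ℝ φ) z w v := by
    intro z v w
    have h2 : minSmoothness ℝ 2 ≤ ((⊤ : ℕ∞) : WithTop ℕ∞) := by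
      rw [minSmoothness_of_isRCLikeNormedField]
      exact WithTop.coe_le_coe.2 (le_top : (2 : ℕ∞) ≤ ⊤)
    exact (hφ.contDiffAt.isSymmSndFDerivAt h2).eq v w
  have hzero : ∀ u w : Sp m, ⟪e, u⟫_ℝ = 0 →
      ∫ z, max ⟪e, z⟫_ℝ 0 * fderiv ℝ (fderiv ℝ φ) z u w = 0 := by
    intro u w hu
    have h1 := A4_zero e u hu (fun z => fderiv ℝ φ z w)
      ((hφ1.clm_apply contDiff_const).of_le (by simp))
      (hc.fderiv (𝕜 := ℝ) |>.comp_left (g := fun L : Sp m →L[ℝ] ℝ => L w) rfl)
    refine Eq.trans ?_ h1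
    refine integral_congr_ae (ae_of_all _ fun z => ?_)
    show max ⟪e, z⟫_ℝ 0 * _ = max ⟪e, z⟫_ℝ 0 * fderiv ℝ (fun z => fderiv ℝ φ z w) z u
    have h2 := ((hφ1.differentiable (by simp) z).hasFDerivAt.clm_apply
      (hasFDerivAt_const w z)).fderiv
    rw [h2]
    simp
  have hdec : ∀ v w : Sp m, ∫ z, max ⟪e, z⟫_ℝ 0 * fderiv ℝ (fderiv ℝ φ) z v w =
      ⟪e, v⟫_ℝ * ∫ z, max ⟪e, z⟫_ℝ 0 * fderiv ℝ (fderiv ℝ φ) z e w := by
    intro v w
    set a : ℝ := ⟪e, v⟫_ℝ with ha
    set u : Sp m := v - a • e with hu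
    have hue : ⟪e, u⟫_ℝ = 0 := by
      rw [hu, inner_sub_right, inner_smul_right, hee, ← ha]
      ring
    have hv : v = a • e + u := by rw [hu]; abel
    have h1 : ∀ z, max ⟪e, z⟫_ℝ 0 * fderiv ℝ (fderiv ℝ φ) z v w =
        a * (max ⟪e, z⟫_ℝ 0 * fderiv ℝ (fderiv ℝ φ) z e w) +
          max ⟪e, z⟫_ℝ 0 * fderiv ℝ (fderiv ℝ φ) z u w := by
      intro z
      have h2 : fderiv ℝ (fderiv ℝ φ) z v w =
          a * fderiv ℝ (fderiv ℝ φ) z e w + fderiv ℝ (fderiv ℝ φ) z u w := by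
        conv_lhs => rw [hv]
        simp [map_add, map_smul]
      rw [h2]
      ring
    simp only [h1]
    rw [integral_add ((hint e w).const_mul a) (hint u w), hzero u w hue, add_zero,
      integral_const_mul]
  rw [hdec v w]
  have h3 : ∫ z, max ⟪e, z⟫_ℝ 0 * fderiv ℝ (fderiv ℝ φ) z e w =
      ∫ z, max ⟪e, z⟫_ℝ 0 * fderiv ℝ (fderiv ℝ φ) z w e :=
    integral_congr_ae (ae_of_all _ fun z => by
      show max ⟪e, z⟫_ℝ 0 * _ = max ⟪e, z⟫_ℝ 0 * _
      rw [hsym z e w])
  rw [h3, hdec w e, A4_ee e he φ hφ hc]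
  ring

end P214
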