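import Vale.Agent.P214.Defs

/-!
A5. If the distributional derivative D2F(v, .) vanishes on the convex open set W then x -> F(x+v) - F(x) is constant (mollify F: F_eps smooth with fderiv of (fderiv F_eps . v) = 0 on the convex set of points at distance > eps from the complement; then let eps -> 0).
-/

namespace P214

open MeasureTheory Set Filter Metric
open scoped Topology ContDiff InnerProductSpace ENNReal

/-- the flipped multiplication -/
noncomputable def A5L : ℝ →L[ℝ] ℝ →L[ℝ] ℝ := (ContinuousLinearMap.lsmul ℝ ℝ).flip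

theorem A5_hasFDerivAt {m : ℕ} {F ρ : Sp m → ℝ} (hF : Continuous F) (hρ : ContDiff ℝ 1 ρ)
    (hc : HasCompactSupport ρ) (p : Sp m) :
    ∃ A : Sp m →L[ℝ] ℝ, HasFDerivAt (MeasureTheory.convolution F ρ A5L volume) A p ∧
      ∀ w, A w = MeasureTheory.convolution F (fun a => fderiv ℝ ρ a w) A5L volume p := by
  refine ⟨_, hc.hasFDerivAt_convolution_right A5L hF.locallyIntegrable hρ p, ?_⟩
  intro w
  exact MeasureTheory.convolution_precompR_apply A5L hF.locallyIntegrable (hc.fderiv ℝ)
    (hρ.continuous_fderiv one_ne_zero) p w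

theorem A5_line {m : ℕ} {F ρ : Sp m → ℝ} (hF : Continuous F) (hρ : ContDiff ℝ 1 ρ)
    (hc : HasCompactSupport ρ) (p w : Sp m) (s : ℝ) :
    HasDerivAt (fun s : ℝ => MeasureTheory.convolution F ρ A5L volume (p + s • w))
      (MeasureTheory.convolution F (fun a => fderiv ℝ ρ a w) A5L volume (p + s • w)) s := by
  obtain ⟨A, hA, hAw⟩ := A5_hasFDerivAt hF hρ hc (p + s • w)
  rw [← hAw w]
  have h1 : HasDerivAt (fun s : ℝ => p + s • w) w s := by
    have h2 : HasDerivAt (fun s : ℝ => s • w) ((1 : ℝ) • w) s :=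
      (hasDerivAt_id s).smul_const w
    rw [one_smul] at h2
    exact h2.const_add p
  exact hA.comp_hasDerivAt s h1

theorem A5_second {m : ℕ} {ρ : Sp m → ℝ} (hρ : ContDiff ℝ ∞ ρ) (p t v w : Sp m) :
    fderiv ℝ (fderiv ℝ (fun y => ρ (p - y))) t v w
      = fderiv ℝ (fun a => fderiv ℝ ρ a w) (p - t) v := by
  have hρ1 : Differentiable ℝ ρ := hρ.differentiable (by simp)
  have hρ2 : ContDiff ℝ 1 (fderiv ℝ ρ) := hρ.fderiv_right (by norm_cast)
  have hρ3 : Differentiable ℝ (fderiv ℝ ρ) := hρ2.differentiable (by norm_num)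
  have hsub : ∀ t : Sp m, HasFDerivAt (fun y : Sp m => p - y)
      (-(ContinuousLinearMap.id ℝ (Sp m))) t := fun t => (hasFDerivAt_id t).const_sub p
  have h1 : fderiv ℝ (fun y => ρ (p - y)) = fun y => -(fderiv ℝ ρ (p - y)) := by
    funext y
    have h2 := ((hρ1 (p - y)).hasFDerivAt).comp y (hsub y)
    have h3 : fderiv ℝ (fun y => ρ (p - y)) y = _ := h2.fderiv
    rw [h3]
    ext w
    simp
  rw [h1]
  have h4 := (((hρ3 (p - t)).hasFDerivAt).comp t (hsub t)).neg
  have h5 : fderiv ℝ (fun y => -(fderiv ℝ ρ (p - y))) t = _ := h4.fderiv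
  rw [h5]
  have h6 : HasFDerivAt (fun a => fderiv ℝ ρ a w) _ (p - t) :=
    (hρ3 (p - t)).hasFDerivAt.clm_apply (hasFDerivAt_const w (p - t))
  rw [h6.fderiv]
  simp

theorem A5_smooth {m : ℕ} (W : Set (Sp m)) (F : Sp m → ℝ)
    (hF : Continuous F) (v : Sp m)
    (h : ∀ φ : Sp m → ℝ, ContDiff ℝ ∞ φ → HasCompactSupport φ → tsupport φ ⊆ W → ∀ w : Sp m,
      ∫ x, F x * fderiv ℝ (fderiv ℝ φ) x v w = 0)
    (x y : Sp m) (ρ : Sp m → ℝ) (hρ : ContDiff ℝ ∞ ρ) (δ : ℝ)
    (hs : tsupport ρ ⊆ closedBall 0 δ)
    (hC : ∀ s ∈ Icc (0 : ℝ) 1, ∀ t ∈ Icc (0 : ℝ) 1,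
      closedBall ((x + t • v) + s • (y - x)) δ ⊆ W) :
    MeasureTheory.convolution F ρ A5L volume (x + v)
      - MeasureTheory.convolution F ρ A5L volume x
    = MeasureTheory.convolution F ρ A5L volume (y + v)
      - MeasureTheory.convolution F ρ A5L volume y := by
  have hc : HasCompactSupport ρ := by
    refine HasCompactSupport.of_support_subset_isCompact (isCompact_closedBall (0 : Sp m) δ) ?_
    exact (subset_tsupport ρ).trans hs
  have hρ1 : ContDiff ℝ 1 ρ := hρ.of_le (by norm_cast)
  set w : Sp m := y - x with hw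
  have hρ2 : ContDiff ℝ 1 (fun a => fderiv ℝ ρ a w) :=
    (hρ.fderiv_right (m := 1) (by norm_cast)).clm_apply contDiff_const
  have hc2 : HasCompactSupport (fun a => fderiv ℝ ρ a w) := hc.fderiv_apply ℝ w
  -- the second derivative vanishes
  have hzero : ∀ p : Sp m, closedBall p δ ⊆ W →
      MeasureTheory.convolution F (fun a => fderiv ℝ (fun a => fderiv ℝ ρ a w) a v) A5L volume p
        = 0 := by
    intro p hp
    have hφ : ContDiff ℝ ∞ (fun y => ρ (p - y)) := hρ.comp (contDiff_const.sub contDiff_id)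
    have hsup : Function.support (fun y => ρ (p - y)) ⊆ closedBall p δ := by
      intro t ht
      have h1 : p - t ∈ Function.support ρ := ht
      have h2 := hs (subset_tsupport ρ h1)
      rw [mem_closedBall, dist_zero_right] at h2
      rw [mem_closedBall, dist_comm, dist_eq_norm]
      exact h2
    have hts : tsupport (fun y => ρ (p - y)) ⊆ closedBall p δ :=
      closure_minimal hsup isClosed_closedBall
    have hcc : HasCompactSupport (fun y => ρ (p - y)) :=
      HasCompactSupport.of_support_subset_isCompact (isCompact_closedBall p δ) hsup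
    have h3 := h _ hφ hcc (hts.trans hp) w
    rw [MeasureTheory.convolution_def, ← h3]
    refine integral_congr_ae (Eventually.of_forall ?_)
    intro t
    show fderiv ℝ (fun a => fderiv ℝ ρ a w) (p - t) v • F t
      = F t * fderiv ℝ (fderiv ℝ (fun y => ρ (p - y))) t v w
    rw [A5_second hρ p t v w, smul_eq_mul, mul_comm]
  -- first step: constancy in the direction `v`
  have hstep1 : ∀ s ∈ Icc (0 : ℝ) 1,
      MeasureTheory.convolution F (fun a => fderiv ℝ ρ a w) A5L volume ((x + v) + s • w)
        = MeasureTheory.convolution F (fun a => fderiv ℝ ρ a w) A5L volume (x + s • w) := by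
    intro s hs'
    have hd : ∀ t : ℝ, HasDerivAt
        (fun t : ℝ => MeasureTheory.convolution F (fun a => fderiv ℝ ρ a w) A5L volume
          ((x + s • w) + t • v))
        (MeasureTheory.convolution F (fun a => fderiv ℝ (fun a => fderiv ℝ ρ a w) a v) A5L volume
          ((x + s • w) + t • v)) t := fun t => A5_line hF hρ2 hc2 (x + s • w) v t
    have hconst := constant_of_has_deriv_right_zero
      (f := fun t : ℝ => MeasureTheory.convolution F (fun a => fderiv ℝ ρ a w) A5L volume
          ((x + s • w) + t • v)) (a := 0) (b := 1)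
      (fun t _ => (hd t).continuousAt.continuousWithinAt)
      (fun t ht => by
        have h5 : closedBall ((x + s • w) + t • v) δ ⊆ W := by
          have h6 := hC s hs' t ⟨ht.1, ht.2.le⟩
          have h7 : (x + t • v) + s • (y - x) = (x + s • w) + t • v := by rw [hw]; abel
          rw [h7] at h6
          exact h6
        have h8 := (hd t).hasDerivWithinAt (s := Ici t)
        rw [hzero _ h5] at h8
        exact h8)
    have h9 := hconst 1 (right_mem_Icc.2 zero_le_one)
    simp only [zero_smul, add_zero, one_smul] at h9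
    have h10 : x + v + s • w = x + s • w + v := by abel
    rw [h10]
    exact h9
  -- second step
  have hd2 : ∀ s : ℝ, HasDerivAt
      (fun s : ℝ => MeasureTheory.convolution F ρ A5L volume ((x + v) + s • w)
        - MeasureTheory.convolution F ρ A5L volume (x + s • w))
      (MeasureTheory.convolution F (fun a => fderiv ℝ ρ a w) A5L volume ((x + v) + s • w)
        - MeasureTheory.convolution F (fun a => fderiv ℝ ρ a w) A5L volume (x + s • w)) s :=
    fun s => (A5_line hF hρ1 hc (x + v) w s).sub (A5_line hF hρ1 hc x w s)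
  have hconst2 := constant_of_has_deriv_right_zero
    (f := fun s : ℝ => MeasureTheory.convolution F ρ A5L volume ((x + v) + s • w)
        - MeasureTheory.convolution F ρ A5L volume (x + s • w)) (a := 0) (b := 1)
    (fun t _ => (hd2 t).continuousAt.continuousWithinAt)
    (fun t ht => by
      have h8 := (hd2 t).hasDerivWithinAt (s := Ici t)
      rw [hstep1 t ⟨ht.1, ht.2.le⟩, sub_self] at h8
      exact h8)
  have h11 := hconst2 1 (right_mem_Icc.2 zero_le_one)
  simp only [zero_smul, add_zero, one_smul] at h11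
  have h12 : x + v + w = y + v := by rw [hw]; abel
  have h13 : x + w = y := by rw [hw]; abel
  rw [h12, h13] at h11
  exact h11.symm

theorem A5 {m : ℕ} (W : Set (Sp m)) (hW : IsOpen W) (hWc : Convex ℝ W) (F : Sp m → ℝ)
    (hF : Continuous F) (v : Sp m)
    (h : ∀ φ : Sp m → ℝ, ContDiff ℝ ∞ φ → HasCompactSupport φ → tsupport φ ⊆ W → ∀ w : Sp m,
      ∫ x, F x * fderiv ℝ (fderiv ℝ φ) x v w = 0)
    (x y : Sp m) (hx : x ∈ W) (hxv : x + v ∈ W) (hy : y ∈ W) (hyv : y + v ∈ W) :
    F (x + v) - F x = F (y + v) - F y := by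
  -- the compact set
  set C : Set (Sp m) := (fun q : ℝ × ℝ => (x + q.2 • v) + q.1 • (y - x)) ''
    (Icc (0 : ℝ) 1 ×ˢ Icc (0 : ℝ) 1) with hCdef
  have hCc : IsCompact C := by
    refine (isCompact_Icc.prod isCompact_Icc).image ?_
    fun_prop
  have hCW : C ⊆ W := by
    rintro _ ⟨⟨s, t⟩, ⟨hs, ht⟩, rfl⟩
    have h1 : x + t • v ∈ W := by
      have h2 := hWc hx hxv (sub_nonneg.2 ht.2) ht.1 (by ring)
      have h3 : (1 - t) • x + t • (x + v) = x + t • v := by
        rw [smul_add, ← add_assoc, ← add_smul, sub_add_cancel, one_smul]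
      rw [h3] at h2
      exact h2
    have h1' : y + t • v ∈ W := by
      have h2 := hWc hy hyv (sub_nonneg.2 ht.2) ht.1 (by ring)
      have h3 : (1 - t) • y + t • (y + v) = y + t • v := by
        rw [smul_add, ← add_assoc, ← add_smul, sub_add_cancel, one_smul]
      rw [h3] at h2
      exact h2
    have h4 := hWc h1 h1' (sub_nonneg.2 hs.2) hs.1 (by ring)
    have h5 : (1 - s) • (x + t • v) + s • (y + t • v) = (x + t • v) + s • (y - x) := by
      module
    rw [h5] at h4
    exact h4
  obtain ⟨δ, hδ, hδW⟩ := hCc.exists_cthickening_subset_open hW hCW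
  -- the bump functions
  let φ : ℕ → ContDiffBump (0 : Sp m) := fun n =>
    ⟨(1 / ((n : ℝ) + 1)) / 2, 1 / ((n : ℝ) + 1), by positivity, by
      have : 0 < 1 / ((n : ℝ) + 1) := by positivity
      linarith⟩
  have hφ0 : Tendsto (fun n => (φ n).rOut) atTop (𝓝 0) := tendsto_one_div_add_atTop_nhds_zero_nat
  have hlim : ∀ z, Tendsto (fun n =>
      MeasureTheory.convolution F ((φ n).normed volume) A5L volume z) atTop (𝓝 (F z)) := by
    intro z
    have h1 := ContDiffBump.convolution_tendsto_right_of_continuous (μ := volume) hφ0 hF z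
    refine h1.congr ?_
    intro n
    have h2 := MeasureTheory.convolution_flip (ContinuousLinearMap.lsmul ℝ ℝ)
      (f := (φ n).normed volume) (g := F) (μ := (volume : Measure (Sp m)))
    exact (congrFun h2 z).symm
  have hev : ∀ᶠ n in atTop,
      MeasureTheory.convolution F ((φ n).normed volume) A5L volume (x + v)
        - MeasureTheory.convolution F ((φ n).normed volume) A5L volume x
      = MeasureTheory.convolution F ((φ n).normed volume) A5L volume (y + v)
        - MeasureTheory.convolution F ((φ n).normed volume) A5L volume y := by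
    have h1 : ∀ᶠ n in atTop, (φ n).rOut < δ := hφ0.eventually (gt_mem_nhds hδ)
    filter_upwards [h1] with n hn
    refine A5_smooth W F hF v h x y _ (ContDiffBump.contDiff_normed (n := ⊤) (φ n)) (φ n).rOut
      ?_ ?_
    · rw [ContDiffBump.tsupport_normed_eq]
    · intro s hs t ht
      have h2 : (x + t • v) + s • (y - x) ∈ C := ⟨(s, t), ⟨hs, ht⟩, rfl⟩
      refine (closedBall_subset_closedBall hn.le).trans ?_
      exact (closedBall_subset_cthickening h2 δ).trans hδW
  have hl := (hlim (x + v)).sub (hlim x)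
  have hr := (hlim (y + v)).sub (hlim y)
  exact tendsto_nhds_unique_of_eventuallyEq hl hr hev

end P214
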