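import Vale.Agent.P214.Defs
import Vale.Agent.P214.A5

/-!
A5B. Zero distributional Hessian on a convex open set implies affine (from A5: F(x+v)-F(x) depends only on v for small v; continuous additive hence linear; or midpoint affine both ways).
-/

namespace P214

open MeasureTheory Set Filter Metric
open scoped Topology ContDiff InnerProductSpace ENNReal

/-- a locally additive continuous function is locally the restriction of a linear functional -/
theorem A5B_ext {m : ℕ} (h : Sp m → ℝ) (hc : Continuous h) (r : ℝ) (hr : 0 < r) (h0 : h 0 = 0)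
    (hadd : ∀ v w : Sp m, ‖v‖ < r → ‖w‖ < r → ‖v + w‖ < r → h (v + w) = h v + h w) :
    ∃ L : Sp m →L[ℝ] ℝ, ∀ (v : Sp m) (n : ℕ), 0 < n → ‖v‖ < r * n →
      L v = n * h ((n : ℝ)⁻¹ • v) := by
  have hk : ∀ (k : ℕ) (w : Sp m), ‖(k : ℝ) • w‖ < r → h ((k : ℝ) • w) = k * h w := by
    intro k w
    induction k with
    | zero => intro _; simp [h0]
    | succ k ih =>
      intro hkw
      have h1 : ‖(((k + 1 : ℕ) : ℝ)) • w‖ = ((k : ℝ) + 1) * ‖w‖ := by
        rw [norm_smul, Real.norm_of_nonneg (by positivity)]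
        push_cast
        ring
      rw [h1] at hkw
      have h2 : ‖(k : ℝ) • w‖ = (k : ℝ) * ‖w‖ := by
        rw [norm_smul, Real.norm_of_nonneg (by positivity)]
      have h3 : (0 : ℝ) ≤ (k : ℝ) * ‖w‖ := by positivity
      have h4 : (((k + 1 : ℕ) : ℝ)) • w = (k : ℝ) • w + w := by
        push_cast
        rw [add_smul, one_smul]
      rw [h4, hadd _ _ (by rw [h2]; nlinarith [norm_nonneg w]) (by nlinarith [norm_nonneg w])
        (by rw [← h4, h1]; exact hkw), ih (by rw [h2]; nlinarith [norm_nonneg w])]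
      push_cast
      ring
  have hind : ∀ (v : Sp m) (n k : ℕ), 0 < n → 0 < k → ‖v‖ < r * n → ‖v‖ < r * k →
      (n : ℝ) * h ((n : ℝ)⁻¹ • v) = k * h ((k : ℝ)⁻¹ • v) := by
    intro v n k hn hk0 hvn hvk
    have hn' : (0 : ℝ) < n := by exact_mod_cast hn
    have hk' : (0 : ℝ) < k := by exact_mod_cast hk0
    have e1 : (n : ℝ)⁻¹ • v = (k : ℝ) • (((n : ℝ) * k)⁻¹ • v) := by
      rw [smul_smul]
      congr 1
      field_simp
    have e2 : (k : ℝ)⁻¹ • v = (n : ℝ) • (((n : ℝ) * k)⁻¹ • v) := by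
      rw [smul_smul]
      congr 1
      field_simp
    have n1 : ‖(n : ℝ)⁻¹ • v‖ < r := by
      rw [norm_smul, norm_inv, Real.norm_of_nonneg hn'.le, inv_mul_lt_iff₀ hn', mul_comm]
      exact hvn
    have n2 : ‖(k : ℝ)⁻¹ • v‖ < r := by
      rw [norm_smul, norm_inv, Real.norm_of_nonneg hk'.le, inv_mul_lt_iff₀ hk', mul_comm]
      exact hvk
    rw [e1] at n1
    rw [e2] at n2
    rw [e1, e2, hk _ _ n1, hk _ _ n2]
    ring
  have hN : ∀ c : ℝ, ∃ n : ℕ, 0 < n ∧ c < r * n := by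
    intro c
    obtain ⟨n, hn⟩ := exists_nat_gt (c / r)
    refine ⟨n + 1, Nat.succ_pos _, ?_⟩
    rw [div_lt_iff₀ hr] at hn
    push_cast
    nlinarith
  choose N hN0 hN1 using fun v : Sp m => hN ‖v‖
  set H : Sp m → ℝ := fun v => (N v : ℝ) * h ((N v : ℝ)⁻¹ • v) with hH
  have hHn : ∀ (v : Sp m) (n : ℕ), 0 < n → ‖v‖ < r * n → H v = n * h ((n : ℝ)⁻¹ • v) :=
    fun v n hn hv => hind v (N v) n (hN0 v) hn (hN1 v) hv
  have hHadd : ∀ v w, H (v + w) = H v + H w := by
    intro v w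
    obtain ⟨n, hn, hn1⟩ := hN (‖v‖ + ‖w‖)
    have hn' : (0 : ℝ) < n := by exact_mod_cast hn
    have hv : ‖v‖ < r * n := lt_of_le_of_lt (by linarith [norm_nonneg w]) hn1
    have hw : ‖w‖ < r * n := lt_of_le_of_lt (by linarith [norm_nonneg v]) hn1
    have hvw : ‖v + w‖ < r * n := lt_of_le_of_lt (norm_add_le _ _) hn1
    have key : ∀ u : Sp m, ‖u‖ < r * n → ‖(n : ℝ)⁻¹ • u‖ < r := by
      intro u hu
      rw [norm_smul, norm_inv, Real.norm_of_nonneg hn'.le, inv_mul_lt_iff₀ hn', mul_comm]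
      exact hu
    rw [hHn _ n hn hv, hHn _ n hn hw, hHn _ n hn hvw, smul_add,
      hadd _ _ (key v hv) (key w hw) (by rw [← smul_add]; exact key _ hvw)]
    ring
  have hH1 : ∀ v, ‖v‖ < r → H v = h v := by
    intro v hv
    rw [hHn v 1 Nat.one_pos (by push_cast; linarith)]
    push_cast
    rw [inv_one, one_smul, one_mul]
  let f : Sp m →+ ℝ := AddMonoidHom.mk' H hHadd
  have hfc : Continuous f := by
    refine continuous_of_continuousAt_zero f ?_
    refine hc.continuousAt.congr ?_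
    filter_upwards [Metric.ball_mem_nhds (0 : Sp m) hr] with v hv
    exact (hH1 v (by simpa using hv)).symm
  exact ⟨f.toRealLinearMap hfc, fun v n hn hv => hHn v n hn hv⟩

theorem A5B {m : ℕ} (W : Set (Sp m)) (hW : IsOpen W) (hWc : Convex ℝ W) (F : Sp m → ℝ)
    (hF : Continuous F)
    (h : ∀ φ : Sp m → ℝ, ContDiff ℝ ∞ φ → HasCompactSupport φ → tsupport φ ⊆ W → ∀ v w : Sp m,
      ∫ x, F x * fderiv ℝ (fderiv ℝ φ) x v w = 0) :
    ∃ (a : Sp m) (b : ℝ), ∀ x ∈ W, F x = ⟪a, x⟫_ℝ + b := by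
  rcases W.eq_empty_or_nonempty with rfl | ⟨x0, hx0⟩
  · exact ⟨0, 0, fun x hx => absurd hx (notMem_empty x)⟩
  have hA5 : ∀ v x y : Sp m, x ∈ W → x + v ∈ W → y ∈ W → y + v ∈ W →
      F (x + v) - F x = F (y + v) - F y := fun v x y hx hxv hy hyv =>
    A5 W hW hWc F hF v (fun φ h1 h2 h3 w => h φ h1 h2 h3 v w) x y hx hxv hy hyv
  obtain ⟨r, hr, hball⟩ := Metric.isOpen_iff.1 hW x0 hx0
  have hmem : ∀ v : Sp m, ‖v‖ < r → x0 + v ∈ W := fun v hv => hball (by simpa using hv)
  obtain ⟨L, hL⟩ := A5B_ext (fun v => F (x0 + v) - F x0)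
    ((hF.comp (continuous_const.add continuous_id)).sub continuous_const) r hr (by simp) (by
      intro v w hv hw hvw
      have h1 := hA5 w (x0 + v) x0 (hmem v hv) (by rw [add_assoc]; exact hmem _ hvw) hx0 (hmem w hw)
      rw [add_assoc] at h1
      show F (x0 + (v + w)) - F x0 = F (x0 + v) - F x0 + (F (x0 + w) - F x0)
      linarith)
  have hval : ∀ x ∈ W, F x - F x0 = L (x - x0) := by
    intro x hx
    obtain ⟨n, hn⟩ := exists_nat_gt (‖x - x0‖ / r)
    have hn' : (0 : ℝ) < n := lt_of_le_of_lt (by positivity) hn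
    have hn0 : 0 < n := by exact_mod_cast hn'
    rw [div_lt_iff₀ hr, mul_comm] at hn
    rw [hL (x - x0) n hn0 hn]
    have hseg : ∀ k : ℕ, k ≤ n → x0 + ((k : ℝ) / n) • (x - x0) ∈ W := by
      intro k hkn
      refine hWc.add_smul_sub_mem hx0 hx ⟨by positivity, ?_⟩
      rw [div_le_one hn']
      exact_mod_cast hkn
    have hstep : ∀ k : ℕ, x0 + (((k + 1 : ℕ) : ℝ) / n) • (x - x0) =
        x0 + ((k : ℝ) / n) • (x - x0) + (n : ℝ)⁻¹ • (x - x0) := by
      intro k
      rw [add_assoc, ← add_smul]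
      congr 2
      push_cast
      ring
    have hind : ∀ k : ℕ, k ≤ n → F (x0 + ((k : ℝ) / n) • (x - x0)) - F x0 =
        k * (F (x0 + (n : ℝ)⁻¹ • (x - x0)) - F x0) := by
      intro k
      induction k with
      | zero => intro _; simp
      | succ k ih =>
        intro hkn
        have h1 := hseg (k + 1) hkn
        rw [hstep] at h1
        have h2 := hseg 1 (by omega)
        have h3 : ((1 : ℕ) : ℝ) / n = (n : ℝ)⁻¹ := by push_cast; rw [one_div]
        rw [h3] at h2
        have h4 := hA5 ((n : ℝ)⁻¹ • (x - x0)) _ x0 (hseg k (by omega)) h1 hx0 h2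
        have h5 := ih (by omega)
        rw [hstep]
        push_cast
        linarith
    have h6 := hind n le_rfl
    rw [div_self hn'.ne', one_smul, add_sub_cancel] at h6
    exact h6
  refine ⟨(InnerProductSpace.toDual ℝ (Sp m)).symm L, F x0 - L x0, fun x hx => ?_⟩
  rw [InnerProductSpace.toDual_symm_apply]
  have h7 := hval x hx
  rw [map_sub] at h7
  linarith

end P214
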