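import Vale.Agent.P214.Defs
import Vale.Agent.P214.A4
import Vale.Agent.P214.A5B

/-!
A6. Identification of the blow-up: F - q max(<e,.>,0) has zero Hessian (A4), so it is affine (A5B with W = univ) and homogeneous, so linear.
-/

namespace P214

open MeasureTheory Set Filter Metric
open scoped Topology ContDiff InnerProductSpace ENNReal

theorem A6 {m : ℕ} (F : Sp m → ℝ) (hF : Continuous F)
    (hh : ∀ (t : ℝ) (z : Sp m), 0 ≤ t → F (t • z) = t * F z) (e : Sp m) (he : ‖e‖ = 1) (q : ℕ)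
    (h : ∀ φ : Sp m → ℝ, ContDiff ℝ ∞ φ → HasCompactSupport φ → ∀ v w : Sp m,
      ∫ z, F z * fderiv ℝ (fderiv ℝ φ) z v w
        = (q : ℝ) * (⟪e, v⟫_ℝ * ⟪e, w⟫_ℝ) * ∫ y, φ y ∂(planeMeasure e)) :
    ∃ p : Sp m, ∀ z, F z = ⟪p, z⟫_ℝ + (q : ℝ) * max ⟪e, z⟫_ℝ 0 := by
  have hM : Continuous (fun z : Sp m => max ⟪e, z⟫_ℝ 0) :=
    (continuous_const.inner continuous_id).max continuous_const
  obtain ⟨a, b, hab⟩ := A5B (univ : Set (Sp m)) isOpen_univ convex_univ
    (fun z => F z - (q : ℝ) * max ⟪e, z⟫_ℝ 0) (hF.sub (continuous_const.mul hM)) (by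
      intro φ hφ hc _ v w
      have h1 : ContDiff ℝ 1 (fderiv ℝ φ) := hφ.fderiv_right (by norm_cast)
      have hφ2 : Continuous (fun z => fderiv ℝ (fderiv ℝ φ) z v w) :=
        ((h1.continuous_fderiv (by norm_num)).clm_apply continuous_const).clm_apply
          continuous_const
      have hc2 : HasCompactSupport (fun z => fderiv ℝ (fderiv ℝ φ) z v w) := by
        have h2 := (hc.fderiv (𝕜 := ℝ)).fderiv (𝕜 := ℝ)
        exact h2.comp_left (g := fun L : Sp m →L[ℝ] Sp m →L[ℝ] ℝ => L v w) rfl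
      have i1 : Integrable (fun z => F z * fderiv ℝ (fderiv ℝ φ) z v w) :=
        (hF.mul hφ2).integrable_of_hasCompactSupport hc2.mul_left
      have i2 : Integrable (fun z : Sp m => max ⟪e, z⟫_ℝ 0 * fderiv ℝ (fderiv ℝ φ) z v w) :=
        (hM.mul hφ2).integrable_of_hasCompactSupport hc2.mul_left
      have h3 : (fun z => (F z - (q : ℝ) * max ⟪e, z⟫_ℝ 0) * fderiv ℝ (fderiv ℝ φ) z v w) =
          fun z => F z * fderiv ℝ (fderiv ℝ φ) z v w -
            (q : ℝ) * (max ⟪e, z⟫_ℝ 0 * fderiv ℝ (fderiv ℝ φ) z v w) := by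
        funext z
        ring
      rw [h3, integral_sub i1 (i2.const_mul _), integral_const_mul, h φ hφ hc v w,
        A4 e he φ hφ hc v w]
      ring)
  have hF0 : F 0 = 0 := by
    have h4 := hh 0 0 le_rfl
    rwa [smul_zero, zero_mul] at h4
  have hb : b = 0 := by
    have h5 := hab 0 (mem_univ _)
    rw [hF0, inner_zero_right, inner_zero_right, max_self, mul_zero, sub_zero, zero_add] at h5
    exact h5.symm
  refine ⟨a, fun z => ?_⟩
  have h6 := hab z (mem_univ _)
  rw [hb, add_zero] at h6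
  linarith

end P214
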