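import Vale.Agent.P214.Defs

/-!
A7. The set of linear minorants of <p,z> + q max(<e,z>,0) is a segment.
-/

namespace P214

open MeasureTheory Set Filter Metric
open scoped Topology ContDiff InnerProductSpace ENNReal

theorem A7 {m : ℕ} (p e : Sp m) (he : ‖e‖ = 1) (q : ℝ) (hq : 0 ≤ q) :
    {p' : Sp m | ∀ z, ⟪p', z⟫_ℝ ≤ ⟪p, z⟫_ℝ + q * max ⟪e, z⟫_ℝ 0} = segment ℝ p (p + q • e) := by
  have hee : ⟪e, e⟫_ℝ = 1 := by
    rw [real_inner_self_eq_norm_sq, he]; norm_num
  ext p'
  rw [segment_eq_image']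
  simp only [mem_setOf_eq, mem_image, add_sub_cancel_left]
  constructor
  · intro h
    set w := p' - p with hw
    have h1 : ∀ z, ⟪w, z⟫_ℝ ≤ q * max ⟪e, z⟫_ℝ 0 := by
      intro z
      have := h z
      rw [hw, inner_sub_left]
      linarith
    set a := ⟪w, e⟫_ℝ with ha
    have h2 : w = a • e := by
      have h3 : ⟪e, w - a • e⟫_ℝ = 0 := by
        rw [inner_sub_right, inner_smul_right, hee, real_inner_comm]
        simp [ha]
      have h4 := h1 (w - a • e)
      rw [h3] at h4
      simp only [max_self, mul_zero] at h4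
      have h5 : ⟪w - a • e, w - a • e⟫_ℝ ≤ 0 := by
        rw [inner_sub_left, inner_smul_left, h3]
        simpa using h4
      have h6 : w - a • e = 0 := by
        rw [real_inner_self_eq_norm_sq] at h5
        have : ‖w - a • e‖ = 0 := by nlinarith [norm_nonneg (w - a • e)]
        exact norm_eq_zero.1 this
      exact sub_eq_zero.1 h6
    have h7 : a ≤ q := by
      have := h1 e
      rw [hee] at this
      simpa [ha] using this
    have h8 : 0 ≤ a := by
      have := h1 (-e)
      rw [inner_neg_right, inner_neg_right, hee] at this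
      simp at this
      exact this
    rcases eq_or_lt_of_le hq with hq0 | hq0
    · refine ⟨0, ⟨le_rfl, zero_le_one⟩, ?_⟩
      have : a = 0 := by linarith
      rw [this, zero_smul] at h2
      have : p' = p := sub_eq_zero.1 (hw ▸ h2)
      simp [this]
    · refine ⟨a / q, ⟨by positivity, (div_le_one hq0).2 h7⟩, ?_⟩
      rw [smul_smul, div_mul_cancel₀ _ hq0.ne', ← h2, hw]
      abel
  · rintro ⟨t, ⟨ht0, ht1⟩, rfl⟩ z
    rw [inner_add_left, smul_smul, inner_smul_left]
    have h1 : ⟪e, z⟫_ℝ ≤ max ⟪e, z⟫_ℝ 0 := le_max_left _ _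
    have h2 : 0 ≤ max ⟪e, z⟫_ℝ 0 := le_max_right _ _
    have h3 : t * q * ⟪e, z⟫_ℝ ≤ q * max ⟪e, z⟫_ℝ 0 := by
      calc t * q * ⟪e, z⟫_ℝ ≤ t * q * max ⟪e, z⟫_ℝ 0 :=
            mul_le_mul_of_nonneg_left h1 (by positivity)
        _ = t * (q * max ⟪e, z⟫_ℝ 0) := by ring
        _ ≤ 1 * (q * max ⟪e, z⟫_ℝ 0) := mul_le_mul_of_nonneg_right ht1 (by positivity)
        _ = _ := one_mul _
    simpa using h3

end P214
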