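import Vale.Agent.P214.Defs
import Vale.Agent.P214.A1
import Vale.Agent.P214.A2
import Vale.Agent.P214.A3
import Vale.Agent.P214.A3B
import Vale.Agent.P214.A6
import Vale.Agent.P214.A7

/-!
A8. Almost every point is good: A1, A2 (limit uniqueness), A3, A3B, A6, A7.
-/

namespace P214

open MeasureTheory Set Filter Metric
open scoped Topology ContDiff InnerProductSpace ENNReal

theorem A8 {m : ℕ} {U : Set (Sp m)} {μ : Measure (Sp m)} {ν : Sp m → Sp m} {f : Sp m → ℝ}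
    (h : Core U μ ν f) : ∀ᵐ x ∂μ, ‖ν x‖ = 1 ∧ ∃ q : ℕ, GoodAt f x (ν x) q := by
  have hfin : IsFiniteMeasure μ := ⟨h.fin⟩
  have h1 := A1 μ ν h.meas h.tangent
  have h2 : ∀ᵐ x ∂μ, x ∈ U := by
    rw [ae_iff]
    exact h.supp
  filter_upwards [h1, h2] with x hx hxU
  obtain ⟨q, hν, hq, hlim⟩ := hx
  refine ⟨hν, q, hν, hq, ?_⟩
  obtain ⟨F, hF1, hF2, hF3, hF4, -, hF6⟩ := A3 f h.conv x
  have hkey : ∀ φ : Sp m → ℝ, ContDiff ℝ ∞ φ → HasCompactSupport φ → ∀ v w : Sp m,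
      ∫ z, F z * fderiv ℝ (fderiv ℝ φ) z v w
        = (q : ℝ) * (⟪ν x, v⟫_ℝ * ⟪ν x, w⟫_ℝ) * ∫ y, φ y ∂(planeMeasure (ν x)) := by
    intro φ hφ hc v w
    have hC1 : ContDiff ℝ 1 (fderiv ℝ φ) := hφ.fderiv_right (m := 1) (by norm_cast)
    have hDc : Continuous (fun z => fderiv ℝ (fderiv ℝ φ) z v w) :=
      ((hC1.continuous_fderiv one_ne_zero).clm_apply continuous_const).clm_apply continuous_const
    have hs1 : HasCompactSupport (fderiv ℝ (fderiv ℝ φ)) := (hc.fderiv ℝ).fderiv ℝ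
    have hDs : HasCompactSupport (fun z => fderiv ℝ (fderiv ℝ φ) z v w) :=
      hs1.comp_left (g := fun T : Sp m →L[ℝ] Sp m →L[ℝ] ℝ => T v w) (by simp)
    have ha := hlim φ hφ.continuous hc v w
    have hb := A3B f h.conv x F hF3 _ hDc hDs
    have hev := A2 h x hxU φ hφ hc v w
    exact tendsto_nhds_unique (hb.congr' (hev.mono fun r hr => hr.symm)) ha
  obtain ⟨p, hp⟩ := A6 F hF1 hF2 (ν x) hν q hkey
  refine ⟨p, ?_⟩
  rw [← A7 p (ν x) hν (q : ℝ) (Nat.cast_nonneg q)]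
  ext p'
  constructor
  · intro hp' z
    rw [← hp z]
    exact hF4 z p' hp'
  · intro hp'
    refine hF6 p' fun z => ?_
    rw [hp z]
    exact hp' z

end P214
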