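import Mathlib

/-!
Definitions for the final statement, over a finite dimensional Euclidean space `E`.
-/

namespace P214A

open MeasureTheory Set Filter Metric
open scoped Topology ContDiff InnerProductSpace ENNReal

variable {E : Type} [NormedAddCommGroup E] [InnerProductSpace ℝ E]

/-- Inner product. -/
noncomputable def ip (x y : E) : ℝ := ⟪x, y⟫_ℝ

/-- Directional derivative of `φ` at `x` in direction `v`. -/
noncomputable def der (φ : E → ℝ) (x v : E) : ℝ := fderiv ℝ φ x v

/-- Directional derivative of the vector field `X` at `x` in direction `v`. -/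
noncomputable def derV (X : E → E) (x v : E) : E := fderiv ℝ X x v

/-- Divergence of the vector field `X` at `x`. -/
noncomputable def diver (X : E → E) (x : E) : ℝ :=
  LinearMap.trace ℝ E (fderiv ℝ X x : E →ₗ[ℝ] E)

/-- The hyperplane orthogonal to `v`. -/
noncomputable def hyp (v : E) : Submodule ℝ E := (ℝ ∙ v)ᗮ

/-- Lebesgue measure of a Euclidean space. -/
noncomputable def leb (E : Type) [NormedAddCommGroup E] [InnerProductSpace ℝ E]
    [FiniteDimensional ℝ E] [MeasurableSpace E] [BorelSpace E] : Measure E := volume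

variable [MeasurableSpace E]

/-- The first variation vanishes. -/
def IsStationary (U : Set E) (μ : Measure E) (ν : E → E) : Prop :=
  ∀ X : E → E, ContDiff ℝ 1 X → HasCompactSupport X → tsupport X ⊆ U →
    ∫ x, (diver X x - ip (derV X x (ν x)) (ν x)) ∂μ = 0

/-- The matrix valued measure `(ν ⊗ ν) μ` is closed: the distributional derivative
`∂_u (⟨ν,v⟩⟨ν,w⟩ μ)` is symmetric in `u` and `v`. -/
def IsClosedTensor (U : Set E) (μ : Measure E) (ν : E → E) : Prop :=
  ∀ φ : E → ℝ, ContDiff ℝ ∞ φ → HasCompactSupport φ → tsupport φ ⊆ U → ∀ u v w : E,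
    ∫ x, der φ x u * (ip (ν x) v * ip (ν x) w) ∂μ = ∫ x, der φ x v * (ip (ν x) u * ip (ν x) w) ∂μ

variable [FiniteDimensional ℝ E] [BorelSpace E]

/-- Lebesgue measure of the hyperplane orthogonal to `v`. -/
noncomputable def planeMeasure (v : E) : Measure E :=
  Measure.map (fun y : hyp v => (y : E)) (leb (hyp v))

/-- At `x` the measure has the approximate tangent plane (of dimension `m`) orthogonal to the
unit vector `v`, with multiplicity `q`. -/
def HasTangentPlane (m : ℕ) (μ : Measure E) (x v : E) (q : ℕ) : Prop :=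
  ‖v‖ = 1 ∧ 1 ≤ q ∧ ∀ φ : E → ℝ, Continuous φ → HasCompactSupport φ →
    Tendsto (fun r : ℝ => (r ^ m)⁻¹ * ∫ y, φ (r⁻¹ • (y - x)) ∂μ) (𝓝[>] 0)
      (𝓝 ((q : ℝ) * ∫ y, φ y ∂(planeMeasure v)))

/-- Integral `m`-varifold in the open set `U`, given by its weight and its unit normal. -/
def IsIntegralVarifold (m : ℕ) (U : Set E) (μ : Measure E) (ν : E → E) : Prop :=
  μ Uᶜ = 0 ∧ (∀ K : Set E, IsCompact K → K ⊆ U → μ K < ⊤) ∧ Measurable ν ∧
    ∀ᵐ x ∂μ, ∃ q : ℕ, HasTangentPlane m μ x (ν x) q

/-- Near `p` the measure is an integer multiple of a hyperplane through `p`. -/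
def FlatAt (μ : Measure E) (p : E) : Prop :=
  ∃ (r : ℝ) (v : E) (q : ℕ), 0 < r ∧ ‖v‖ = 1 ∧ 1 ≤ q ∧
    μ.restrict (ball p r) =
      (q : ℝ≥0∞) • (Measure.map (fun y => p + y) (planeMeasure v)).restrict (ball p r)

/-- Points of the support in `U` near which `μ` is not a multiple of a hyperplane. -/
def nonFlatSet (U : Set E) (μ : Measure E) : Set E :=
  {p | p ∈ U ∧ (∀ r : ℝ, 0 < r → 0 < μ (ball p r)) ∧ ¬ FlatAt μ p}

/-- The statement: in `E`, every integral `m`-varifold with closed normal tensor in an open set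
is stationary, and its non-flat points have Hausdorff dimension at most `m - 1`. -/
def BoundHolds (E : Type) [NormedAddCommGroup E] [InnerProductSpace ℝ E]
    [FiniteDimensional ℝ E] [MeasurableSpace E] [BorelSpace E] (m : ℕ) : Prop :=
  ∀ U : Set E, IsOpen U → ∀ (μ : Measure E) (ν : E → E), IsIntegralVarifold m U μ ν →
    IsClosedTensor U μ ν → IsStationary U μ ν ∧ dimH (nonFlatSet U μ) ≤ ((m - 1 : ℕ) : ℝ≥0∞)

end P214A
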