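import Vale.Agent.P214.Defs

/-!
C2. Upper semicontinuity of the subdifferential (local boundedness + closed graph + compactness).
-/

namespace P214

open MeasureTheory Set Filter Metric
open scoped Topology ContDiff InnerProductSpace ENNReal

/-- Local bound of the subgradients. -/
theorem C2_bdd {m : ℕ} (f : Sp m → ℝ) (hf : ConvexOn ℝ univ f) (x₀ : Sp m) :
    ∃ (r L : ℝ), 0 < r ∧ ∀ x ∈ ball x₀ r, ∀ p ∈ sub f x, ‖p‖ ≤ L := by
  obtain ⟨K, t, ht, hK⟩ := hf.locallyLipschitz x₀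
  obtain ⟨r, hr, hrt⟩ := Metric.mem_nhds_iff.1 ht
  refine ⟨r / 2, K, by positivity, ?_⟩
  intro x hx p hp
  by_cases hp0 : p = 0
  · rw [hp0, norm_zero]; exact K.2
  have hpn : 0 < ‖p‖ := norm_pos_iff.2 hp0
  set s : ℝ := r / 4 / ‖p‖ with hs
  have hs0 : 0 < s := by positivity
  have hsp : ‖s • p‖ = r / 4 := by
    rw [norm_smul, Real.norm_of_nonneg hs0.le, hs]
    field_simp
  have hxt : x ∈ t := hrt (ball_subset_ball (by linarith) hx)
  have hyt : x + s • p ∈ t := by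
    apply hrt
    rw [mem_ball, dist_eq_norm] at hx ⊢
    calc ‖x + s • p - x₀‖ = ‖(x - x₀) + s • p‖ := by congr 1; abel
      _ ≤ ‖x - x₀‖ + ‖s • p‖ := norm_add_le _ _
      _ < r := by rw [hsp]; linarith
  have h1 := hp (x + s • p)
  rw [add_sub_cancel_left, inner_smul_right, real_inner_self_eq_norm_sq] at h1
  have h2 := hK.dist_le_mul _ hyt _ hxt
  rw [Real.dist_eq, dist_eq_norm, add_sub_cancel_left, hsp] at h2
  have h3 : f (x + s • p) - f x ≤ K * (r / 4) := (le_abs_self _).trans h2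
  have h4 : s * ‖p‖ ^ 2 = r / 4 * ‖p‖ := by
    rw [hs]; field_simp
  have h5 : r / 4 * ‖p‖ ≤ K * (r / 4) := by linarith
  nlinarith

theorem C2 {m : ℕ} (f : Sp m → ℝ) (hf : ConvexOn ℝ univ f) (x₀ : Sp m) (η : ℝ) (hη : 0 < η) :
    ∃ r : ℝ, 0 < r ∧ ∀ x ∈ ball x₀ r, ∀ p ∈ sub f x, ∃ q ∈ sub f x₀, ‖p - q‖ < η := by
  have hcont : Continuous f := hf.locallyLipschitz.continuous
  obtain ⟨r₁, L, hr₁, hL⟩ := C2_bdd f hf x₀
  set C : Set (Sp m) := closedBall 0 L ∩ {p | ∀ q ∈ sub f x₀, η ≤ ‖p - q‖} with hC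
  have hCc : IsCompact C := by
    refine (isCompact_closedBall 0 L).inter_right ?_
    have : {p : Sp m | ∀ q ∈ sub f x₀, η ≤ ‖p - q‖} = ⋂ q ∈ sub f x₀, {p | η ≤ ‖p - q‖} := by
      ext p; simp
    rw [this]
    exact isClosed_biInter fun q _ => isClosed_le continuous_const (by fun_prop)
  have h1 : ∀ p ∈ C, ∀ᶠ z : Sp m × Sp m in 𝓝 (x₀, p), z.2 ∉ sub f z.1 := by
    intro p hp
    have hps : p ∉ sub f x₀ := by
      intro h
      have := hp.2 p h
      rw [sub_self, norm_zero] at this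
      linarith
    have : ∃ y, f y < f x₀ + ⟪p, y - x₀⟫_ℝ := by
      by_contra hcon
      push Not at hcon
      exact hps hcon
    obtain ⟨y, hy⟩ := this
    have hc : Continuous (fun z : Sp m × Sp m => f z.1 + ⟪z.2, y - z.1⟫_ℝ) := by
      fun_prop
    have := (hc.tendsto (x₀, p)).eventually (lt_mem_nhds (a := f y) (by simpa using hy))
    filter_upwards [this] with z hz hz2
    exact absurd (hz2 y) (not_le.2 hz)
  have h2 : ∀ᶠ x in 𝓝 x₀, ∀ p ∈ C, p ∉ sub f x := by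
    have := hCc.eventually_forall_of_forall_eventually (x₀ := x₀)
      (P := fun x p => p ∉ sub f x) (by simpa using h1)
    exact this
  obtain ⟨r₂, hr₂, hr₂'⟩ := Metric.eventually_nhds_iff_ball.1 h2
  refine ⟨min r₁ r₂, lt_min hr₁ hr₂, ?_⟩
  intro x hx p hp
  by_contra hcon
  push Not at hcon
  refine hr₂' x (ball_subset_ball (min_le_right _ _) hx) p ⟨?_, hcon⟩ hp
  rw [mem_closedBall_zero_iff]
  exact hL x (ball_subset_ball (min_le_left _ _) hx) p hp

end P214
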