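import Vale.Agent.P214.A3
import Vale.Agent.P214.C2

/-!
C1. Subdifferential of a convex function on the whole space: nonempty, compact, convex.
-/

namespace P214

open MeasureTheory Set Filter Metric
open scoped Topology ContDiff InnerProductSpace ENNReal

theorem C1 {m : ℕ} (f : Sp m → ℝ) (hf : ConvexOn ℝ univ f) (x : Sp m) :
    (sub f x).Nonempty ∧ IsCompact (sub f x) ∧ Convex ℝ (sub f x) := by
  refine ⟨?_, ?_, ?_⟩
  · obtain ⟨F, _, _, _, _, h, _⟩ := A3 f hf x
    obtain ⟨p, hp, _⟩ := h 0
    exact ⟨p, hp⟩
  · obtain ⟨r, L, hr, hL⟩ := C2_bdd f hf x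
    have hcl : IsClosed (sub f x) := by
      have : sub f x = ⋂ y, {p : Sp m | f x + ⟪p, y - x⟫_ℝ ≤ f y} := by
        ext p; simp [sub]
      rw [this]
      exact isClosed_iInter fun y => isClosed_le (by fun_prop) continuous_const
    refine (isCompact_closedBall (0 : Sp m) L).of_isClosed_subset hcl ?_
    intro p hp
    rw [mem_closedBall_zero_iff]
    exact hL x (mem_ball_self hr) p hp
  · intro p hp q hq a b ha hb hab y
    have h1 := hp y
    have h2 := hq y
    rw [inner_add_left, real_inner_smul_left, real_inner_smul_left]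
    have e : f x = a * f x + b * f x := by rw [← add_mul, hab, one_mul]
    have e' : f y = a * f y + b * f y := by rw [← add_mul, hab, one_mul]
    rw [e, e']
    nlinarith

end P214
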