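import Vale.Agent.P214.Defs
import Vale.Agent.P214.A8
import Vale.Agent.P214.A5B

/-!
D5. If all subdifferentials on the convex open set W have diameter < 1 then mu W = 0 (A8: a good point has two subgradients at distance q >= 1) and f is affine on W (A5B; the right side of the potential identity vanishes).
-/

namespace P214

open MeasureTheory Set Filter Metric
open scoped Topology ContDiff InnerProductSpace ENNReal

theorem D5 {m : ℕ} {U : Set (Sp m)} {μ : Measure (Sp m)} {ν : Sp m → Sp m} {f : Sp m → ℝ}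
    (h : Core U μ ν f) (W : Set (Sp m)) (hW : IsOpen W) (hWc : Convex ℝ W) (hWU : W ⊆ U)
    (hs : ∀ x ∈ W, ∀ p ∈ sub f x, ∀ p' ∈ sub f x, ‖p - p'‖ < 1) :
    μ W = 0 ∧ ∃ (a : Sp m) (b : ℝ), ∀ x ∈ W, f x = ⟪a, x⟫_ℝ + b := by
  have h0 : μ W = 0 := by
    have h1 : ∀ᵐ x ∂μ, x ∉ W := by
      filter_upwards [A8 h] with x hx hxW
      obtain ⟨-, q, h2, h3, p, h4⟩ := hx
      have h5 : p ∈ sub f x := by
        rw [h4]
        exact left_mem_segment ℝ _ _
      have h6 : p + (q : ℝ) • ν x ∈ sub f x := by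
        rw [h4]
        exact right_mem_segment ℝ _ _
      have h7 := hs x hxW p h5 _ h6
      rw [sub_add_cancel_left, norm_neg, norm_smul, h2, mul_one, Real.norm_natCast] at h7
      have h8 : (1 : ℝ) ≤ q := by exact_mod_cast h3
      linarith
    rw [ae_iff] at h1
    simpa using h1
  refine ⟨h0, ?_⟩
  have hc : Continuous f := by
    rw [← continuousOn_univ]
    exact h.conv.continuousOn isOpen_univ
  refine A5B W hW hWc f hc fun φ hφ hφc hφW v w => ?_
  rw [h.hess φ hφ hφc (hφW.trans hWU) v w]
  have h1 : ∀ᵐ x ∂μ, x ∉ W := by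
    rw [ae_iff]
    simpa using h0
  refine integral_eq_zero_of_ae ?_
  filter_upwards [h1] with x hx
  have h2 : φ x = 0 := by
    by_contra h3
    exact hx (hφW (subset_tsupport φ h3))
  simp [h2]

end P214
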