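import Vale.Agent.P214.Defs
import Vale.Agent.P214.D5
import Vale.Agent.P214.C2
import Vale.Agent.P214.C1

/-!
CONE. Lower cone at a point whose subdifferential is a segment. x in the cone region W (convex, open): a subgradient q at x is within eta of s e + p0, s in [0,l] (C2), monotonicity <q - p0, x - x0> >= 0 gives s <= eta/eps, so all subgradients on W are within 1/3 of p0: D5 gives f affine on W, f x = <a,x>+b; a in sub f x for x in W so (letting x -> x0, closed graph) a in sub f x0 = [p0, p0+l e] and <a - p0, x - x0> >= 0 forces a = p0; value at x0 by continuity.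
-/

namespace P214

open MeasureTheory Set Filter Metric
open scoped Topology ContDiff InnerProductSpace ENNReal

theorem CONE {m : ℕ} {U : Set (Sp m)} {μ : Measure (Sp m)} {ν : Sp m → Sp m} {f : Sp m → ℝ}
    (h : Core U μ ν f) (x₀ : Sp m) (hx₀ : x₀ ∈ U) (p₀ e : Sp m) (he : ‖e‖ = 1) (l : ℝ)
    (hl : 0 < l) (hs : sub f x₀ = segment ℝ p₀ (p₀ + l • e)) (ε : ℝ) (hε : 0 < ε) (hε1 : ε < 1) :
    ∃ r : ℝ, 0 < r ∧ ball x₀ r ⊆ U ∧ ∀ x ∈ ball x₀ r, ⟪x - x₀, e⟫_ℝ < -(ε * ‖x - x₀‖) →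
      f x = f x₀ + ⟪p₀, x - x₀⟫_ℝ := by
  have hseg : ∀ q ∈ sub f x₀, ∃ s : ℝ, 0 ≤ s ∧ q = p₀ + s • e := by
    intro q hq
    rw [hs, segment_eq_image'] at hq
    obtain ⟨θ, hθ, rfl⟩ := hq
    exact ⟨θ * l, mul_nonneg hθ.1 hl.le, by simp [smul_smul]⟩
  have hp₀ : p₀ ∈ sub f x₀ := by
    rw [hs]; exact left_mem_segment _ _ _
  obtain ⟨r₁, hr₁, hC2⟩ := C2 f h.conv x₀ (ε / 4) (by positivity)
  obtain ⟨r₂, hr₂, hU⟩ := Metric.isOpen_iff.1 h.isOpen x₀ hx₀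
  set r : ℝ := min r₁ r₂ with hr
  have hrpos : 0 < r := lt_min hr₁ hr₂
  have hrU : ball x₀ r ⊆ U := (ball_subset_ball (min_le_right _ _)).trans hU
  refine ⟨r, hrpos, hrU, ?_⟩
  set W : Set (Sp m) := ball x₀ r ∩ {x | ⟪x - x₀, e⟫_ℝ < -(ε * ‖x - x₀‖)} with hW
  have hWo : IsOpen W := by
    refine isOpen_ball.inter (isOpen_lt ?_ ?_)
    · fun_prop
    · fun_prop
  have hWc : Convex ℝ W := by
    refine (convex_ball _ _).inter ?_
    intro x hx y hy a b ha hb hab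
    have hx' : ⟪x - x₀, e⟫_ℝ < -(ε * ‖x - x₀‖) := hx
    have hy' : ⟪y - x₀, e⟫_ℝ < -(ε * ‖y - x₀‖) := hy
    have e1 : a • x + b • y - x₀ = a • (x - x₀) + b • (y - x₀) := by
      have : x₀ = a • x₀ + b • x₀ := by rw [← add_smul, hab, one_smul]
      nth_rewrite 1 [this]
      rw [smul_sub, smul_sub]; abel
    have e2 : ‖a • (x - x₀) + b • (y - x₀)‖ ≤ a * ‖x - x₀‖ + b * ‖y - x₀‖ := by
      refine (norm_add_le _ _).trans ?_
      rw [norm_smul, norm_smul, Real.norm_of_nonneg ha, Real.norm_of_nonneg hb]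
    show ⟪a • x + b • y - x₀, e⟫_ℝ < -(ε * ‖a • x + b • y - x₀‖)
    rw [e1, inner_add_left, real_inner_smul_left, real_inner_smul_left]
    have e3 : ε * ‖a • (x - x₀) + b • (y - x₀)‖ ≤ ε * (a * ‖x - x₀‖ + b * ‖y - x₀‖) :=
      mul_le_mul_of_nonneg_left e2 hε.le
    rcases ha.eq_or_lt with h0 | h0
    · have hb1 : b = 1 := by linarith
      rw [← h0, hb1] at e3 ⊢
      linarith
    · have i1 : a * ⟪x - x₀, e⟫_ℝ < a * -(ε * ‖x - x₀‖) := mul_lt_mul_of_pos_left hx' h0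
      have i2 : b * ⟪y - x₀, e⟫_ℝ ≤ b * -(ε * ‖y - x₀‖) := mul_le_mul_of_nonneg_left hy'.le hb
      linarith
  have hWU : W ⊆ U := fun x hx => hrU hx.1
  have hnear : ∀ x ∈ W, ∀ q ∈ sub f x, ‖q - p₀‖ < 1 / 2 := by
    intro x hx q hq
    have hxc : ⟪x - x₀, e⟫_ℝ < -(ε * ‖x - x₀‖) := hx.2
    obtain ⟨q', hq', hqq⟩ := hC2 x (ball_subset_ball (min_le_left _ _) hx.1) q hq
    obtain ⟨s, hs0, rfl⟩ := hseg q' hq'
    have hne : 0 < ‖x - x₀‖ := by
      rw [norm_pos_iff]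
      intro h0
      rw [h0] at hxc
      simp at hxc
    have m1 := hp₀ x
    have m2 := hq x₀
    have m3 : 0 ≤ ⟪q - p₀, x - x₀⟫_ℝ := by
      have t1 : ⟪q, x₀ - x⟫_ℝ = -⟪q, x - x₀⟫_ℝ := by rw [← inner_neg_right, neg_sub]
      rw [inner_sub_left]
      linarith
    have m4 : ⟪q - p₀, x - x₀⟫_ℝ = ⟪q - (p₀ + s • e), x - x₀⟫_ℝ + s * ⟪x - x₀, e⟫_ℝ := by
      rw [real_inner_comm e (x - x₀)] 
      rw [← real_inner_smul_left, ← inner_add_left]
      congr 1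
      abel
    have m5 : ⟪q - (p₀ + s • e), x - x₀⟫_ℝ ≤ ε / 4 * ‖x - x₀‖ :=
      (real_inner_le_norm _ _).trans (mul_le_mul_of_nonneg_right hqq.le hne.le)
    have m6 : s * ⟪x - x₀, e⟫_ℝ ≤ s * -(ε * ‖x - x₀‖) := mul_le_mul_of_nonneg_left hxc.le hs0
    have m7 : s * ε * ‖x - x₀‖ ≤ ε / 4 * ‖x - x₀‖ := by nlinarith
    have m8 : s * ε ≤ ε / 4 := le_of_mul_le_mul_right m7 hne
    have m9 : s ≤ 1 / 4 := by
      have : s * ε ≤ 1 / 4 * ε := by linarith
      exact le_of_mul_le_mul_right this hε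
    have n1 : q - p₀ = (q - (p₀ + s • e)) + s • e := by abel
    have n2 : ‖s • e‖ = s := by rw [norm_smul, he, mul_one, Real.norm_of_nonneg hs0]
    rw [n1]
    refine (norm_add_le _ _).trans_lt ?_
    rw [n2]
    linarith
  have hdiam : ∀ x ∈ W, ∀ p ∈ sub f x, ∀ p' ∈ sub f x, ‖p - p'‖ < 1 := by
    intro x hx p hp p' hp'
    have i1 := hnear x hx p hp
    have i2 := hnear x hx p' hp'
    have i3 : p - p' = (p - p₀) - (p' - p₀) := by abel
    rw [i3]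
    refine (norm_sub_le _ _).trans_lt ?_
    linarith
  obtain ⟨-, a, b, hab⟩ := D5 h W hWo hWc hWU hdiam
  intro x₁ hx₁ hx₁c
  have hx₁W : x₁ ∈ W := ⟨hx₁, hx₁c⟩
  -- value at x₀
  have hcont : Continuous f := (h.conv.locallyLipschitz).continuous
  have hray : ∀ t : ℝ, 0 < t → t ≤ 1 → x₀ + t • (x₁ - x₀) ∈ W := by
    intro t ht ht1
    constructor
    · rw [mem_ball, dist_eq_norm, add_sub_cancel_left, norm_smul, Real.norm_of_nonneg ht.le]
      have : ‖x₁ - x₀‖ < r := by rw [← dist_eq_norm]; exact hx₁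
      have := norm_nonneg (x₁ - x₀)
      nlinarith
    · show ⟪x₀ + t • (x₁ - x₀) - x₀, e⟫_ℝ < -(ε * ‖x₀ + t • (x₁ - x₀) - x₀‖)
      rw [add_sub_cancel_left, real_inner_smul_left, norm_smul, Real.norm_of_nonneg ht.le]
      have : t * ⟪x₁ - x₀, e⟫_ℝ < t * -(ε * ‖x₁ - x₀‖) := mul_lt_mul_of_pos_left hx₁c ht
      linarith
  have hval : f x₀ = ⟪a, x₀⟫_ℝ + b := by
    have c1 : Tendsto (fun t : ℝ => f (x₀ + t • (x₁ - x₀))) (𝓝[>] 0) (𝓝 (f x₀)) := by
      have : Continuous (fun t : ℝ => f (x₀ + t • (x₁ - x₀))) := by fun_prop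
      have h1 := this.tendsto 0
      simp only [zero_smul, add_zero] at h1
      exact h1.mono_left nhdsWithin_le_nhds
    have c2 : Tendsto (fun t : ℝ => ⟪a, x₀ + t • (x₁ - x₀)⟫_ℝ + b) (𝓝[>] 0)
        (𝓝 (⟪a, x₀⟫_ℝ + b)) := by
      have : Continuous (fun t : ℝ => ⟪a, x₀ + t • (x₁ - x₀)⟫_ℝ + b) := by fun_prop
      have h1 := this.tendsto 0
      simp only [zero_smul, add_zero] at h1
      exact h1.mono_left nhdsWithin_le_nhds
    refine tendsto_nhds_unique (c1.congr' ?_) c2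
    filter_upwards [Ioc_mem_nhdsGT (zero_lt_one : (0 : ℝ) < 1)] with t ht
    exact hab _ (hray t ht.1 ht.2)
  -- a is a subgradient at x₁
  have haSub : a ∈ sub f x₁ := by
    obtain ⟨q, hq⟩ := (C1 f h.conv x₁).1
    have haq : a = q := by
      by_contra hne
      have hpos : 0 < ‖a - q‖ := norm_pos_iff.2 (sub_ne_zero.2 hne)
      obtain ⟨δ, hδ, hball⟩ := Metric.isOpen_iff.1 hWo x₁ hx₁W
      set t : ℝ := δ / (2 * ‖a - q‖) with ht
      have htpos : 0 < t := by positivity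
      have hz : x₁ - t • (a - q) ∈ W := by
        apply hball
        rw [mem_ball, dist_eq_norm, sub_sub_cancel_left, norm_neg, norm_smul,
          Real.norm_of_nonneg htpos.le, ht]
        have : δ / (2 * ‖a - q‖) * ‖a - q‖ = δ / 2 := by field_simp
        rw [this]; linarith
      have e1 := hab _ hz
      have e2 := hab _ hx₁W
      have e3 := hq (x₁ - t • (a - q))
      rw [sub_sub_cancel_left, inner_neg_right, real_inner_smul_right] at e3
      rw [inner_sub_right, real_inner_smul_right] at e1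
      have e4 : ⟪a, a - q⟫_ℝ - ⟪q, a - q⟫_ℝ = ‖a - q‖ ^ 2 := by
        rw [← inner_sub_left, real_inner_self_eq_norm_sq]
      have e5 : 0 < t * ‖a - q‖ ^ 2 := by positivity
      have e6 : t * (⟪a, a - q⟫_ℝ - ⟪q, a - q⟫_ℝ) ≤ 0 := by linarith
      rw [e4] at e6
      linarith
    rw [haq]; exact hq
  have haSub0 : a ∈ sub f x₀ := by
    intro y
    have e1 := haSub y
    have e2 := hab _ hx₁W
    rw [inner_sub_right] at e1 ⊢
    linarith
  obtain ⟨s, hs0, hsa⟩ := hseg a haSub0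
  have hneg : ⟪x₁ - x₀, e⟫_ℝ < 0 := by
    have := norm_nonneg (x₁ - x₀)
    nlinarith [mul_nonneg hε.le this]
  have hs1 : s = 0 := by
    have e1 := hp₀ x₁
    have e2 := hab _ hx₁W
    rw [hsa] at e2 hval
    have e3 : ⟪p₀ + s • e, x₁⟫_ℝ = ⟪p₀, x₁⟫_ℝ + s * ⟪e, x₁⟫_ℝ := by
      rw [inner_add_left, real_inner_smul_left]
    have e4 : ⟪p₀ + s • e, x₀⟫_ℝ = ⟪p₀, x₀⟫_ℝ + s * ⟪e, x₀⟫_ℝ := by
      rw [inner_add_left, real_inner_smul_left]
    rw [inner_sub_right] at e1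
    rw [e3] at e2
    rw [e4] at hval
    have e5 : ⟪x₁ - x₀, e⟫_ℝ = ⟪e, x₁⟫_ℝ - ⟪e, x₀⟫_ℝ := by
      rw [real_inner_comm, inner_sub_right]
    rw [e5] at hneg
    by_contra hne
    have hsp : 0 < s := lt_of_le_of_ne hs0 (Ne.symm hne)
    nlinarith [mul_pos_of_neg_of_neg hneg (neg_lt_zero.2 hsp)]
  have hap : a = p₀ := by rw [hsa, hs1, zero_smul, add_zero]
  rw [hab _ hx₁W, hval, hap, inner_sub_right]
  ring

end P214
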