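import Vale.Agent.P214.Defs
import Vale.Agent.P214.CONE

/-!
CONE2. Both cones: CONE for e and for -e (the segment read backwards).
-/

namespace P214

open MeasureTheory Set Filter Metric
open scoped Topology ContDiff InnerProductSpace ENNReal

theorem CONE2 {m : ℕ} {U : Set (Sp m)} {μ : Measure (Sp m)} {ν : Sp m → Sp m} {f : Sp m → ℝ}
    (h : Core U μ ν f) (x₀ : Sp m) (hx₀ : x₀ ∈ U) (p₀ e : Sp m) (he : ‖e‖ = 1) (l : ℝ)
    (hl : 0 < l) (hs : sub f x₀ = segment ℝ p₀ (p₀ + l • e)) (ε : ℝ) (hε : 0 < ε) (hε1 : ε < 1) :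
    ∃ r : ℝ, 0 < r ∧ ball x₀ r ⊆ U ∧
      (∀ x ∈ ball x₀ r, ⟪x - x₀, e⟫_ℝ < -(ε * ‖x - x₀‖) → f x = f x₀ + ⟪p₀, x - x₀⟫_ℝ) ∧
      (∀ x ∈ ball x₀ r, ε * ‖x - x₀‖ < ⟪x - x₀, e⟫_ℝ →
        f x = f x₀ + ⟪p₀ + l • e, x - x₀⟫_ℝ) := by
  obtain ⟨r1, hr1, hb1, h1⟩ := CONE h x₀ hx₀ p₀ e he l hl hs ε hε hε1
  have hs' : sub f x₀ = segment ℝ (p₀ + l • e) ((p₀ + l • e) + l • (-e)) := by
    rw [hs, smul_neg, add_neg_cancel_right, segment_symm]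
  obtain ⟨r2, hr2, -, h2⟩ := CONE h x₀ hx₀ (p₀ + l • e) (-e) (by rw [norm_neg, he]) l hl hs' ε
    hε hε1
  refine ⟨min r1 r2, lt_min hr1 hr2, (ball_subset_ball (min_le_left _ _)).trans hb1,
    fun x hx hxe => h1 x (ball_subset_ball (min_le_left _ _) hx) hxe, fun x hx hxe => ?_⟩
  refine h2 x (ball_subset_ball (min_le_right _ _) hx) ?_
  rw [inner_neg_right]
  linarith

end P214
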