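import Vale.Agent.P214.A5

/-!
CV1. Mollification: a locally integrable function with nonnegative distributional Hessian on an
open set is, near every point, the almost everywhere limit of functions convex on a fixed ball
(mollify with ContDiffBump; ContDiffBump.ae_convolution_tendsto_right_of_locallyIntegrable applied
to the indicator of a closed ball times f; the second derivative of the convolution at x is the
pairing of f with the second derivative of the translated kernel).
-/

namespace P214

open MeasureTheory Set Filter Metric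
open scoped Topology ContDiff InnerProductSpace ENNReal

theorem CV1_line {m : ℕ} {F ρ : Sp m → ℝ} (hF : LocallyIntegrable F) (hρ : ContDiff ℝ 1 ρ)
    (hc : HasCompactSupport ρ) (p w : Sp m) (s : ℝ) :
    HasDerivAt (fun s : ℝ => MeasureTheory.convolution F ρ A5L volume (p + s • w))
      (MeasureTheory.convolution F (fun a => fderiv ℝ ρ a w) A5L volume (p + s • w)) s := by
  have hA := hc.hasFDerivAt_convolution_right A5L hF hρ (p + s • w)
  have hAw := MeasureTheory.convolution_precompR_apply A5L hF (hc.fderiv ℝ)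
    (hρ.continuous_fderiv one_ne_zero) (p + s • w) w
  have h1 : HasDerivAt (fun s : ℝ => p + s • w) w s := by
    have h2 : HasDerivAt (fun s : ℝ => s • w) ((1 : ℝ) • w) s :=
      (hasDerivAt_id s).smul_const w
    rw [one_smul] at h2
    exact h2.const_add p
  have h3 := hA.comp_hasDerivAt s h1
  rw [← hAw]
  exact h3

theorem CV1_convex {m : ℕ} {F ρ : Sp m → ℝ} (hF : LocallyIntegrable F) (hρ : ContDiff ℝ ∞ ρ)
    (hc : HasCompactSupport ρ) (B : Set (Sp m)) (hB : Convex ℝ B)
    (h : ∀ p ∈ B, ∀ w : Sp m,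
      0 ≤ ∫ t, F t * fderiv ℝ (fderiv ℝ (fun y => ρ (p - y))) t w w) :
    ConvexOn ℝ B (MeasureTheory.convolution F ρ A5L volume) := by
  refine ⟨hB, ?_⟩
  intro x hx y hy a b ha hb hab
  set w : Sp m := y - x with hw
  have hρ1 : ContDiff ℝ 1 ρ := hρ.of_le (by norm_cast)
  have hρ2 : ContDiff ℝ 1 (fun a => fderiv ℝ ρ a w) :=
    (hρ.fderiv_right (m := 1) (by norm_cast)).clm_apply contDiff_const
  have hc2 : HasCompactSupport (fun a => fderiv ℝ ρ a w) := hc.fderiv_apply ℝ w
  have hd1 := CV1_line hF hρ1 hc x w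
  have hd2 := CV1_line hF hρ2 hc2 x w
  have hpos : ∀ p ∈ B, 0 ≤ MeasureTheory.convolution F
      (fun a => fderiv ℝ (fun a => fderiv ℝ ρ a w) a w) A5L volume p := by
    intro p hp
    have h3 := h p hp w
    rw [MeasureTheory.convolution_def]
    have h4 : ∫ t, F t * fderiv ℝ (fderiv ℝ (fun y => ρ (p - y))) t w w
        = ∫ t, A5L (F t) (fderiv ℝ (fun a => fderiv ℝ ρ a w) (p - t) w) := by
      refine integral_congr_ae (Eventually.of_forall ?_)
      intro t
      show F t * fderiv ℝ (fderiv ℝ (fun y => ρ (p - y))) t w w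
        = fderiv ℝ (fun a => fderiv ℝ ρ a w) (p - t) w • F t
      rw [A5_second hρ p t w w, smul_eq_mul, mul_comm]
    rw [h4] at h3
    exact h3
  have hmem : ∀ s ∈ Icc (0 : ℝ) 1, x + s • w ∈ B := by
    intro s hs
    have h5 := hB hx hy (sub_nonneg.2 hs.2) hs.1 (by ring)
    have h6 : (1 - s) • x + s • y = x + s • w := by rw [hw]; module
    rw [h6] at h5
    exact h5
  have hconv : ConvexOn ℝ (Icc (0 : ℝ) 1)
      (fun s : ℝ => MeasureTheory.convolution F ρ A5L volume (x + s • w)) := by
    refine convexOn_of_hasDerivWithinAt2_nonneg (convex_Icc 0 1)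
      (f' := fun s => MeasureTheory.convolution F (fun a => fderiv ℝ ρ a w) A5L volume (x + s • w))
      (f'' := fun s => MeasureTheory.convolution F
        (fun a => fderiv ℝ (fun a => fderiv ℝ ρ a w) a w) A5L volume (x + s • w))
      (fun s _ => (hd1 s).continuousAt.continuousWithinAt)
      (fun s _ => (hd1 s).hasDerivWithinAt) (fun s _ => (hd2 s).hasDerivWithinAt) ?_
    intro s hs
    exact hpos _ (hmem s (interior_subset hs))
  have h7 := hconv.2 (left_mem_Icc.2 zero_le_one) (right_mem_Icc.2 zero_le_one) ha hb hab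
  have h8 : x + (a • (0 : ℝ) + b • (1 : ℝ)) • w = a • x + b • y := by
    have h9 : a = 1 - b := by linarith
    rw [h9, hw]
    simp only [smul_eq_mul, mul_zero, mul_one, zero_add]
    module
  have h10 : x + (0 : ℝ) • w = x := by rw [zero_smul, add_zero]
  have h11 : x + (1 : ℝ) • w = y := by rw [one_smul, hw]; abel
  simp only [h8, h10, h11] at h7
  exact h7

theorem CV1 {m : ℕ} (U : Set (Sp m)) (hU : IsOpen U) (f : Sp m → ℝ)
    (hf : LocallyIntegrableOn f U)
    (h : ∀ φ : Sp m → ℝ, ContDiff ℝ ∞ φ → HasCompactSupport φ → tsupport φ ⊆ U →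
      (∀ x, 0 ≤ φ x) → ∀ v : Sp m, 0 ≤ ∫ x, f x * fderiv ℝ (fderiv ℝ φ) x v v)
    (x₀ : Sp m) (hx₀ : x₀ ∈ U) :
    ∃ (r : ℝ) (g : ℕ → Sp m → ℝ), 0 < r ∧ ball x₀ r ⊆ U ∧
      (∀ n, ConvexOn ℝ (ball x₀ r) (g n)) ∧
      ∀ᵐ x, x ∈ ball x₀ r → Tendsto (fun n => g n x) atTop (𝓝 (f x)) := by
  obtain ⟨R, hR, hRU⟩ := Metric.isOpen_iff.1 hU x₀ hx₀
  set r : ℝ := R / 4 with hr
  have hr0 : 0 < r := by positivity
  set K : Set (Sp m) := closedBall x₀ (2 * r) with hK
  have hKU : K ⊆ U := (closedBall_subset_ball (by rw [hr]; linarith)).trans hRU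
  have hKc : IsCompact K := isCompact_closedBall _ _
  have hint : IntegrableOn f K := hf.integrableOn_compact_subset hKU hKc
  have hmeas : MeasurableSet K := hKc.measurableSet
  have hFi : Integrable (K.indicator f) := (integrable_indicator_iff hmeas).2 hint
  have hF : LocallyIntegrable (K.indicator f) := hFi.locallyIntegrable
  let φ : ℕ → ContDiffBump (0 : Sp m) := fun n =>
    ⟨(r / ((n : ℝ) + 1)) / 2, r / ((n : ℝ) + 1), by positivity, by
      have : 0 < r / ((n : ℝ) + 1) := by positivity
      linarith⟩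
  have hφr : ∀ n, (φ n).rOut ≤ r := by
    intro n
    show r / ((n : ℝ) + 1) ≤ r
    exact div_le_self hr0.le (by linarith [Nat.cast_nonneg (α := ℝ) n])
  have hφ0 : Tendsto (fun n => (φ n).rOut) atTop (𝓝 0) := by
    have h1 : Tendsto (fun n : ℕ => r * (1 / ((n : ℝ) + 1))) atTop (𝓝 (r * 0)) :=
      tendsto_one_div_add_atTop_nhds_zero_nat.const_mul r
    rw [mul_zero] at h1
    refine h1.congr ?_
    intro n
    show r * (1 / ((n : ℝ) + 1)) = r / ((n : ℝ) + 1)
    rw [mul_one_div]
  have hφK : ∀ᶠ n in atTop, (φ n).rOut ≤ 2 * (φ n).rIn := by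
    refine Eventually.of_forall ?_
    intro n
    show r / ((n : ℝ) + 1) ≤ 2 * ((r / ((n : ℝ) + 1)) / 2)
    linarith
  have hlim := ContDiffBump.ae_convolution_tendsto_right_of_locallyIntegrable
    (μ := (volume : Measure (Sp m))) hφ0 hφK hF
  refine ⟨r, fun n => MeasureTheory.convolution (K.indicator f) ((φ n).normed volume) A5L volume,
    hr0, (ball_subset_ball (by rw [hr]; linarith)).trans hRU, ?_, ?_⟩
  · intro n
    refine CV1_convex hF (ContDiffBump.contDiff_normed (n := ⊤) (φ n))
      (ContDiffBump.hasCompactSupport_normed (φ n)) _ (convex_ball _ _) ?_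
    intro p hp w
    set ρ : Sp m → ℝ := (φ n).normed volume with hρ
    have hρs : ContDiff ℝ ∞ ρ := ContDiffBump.contDiff_normed (n := ⊤) (φ n)
    have hφ' : ContDiff ℝ ∞ (fun y => ρ (p - y)) := hρs.comp (contDiff_const.sub contDiff_id)
    have hsup : Function.support (fun y => ρ (p - y)) ⊆ closedBall p r := by
      intro t ht
      have h1 : p - t ∈ Function.support ρ := ht
      have h2 := subset_tsupport ρ h1
      rw [hρ, ContDiffBump.tsupport_normed_eq, mem_closedBall, dist_zero_right] at h2
      rw [mem_closedBall, dist_comm, dist_eq_norm]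
      exact h2.trans (hφr n)
    have hts : tsupport (fun y => ρ (p - y)) ⊆ closedBall p r :=
      closure_minimal hsup isClosed_closedBall
    have hcc : HasCompactSupport (fun y => ρ (p - y)) :=
      HasCompactSupport.of_support_subset_isCompact (isCompact_closedBall p r) hsup
    have hpK : closedBall p r ⊆ K := by
      refine closedBall_subset_closedBall' ?_
      have h3 : dist p x₀ < r := hp
      linarith
    have h3 := h _ hφ' hcc ((hts.trans hpK).trans hKU)
      (fun x => ContDiffBump.nonneg_normed (φ n) (p - x)) w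
    have h4 : ∫ t, K.indicator f t * fderiv ℝ (fderiv ℝ (fun y => ρ (p - y))) t w w
        = ∫ t, f t * fderiv ℝ (fderiv ℝ (fun y => ρ (p - y))) t w w := by
      refine integral_congr_ae (Eventually.of_forall ?_)
      intro t
      show K.indicator f t * fderiv ℝ (fderiv ℝ (fun y => ρ (p - y))) t w w
        = f t * fderiv ℝ (fderiv ℝ (fun y => ρ (p - y))) t w w
      by_cases ht : t ∈ K
      · rw [Set.indicator_of_mem ht]
      · have h5 : t ∉ tsupport (fun y => ρ (p - y)) := fun hh => ht (hpK (hts hh))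
        have h6 : t ∉ tsupport (fderiv ℝ (fderiv ℝ (fun y => ρ (p - y)))) := fun hh =>
          h5 (tsupport_fderiv_subset ℝ (tsupport_fderiv_subset ℝ hh))
        have h7 : fderiv ℝ (fderiv ℝ (fun y => ρ (p - y))) t = 0 :=
          image_eq_zero_of_notMem_tsupport h6
        rw [h7]
        simp
    rw [h4]
    exact h3
  · filter_upwards [hlim] with x hx hxr
    have hxK : x ∈ K := by
      refine ball_subset_closedBall ?_
      exact ball_subset_ball (by linarith) hxr
    rw [Set.indicator_of_mem hxK] at hx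
    refine hx.congr ?_
    intro n
    have h2 := MeasureTheory.convolution_flip (ContinuousLinearMap.lsmul ℝ ℝ)
      (f := (φ n).normed volume) (g := K.indicator f) (μ := (volume : Measure (Sp m)))
    exact (congrFun h2 x).symm

end P214
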