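import Vale.Agent.P214.Defs

/-!
CV2. A sequence of convex functions on a ball converging almost everywhere to f: f agrees almost
everywhere on the ball with a convex function (take limsup; the convergence set G is dense, the
convex hull of G contains the ball, so values are eventually bounded above at every point;
bounded below by reflection through a point of G near x).
-/

namespace P214

open MeasureTheory Set Filter Metric
open scoped Topology ContDiff InnerProductSpace ENNReal

theorem CV2 {m : ℕ} (x₀ : Sp m) (r : ℝ) (hr : 0 < r) (g : ℕ → Sp m → ℝ) (f : Sp m → ℝ)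
    (hg : ∀ n, ConvexOn ℝ (ball x₀ r) (g n))
    (hl : ∀ᵐ x, x ∈ ball x₀ r → Tendsto (fun n => g n x) atTop (𝓝 (f x))) :
    ∃ F : Sp m → ℝ, ConvexOn ℝ (ball x₀ r) F ∧ ∀ᵐ x, x ∈ ball x₀ r → F x = f x := by
  classical
  have hD : Dense {x : Sp m | x ∈ ball x₀ r → Tendsto (fun n => g n x) atTop (𝓝 (f x))} :=
    Measure.dense_of_ae hl
  set D := {x : Sp m | x ∈ ball x₀ r → Tendsto (fun n => g n x) atTop (𝓝 (f x))} with hDdef
  have hcl : ball x₀ r ⊆ closure (ball x₀ r ∩ D) := hD.open_subset_closure_inter isOpen_ball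
  have hspan : affineSpan ℝ (ball x₀ r ∩ D) = ⊤ := by
    rw [eq_top_iff, ← (isOpen_ball (x := x₀) (ε := r)).affineSpan_eq_top ⟨x₀, mem_ball_self hr⟩,
      affineSpan_le]
    intro y hy
    have h1 : closure (ball x₀ r ∩ D) ⊆ (affineSpan ℝ (ball x₀ r ∩ D) : Set (Sp m)) :=
      closure_minimal (subset_affineSpan ℝ _) (AffineSubspace.closed_of_finiteDimensional _)
    exact h1 (hcl hy)
  have hint : (interior (convexHull ℝ (ball x₀ r ∩ D))).Nonempty :=
    interior_convexHull_nonempty_iff_affineSpan_eq_top.mpr hspan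
  have hB : ball x₀ r ⊆ convexHull ℝ (ball x₀ r ∩ D) := by
    have h1 := (convex_convexHull ℝ (ball x₀ r ∩ D)).interior_closure_eq_interior_of_nonempty_interior
      hint
    have h2 : ball x₀ r ⊆ interior (closure (convexHull ℝ (ball x₀ r ∩ D))) :=
      interior_maximal (hcl.trans (closure_mono (subset_convexHull ℝ _))) isOpen_ball
    exact (h2.trans h1.le).trans interior_subset
  have hup : ∀ x ∈ ball x₀ r, ∃ C, ∀ᶠ n in atTop, g n x ≤ C := by
    have hconv : Convex ℝ {x : Sp m | x ∈ ball x₀ r ∧ ∃ C, ∀ᶠ n in atTop, g n x ≤ C} := by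
      intro x hx y hy a b ha hb hab
      obtain ⟨hxB, C, hC⟩ := hx
      obtain ⟨hyB, C', hC'⟩ := hy
      refine ⟨(convex_ball x₀ r) hxB hyB ha hb hab, a * C + b * C', ?_⟩
      filter_upwards [hC, hC'] with n h1 h2
      have h3 := (hg n).2 hxB hyB ha hb hab
      simp only [smul_eq_mul] at h3
      have h4 := mul_le_mul_of_nonneg_left h1 ha
      have h5 := mul_le_mul_of_nonneg_left h2 hb
      linarith
    have hsub : ball x₀ r ∩ D ⊆ {x : Sp m | x ∈ ball x₀ r ∧ ∃ C, ∀ᶠ n in atTop, g n x ≤ C} := by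
      intro x hx
      refine ⟨hx.1, f x + 1, ?_⟩
      exact (hx.2 hx.1).eventually (Iic_mem_nhds (by linarith))
    intro x hx
    exact (convexHull_min hsub hconv (hB hx)).2
  have hlow : ∀ x ∈ ball x₀ r, ∃ C, ∀ᶠ n in atTop, C ≤ g n x := by
    intro x hx
    have hcont : ContinuousAt (fun z : Sp m => (2:ℝ) • z - x) x := by fun_prop
    have h2x : (2:ℝ) • x - x = x := by
      rw [two_smul]
      abel
    have hN : (fun z : Sp m => (2:ℝ) • z - x) ⁻¹' (ball x₀ r) ∈ 𝓝 x := by
      apply hcont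
      simp only [h2x]
      exact isOpen_ball.mem_nhds hx
    obtain ⟨z, hz1, hz2⟩ := mem_closure_iff_nhds.mp (hcl hx) _ hN
    obtain ⟨C, hC⟩ := hup _ hz1
    refine ⟨2 * (f z - 1) - C, ?_⟩
    have h5 : ∀ᶠ n in atTop, f z - 1 ≤ g n z :=
      (hz2.2 hz2.1).eventually (Ici_mem_nhds (by linarith))
    filter_upwards [hC, h5] with n h1 h2
    have h3 := (hg n).2 hx hz1 (show (0:ℝ) ≤ 1 / 2 by norm_num) (show (0:ℝ) ≤ 1 / 2 by norm_num)
      (by norm_num)
    have h4 : (1 / 2 : ℝ) • x + (1 / 2 : ℝ) • ((2:ℝ) • z - x) = z := by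
      rw [smul_sub, smul_smul]
      norm_num
    rw [h4] at h3
    simp only [smul_eq_mul] at h3
    linarith
  have hω : (hyperfilter ℕ : Filter ℕ) ≤ atTop := Nat.hyperfilter_le_atTop
  have hF : ∀ x ∈ ball x₀ r, ∃ L, Tendsto (fun n => g n x) (hyperfilter ℕ : Filter ℕ) (𝓝 L) := by
    intro x hx
    obtain ⟨C₁, h1⟩ := hlow x hx
    obtain ⟨C₂, h2⟩ := hup x hx
    have h3 : ∀ᶠ n in (hyperfilter ℕ : Filter ℕ), g n x ∈ Icc C₁ C₂ :=
      hω (by filter_upwards [h1, h2] with n h4 h5 using ⟨h4, h5⟩)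
    obtain ⟨L, _, hL⟩ := (isCompact_Icc (a := C₁) (b := C₂)).ultrafilter_le_nhds
      ((hyperfilter ℕ).map (fun n => g n x)) (by
        rw [le_principal_iff]
        exact h3)
    exact ⟨L, hL⟩
  choose! F hF using hF
  refine ⟨F, ⟨convex_ball x₀ r, ?_⟩, ?_⟩
  · intro x hx y hy a b ha hb hab
    have h1 := hF _ ((convex_ball x₀ r) hx hy ha hb hab)
    have h2 := ((hF x hx).const_mul a).add ((hF y hy).const_mul b)
    simp only [smul_eq_mul]
    refine le_of_tendsto_of_tendsto' h1 h2 fun n => ?_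
    have h3 := (hg n).2 hx hy ha hb hab
    simpa only [smul_eq_mul] using h3
  · filter_upwards [hl] with x hx hxB
    exact tendsto_nhds_unique (hF x hxB) ((hx hxB).mono_left hω)

end P214
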