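import Vale.Agent.P214.Defs

/-!
Closed normal tensors.
-/

namespace P214

open MeasureTheory Set Filter Metric
open scoped Topology ContDiff InnerProductSpace ENNReal

/-- The matrix valued measure `(ν ⊗ ν) μ` is closed (curl free): the distributional derivative
`∂_u (⟨ν,v⟩⟨ν,w⟩ μ)` is symmetric in `u` and `v`. -/
def IsClosedTensor {m : ℕ} (U : Set (Sp m)) (μ : Measure (Sp m)) (ν : Sp m → Sp m) : Prop :=
  ∀ φ : Sp m → ℝ, ContDiff ℝ ∞ φ → HasCompactSupport φ → tsupport φ ⊆ U → ∀ u v w : Sp m,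
    ∫ x, fderiv ℝ φ x u * (⟪ν x, v⟫_ℝ * ⟪ν x, w⟫_ℝ) ∂μ
      = ∫ x, fderiv ℝ φ x v * (⟪ν x, u⟫_ℝ * ⟪ν x, w⟫_ℝ) ∂μ

/-- The tensor `ν ⊗ ν`. -/
noncomputable def tens {m : ℕ} (ν : Sp m → Sp m) (y : Sp m) : Sp m →L[ℝ] Sp m →L[ℝ] ℝ :=
  (innerSL ℝ (ν y)).smulRight (innerSL ℝ (ν y))

/-- Its mollification. -/
noncomputable def mol {m : ℕ} (κ : Measure (Sp m)) (ν : Sp m → Sp m) (ρ : Sp m → ℝ) (x : Sp m) :
    Sp m →L[ℝ] Sp m →L[ℝ] ℝ :=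
  ∫ y, ρ (x - y) • tens ν y ∂κ

end P214
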