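import Vale.Agent.P214.Defs

/-!
J0. One-variable convex functions: lam g is the Stieltjes measure of the right derivative.
-/

namespace P214

open MeasureTheory Set Filter Metric
open scoped Topology ContDiff InnerProductSpace ENNReal

theorem J0 (g : ℝ → ℝ) (hg : ConvexOn ℝ univ g) :
    Monotone (fun t => derivWithin g (Ioi t) t) := by
  have h := hg.monotoneOn_rightDeriv
  rw [interior_univ] at h
  exact fun a b hab => h (mem_univ a) (mem_univ b) hab

theorem J0_locfin (g : ℝ → ℝ) (hg : ConvexOn ℝ univ g) : IsLocallyFiniteMeasure (lam g) := by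
  unfold lam
  rw [dif_pos (J0 g hg)]
  infer_instance

end P214
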