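import Vale.Agent.P214.Defs
import Vale.Agent.P214.J0

/-!
J1. Atoms of lam g: jump of the derivative.
-/

namespace P214

open MeasureTheory Set Filter Metric
open scoped Topology ContDiff InnerProductSpace ENNReal

/-- the slope depends continuously on the left end -/
theorem J1_slope_cont (g : ℝ → ℝ) (hg : ConvexOn ℝ univ g) {s u : ℝ} (hsu : s ≠ u) :
    ContinuousAt (fun s' => slope g s' u) s := by
  have hc : Continuous g := by
    have := hg.continuousOn_interior
    rw [interior_univ] at this
    exact continuousOn_univ.1 this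
  have : (fun s' => slope g s' u) = fun s' => (g u - g s') / (u - s') := by
    funext s'
    rw [slope_def_field]
  rw [this]
  exact ((continuous_const.sub hc).continuousAt).div (by fun_prop) (sub_ne_zero.2 hsu.symm)

/-- the right derivative is continuous from the right -/
theorem J1_right (g : ℝ → ℝ) (hg : ConvexOn ℝ univ g) (t : ℝ) :
    Tendsto (fun t => derivWithin g (Ioi t) t) (𝓝[>] t) (𝓝 (derivWithin g (Ioi t) t)) := by
  rw [tendsto_order]
  constructor
  · intro c hc
    filter_upwards [self_mem_nhdsWithin] with u hu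
    exact hc.trans_le (J0 g hg (le_of_lt hu))
  · intro c hc
    have h1 := (hasDerivWithinAt_iff_tendsto_slope' self_notMem_Ioi).1
      (hg.hasDerivWithinAt_rightDeriv_of_mem_interior (x := t) (by simp))
    obtain ⟨u, hu1, hu2⟩ := ((h1.eventually (gt_mem_nhds hc)).and self_mem_nhdsWithin).exists
    have hu2' : t < u := hu2
    have h2 : ∀ᶠ s in 𝓝 t, slope g s u < c :=
      (J1_slope_cont g hg hu2'.ne).eventually (gt_mem_nhds hu1)
    have h3 : ∀ᶠ s in 𝓝 t, s < u := gt_mem_nhds hu2'
    filter_upwards [nhdsWithin_le_nhds h2, nhdsWithin_le_nhds h3] with s hs hsu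
    exact (hg.rightDeriv_le_slope_of_mem_interior (by simp) (mem_univ u) hsu).trans_lt hs

/-- the left limit of the right derivative is the left derivative -/
theorem J1_left (g : ℝ → ℝ) (hg : ConvexOn ℝ univ g) (t a : ℝ)
    (ha : HasDerivWithinAt g a (Iio t) t) :
    Tendsto (fun t => derivWithin g (Ioi t) t) (𝓝[<] t) (𝓝 a) := by
  rw [tendsto_order]
  constructor
  · intro c hc
    have h1 := (hasDerivWithinAt_iff_tendsto_slope' self_notMem_Iio).1 ha
    obtain ⟨u, hu1, hu2⟩ := ((h1.eventually (lt_mem_nhds hc)).and self_mem_nhdsWithin).exists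
    have hu2' : u < t := hu2
    have h2 : ∀ᶠ s in 𝓝 t, c < slope g s u :=
      (J1_slope_cont g hg hu2'.ne').eventually (lt_mem_nhds (by simpa using hu1))
    have h3 : ∀ᶠ s in 𝓝 t, u < s := lt_mem_nhds hu2'
    filter_upwards [nhdsWithin_le_nhds h2, nhdsWithin_le_nhds h3] with s hs hsu
    have h4 : derivWithin g (Iio s) s ≤ derivWithin g (Ioi s) s :=
      hg.leftDeriv_le_rightDeriv_of_mem_interior (by simp)
    have h5 : slope g u s ≤ derivWithin g (Iio s) s :=
      hg.slope_le_leftDeriv_of_mem_interior (mem_univ u) (by simp) hsu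
    rw [slope_comm] at h5
    linarith
  · intro c hc
    filter_upwards [self_mem_nhdsWithin] with s hs
    have hs' : s < t := hs
    have h1 : derivWithin g (Ioi s) s ≤ slope g s t :=
      hg.rightDeriv_le_slope_of_mem_interior (by simp) (mem_univ t) hs'
    have h2 : slope g s t ≤ a :=
      hg.slope_le_of_hasDerivWithinAt_Iio (mem_univ s) (mem_univ t) hs' ha
    linarith

theorem J1_stieltjes (g : ℝ → ℝ) (hg : ConvexOn ℝ univ g) (t : ℝ) :
    (J0 g hg).stieltjesFunction t = derivWithin g (Ioi t) t := by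
  rw [Monotone.stieltjesFunction_eq]
  exact rightLim_eq_of_tendsto (J1_right g hg t)

theorem J1_lam (g : ℝ → ℝ) (hg : ConvexOn ℝ univ g) :
    lam g = (J0 g hg).stieltjesFunction.measure := by
  unfold lam
  rw [dif_pos (J0 g hg)]

theorem J1 (g : ℝ → ℝ) (hg : ConvexOn ℝ univ g) (t a b : ℝ)
    (ha : HasDerivWithinAt g a (Iio t) t) (hb : HasDerivWithinAt g b (Ioi t) t) :
    lam g {t} = ENNReal.ofReal (b - a) := by
  rw [J1_lam g hg, StieltjesFunction.measure_singleton, J1_stieltjes g hg,
    hb.derivWithin (uniqueDiffWithinAt_Ioi t)]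
  congr 2
  have h1 : ⇑(J0 g hg).stieltjesFunction = fun t => derivWithin g (Ioi t) t :=
    funext fun s => J1_stieltjes g hg s
  rw [h1]
  exact leftLim_eq_of_tendsto (J1_left g hg t a ha)

end P214
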