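import Vale.Agent.P214.Defs
import Vale.Agent.P214.J0
import Vale.Agent.P214.J1

/-!
J3. Integration by parts for the second derivative measure.
-/

namespace P214

open MeasureTheory Set Filter Metric
open scoped Topology ContDiff InnerProductSpace ENNReal

/-- Fubini for a Stieltjes measure -/
theorem J3_stieltjes (f : StieltjesFunction ℝ) {ψ : ℝ → ℝ} (hψ : ContDiff ℝ 1 ψ) {a b : ℝ}
    (hb : ψ b = 0) :
    ∫ t in Ioc a b, ψ t ∂f.measure = - ∫ s in Ioc a b, deriv ψ s * (f s - f a) := by
  have hψd : Continuous (deriv ψ) := hψ.continuous_deriv le_rfl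
  obtain ⟨C, hC⟩ := isCompact_Icc.exists_bound_of_continuousOn (hψd.continuousOn (s := Icc a b))
  set H : ℝ → ℝ → ℝ := fun t s => if t ≤ s then deriv ψ s else 0 with hH
  have hmeas : Measurable (Function.uncurry H) := by
    have : Function.uncurry H = fun p : ℝ × ℝ => if p.1 ≤ p.2 then deriv ψ p.2 else 0 := by
      funext p
      rfl
    rw [this]
    exact Measurable.ite (measurableSet_le measurable_fst measurable_snd)
      (hψd.measurable.comp measurable_snd) measurable_const
  have _i1 : IsFiniteMeasure (f.measure.restrict (Ioc a b)) :=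
    ⟨by rw [Measure.restrict_apply_univ, f.measure_Ioc]; exact ENNReal.ofReal_lt_top⟩
  have _i2 : IsFiniteMeasure ((volume : Measure ℝ).restrict (Ioc a b)) :=
    ⟨by rw [Measure.restrict_apply_univ, Real.volume_Ioc]; exact ENNReal.ofReal_lt_top⟩
  have hint : Integrable (Function.uncurry H)
      ((f.measure.restrict (Ioc a b)).prod ((volume : Measure ℝ).restrict (Ioc a b))) := by
    refine Integrable.of_bound (C := C) hmeas.aestronglyMeasurable ?_
    rw [Measure.prod_restrict]
    refine (ae_restrict_iff' (measurableSet_Ioc.prod measurableSet_Ioc)).2 (ae_of_all _ ?_)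
    rintro ⟨t, s⟩ ⟨ht, hs⟩
    have hs' : s ∈ Icc a b := ⟨hs.1.le, hs.2⟩
    show ‖if t ≤ s then deriv ψ s else 0‖ ≤ C
    split_ifs
    · exact hC s hs'
    · rw [norm_zero]
      exact (norm_nonneg _).trans (hC s hs')
  have hswap := integral_integral_swap (f := H) hint
  have hL : ∀ t ∈ Ioc a b, (∫ s in Ioc a b, H t s) = - ψ t := by
    intro t ht
    have e1 : (∫ s in Ioc a b, H t s) = ∫ s in Icc t b, deriv ψ s := by
      have e2 : ∀ s, H t s = (Ici t).indicator (deriv ψ) s := by
        intro s
        rw [indicator_apply]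
        rfl
      rw [setIntegral_congr_fun measurableSet_Ioc (fun s _ => e2 s),
        setIntegral_indicator measurableSet_Ici]
      have e3 : Ioc a b ∩ Ici t = Icc t b := by
        ext s
        constructor
        · rintro ⟨h1, h2⟩
          exact ⟨h2, h1.2⟩
        · rintro ⟨h1, h2⟩
          exact ⟨⟨ht.1.trans_le h1, h2⟩, h1⟩
      rw [e3]
    rw [e1, integral_Icc_eq_integral_Ioc, ← intervalIntegral.integral_of_le ht.2,
      intervalIntegral.integral_deriv_eq_sub
        (fun x _ => (hψ.differentiable (by norm_num)).differentiableAt)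
        (hψd.intervalIntegrable _ _), hb]
    ring
  have hR : ∀ s ∈ Ioc a b, (∫ t in Ioc a b, H t s ∂f.measure) = deriv ψ s * (f s - f a) := by
    intro s hs
    have e2 : ∀ t, H t s = (Iic s).indicator (fun _ => deriv ψ s) t := by
      intro t
      rw [indicator_apply]
      rfl
    rw [setIntegral_congr_fun measurableSet_Ioc (fun t _ => e2 t),
      setIntegral_indicator measurableSet_Iic]
    have e3 : Ioc a b ∩ Iic s = Ioc a s := by
      ext t
      constructor
      · rintro ⟨h1, h2⟩
        exact ⟨h1.1, h2⟩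
      · rintro ⟨h1, h2⟩
        exact ⟨⟨h1, h2.trans hs.2⟩, h2⟩
    rw [e3, setIntegral_const, Measure.real, f.measure_Ioc,
      ENNReal.toReal_ofReal (sub_nonneg.2 (f.mono hs.1.le)), smul_eq_mul]
    ring
  rw [setIntegral_congr_fun measurableSet_Ioc hL, setIntegral_congr_fun measurableSet_Ioc hR]
    at hswap
  rw [integral_neg] at hswap
  linarith

theorem J3 (g : ℝ → ℝ) (hg : ConvexOn ℝ univ g) (ψ : ℝ → ℝ) (hψ : ContDiff ℝ ∞ ψ)
    (hc : HasCompactSupport ψ) :
    ∫ t, ψ t ∂(lam g) = ∫ t, g t * deriv (deriv ψ) t := by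
  have hcont : Continuous g := by
    have := hg.continuousOn_interior
    rw [interior_univ] at this
    exact continuousOn_univ.1 this
  have hψ1 : ContDiff ℝ 1 ψ := hψ.of_le (by exact_mod_cast le_top)
  have hd : ContDiff ℝ ∞ (deriv ψ) := (contDiff_infty_iff_deriv.1 hψ).2
  have hd1 : ContDiff ℝ 1 (deriv ψ) := hd.of_le (by exact_mod_cast le_top)
  have hdc : Continuous (deriv ψ) := hd.continuous
  have hddc : Continuous (deriv (deriv ψ)) := hd1.continuous_deriv le_rfl
  obtain ⟨R, hR⟩ := hc.isCompact.isBounded.subset_closedBall 0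
  have hRb : ∀ x ∈ tsupport ψ, |x| ≤ |R| := by
    intro x hx
    have := hR hx
    rw [mem_closedBall, Real.dist_eq, sub_zero] at this
    exact this.trans (le_abs_self R)
  have hR0 := abs_nonneg R
  have hout : ∀ x, x ∉ Ioo (-(|R| + 1)) (|R| + 1) → x ∉ tsupport ψ := by
    intro x hx hx'
    have h1 := hRb x hx'
    rw [abs_le] at h1
    exact hx ⟨by linarith, by linarith⟩
  have hsub : tsupport (deriv ψ) ⊆ tsupport ψ :=
    closure_minimal support_deriv_subset (isClosed_tsupport ψ)
  have h0 : ∀ x, x ∉ Ioo (-(|R| + 1)) (|R| + 1) → ψ x = 0 := fun x hx =>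
    image_eq_zero_of_notMem_tsupport (hout x hx)
  have h1 : ∀ x, x ∉ Ioo (-(|R| + 1)) (|R| + 1) → deriv ψ x = 0 := fun x hx =>
    image_eq_zero_of_notMem_tsupport (fun h => hout x hx (hsub h))
  have h2 : ∀ x, x ∉ Ioo (-(|R| + 1)) (|R| + 1) → deriv (deriv ψ) x = 0 := by
    intro x hx
    by_contra hne
    exact hout x hx (hsub (support_deriv_subset (Function.mem_support.2 hne)))
  have hb0 : 0 < |R| + 1 := by linarith
  generalize |R| + 1 = b at *
  have hab : -b ≤ b := by linarith
  set F : ℝ → ℝ := fun t => derivWithin g (Ioi t) t with hF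
  have hFmono : Monotone F := J0 g hg
  have hψb : ψ b = 0 := h0 b (fun h => lt_irrefl _ h.2)
  have hψa : ψ (-b) = 0 := h0 (-b) (fun h => lt_irrefl _ h.1)
  -- the measure side
  have hL : ∫ t, ψ t ∂(lam g) = ∫ t in Ioc (-b) b, ψ t ∂(lam g) := by
    refine (setIntegral_eq_integral_of_forall_compl_eq_zero fun x hx => h0 x ?_).symm
    exact fun h => hx ⟨h.1, h.2.le⟩
  have hA : ∫ t, ψ t ∂(lam g) = - ∫ s in (-b)..b, deriv ψ s * (F s - F (-b)) := by
    rw [hL, J1_lam g hg, J3_stieltjes _ hψ1 hψb, intervalIntegral.integral_of_le hab]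
    congr 1
    refine setIntegral_congr_fun measurableSet_Ioc fun s _ => ?_
    show deriv ψ s * ((J0 g hg).stieltjesFunction s - (J0 g hg).stieltjesFunction (-b)) = _
    rw [J1_stieltjes g hg, J1_stieltjes g hg]
  have hFint : IntervalIntegrable (fun s => F s * deriv ψ s) volume (-b) b :=
    (hFmono.intervalIntegrable).mul_continuousOn hdc.continuousOn
  have hGint : IntervalIntegrable (fun s => g s * deriv (deriv ψ) s) volume (-b) b :=
    (hcont.mul hddc).intervalIntegrable _ _
  have hB : ∫ s in (-b)..b, deriv ψ s * (F s - F (-b)) = ∫ s in (-b)..b, F s * deriv ψ s := by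
    have e1 : ∀ s, deriv ψ s * (F s - F (-b)) = F s * deriv ψ s - F (-b) * deriv ψ s := by
      intro s
      ring
    simp_rw [e1]
    rw [intervalIntegral.integral_sub hFint
      ((hdc.intervalIntegrable _ _).const_mul _), intervalIntegral.integral_const_mul,
      intervalIntegral.integral_deriv_eq_sub
        (fun x _ => (hψ1.differentiable (by norm_num)).differentiableAt)
        (hdc.intervalIntegrable _ _), hψa, hψb]
    ring
  have hC : ∫ s in (-b)..b, (F s * deriv ψ s + g s * deriv (deriv ψ) s) = 0 := by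
    have h := intervalIntegral.integral_eq_sub_of_hasDeriv_right (f := fun s => g s * deriv ψ s)
      (f' := fun s => F s * deriv ψ s + g s * deriv (deriv ψ) s) (a := -b) (b := b)
      (hcont.mul hdc).continuousOn (fun x _ => by
        have e1 : HasDerivWithinAt g (F x) (Ioi x) x :=
          hg.hasDerivWithinAt_rightDeriv_of_mem_interior (by simp)
        have e2 : HasDerivWithinAt (deriv ψ) (deriv (deriv ψ) x) (Ioi x) x :=
          ((hd1.differentiable (by norm_num)) x).hasDerivAt.hasDerivWithinAt
        exact e1.mul e2) (hFint.add hGint)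
    rw [h, h1 b (fun h => lt_irrefl _ h.2), h1 (-b) (fun h => lt_irrefl _ h.1)]
    ring
  rw [intervalIntegral.integral_add hFint hGint] at hC
  have hD : ∫ t, g t * deriv (deriv ψ) t = ∫ s in (-b)..b, g s * deriv (deriv ψ) s := by
    rw [intervalIntegral.integral_of_le hab]
    refine (setIntegral_eq_integral_of_forall_compl_eq_zero fun x hx => ?_).symm
    rw [h2 x (fun h => hx ⟨h.1, h.2.le⟩), mul_zero]
  rw [hA, hB, hD]
  linarith

end P214
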