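import Vale.Agent.P214.Defs
import Vale.Agent.P214.J3
import Vale.Agent.P214.PM
import Vale.Agent.P214.PL

/-!
DI. Disintegration of <nu,e>^2 mu along lines of direction e. By J3 the inner integral is int f(y+te) D2phi(y+te)(e,e) dt, continuous in y; integrate in y with PM and use the potential identity.
-/

namespace P214

open MeasureTheory Set Filter Metric
open scoped Topology ContDiff InnerProductSpace ENNReal

theorem DI_cont {m : ℕ} (f : Sp m → ℝ) (hf : ConvexOn ℝ univ f) (e : Sp m)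
    (φ : Sp m → ℝ) (hφ : ContDiff ℝ ∞ φ) :
    Continuous (fun x => f x * fderiv ℝ (fderiv ℝ φ) x e e) := by
  have h1 : Continuous f := continuousOn_univ.1 (hf.continuousOn isOpen_univ)
  have h2 : ContDiff ℝ ∞ (fderiv ℝ φ) := hφ.fderiv_right (by norm_num)
  have h3 : Continuous (fderiv ℝ (fderiv ℝ φ)) := h2.continuous_fderiv (by norm_num)
  exact h1.mul ((h3.clm_apply continuous_const).clm_apply continuous_const)

theorem DI_supp {m : ℕ} (f : Sp m → ℝ) (e : Sp m)
    (φ : Sp m → ℝ) (hc : HasCompactSupport φ) :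
    HasCompactSupport (fun x => f x * fderiv ℝ (fderiv ℝ φ) x e e) := by
  have h1 : HasCompactSupport (fderiv ℝ (fderiv ℝ φ)) := (hc.fderiv ℝ).fderiv ℝ
  refine h1.mono' ?_
  intro x hx
  refine subset_tsupport _ ?_
  intro h0
  apply hx
  simp only [h0]
  simp

theorem DI_inner {m : ℕ} (f : Sp m → ℝ) (hf : ConvexOn ℝ univ f) (e : Sp m)
    (he : ‖e‖ = 1) (φ : Sp m → ℝ) (hφ : ContDiff ℝ ∞ φ) (hc : HasCompactSupport φ)
    (h0 : ∀ x, 0 ≤ φ x) (y : Sp m) :
    0 ≤ ∫ t : ℝ, f (y + t • e) * fderiv ℝ (fderiv ℝ φ) (y + t • e) e e ∧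
    ∫⁻ t, ENNReal.ofReal (φ (y + t • e)) ∂(lam fun t => f (y + t • e)) =
      ENNReal.ofReal (∫ t : ℝ, f (y + t • e) * fderiv ℝ (fderiv ℝ φ) (y + t • e) e e) := by
  have hg : ConvexOn ℝ univ (fun t : ℝ => f (y + t • e)) := by
    refine ⟨convex_univ, fun a _ b _ p q hp hq hpq => ?_⟩
    have h1 := hf.2 (mem_univ (y + a • e)) (mem_univ (y + b • e)) hp hq hpq
    have h2 : p • (y + a • e) + q • (y + b • e) = y + (p • a + q • b) • e := by
      have h3 : q = 1 - p := by linarith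
      subst h3
      simp only [smul_eq_mul]
      module
    rw [h2] at h1
    exact h1
  have hline : ∀ t : ℝ, HasDerivAt (fun t : ℝ => y + t • e) e t := by
    intro t
    have h1 := ((hasDerivAt_id t).smul_const e).const_add y
    rw [one_smul] at h1
    exact h1
  have h2 : ContDiff ℝ ∞ (fderiv ℝ φ) := hφ.fderiv_right (by norm_num)
  have hψ : ContDiff ℝ ∞ (fun t : ℝ => φ (y + t • e)) :=
    hφ.comp (contDiff_const.add (contDiff_id.smul contDiff_const))
  have hψc : HasCompactSupport (fun t : ℝ => φ (y + t • e)) := by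
    obtain ⟨R, hR⟩ := hc.isCompact.isBounded.subset_closedBall (0 : Sp m)
    refine HasCompactSupport.intro (isCompact_Icc (a := -(R + ‖y‖)) (b := R + ‖y‖)) ?_
    intro t ht
    refine image_eq_zero_of_notMem_tsupport fun hx => ht ?_
    have h3 := hR hx
    rw [mem_closedBall_zero_iff] at h3
    have h4 : ‖t • e‖ = |t| := by rw [norm_smul, he, mul_one, Real.norm_eq_abs]
    have h5 : ‖t • e‖ ≤ ‖y + t • e‖ + ‖y‖ := by
      have h6 : t • e = (y + t • e) - y := by abel
      calc ‖t • e‖ = ‖(y + t • e) - y‖ := by rw [← h6]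
        _ ≤ _ := norm_sub_le _ _
    rw [h4] at h5
    exact abs_le.1 (h5.trans (by linarith))
  have d1 : deriv (fun t : ℝ => φ (y + t • e)) = fun t => fderiv ℝ φ (y + t • e) e := by
    funext t
    exact (((hφ.differentiable (by norm_num)) (y + t • e)).hasFDerivAt.comp_hasDerivAt t
      (hline t)).deriv
  have d2 : deriv (deriv (fun t : ℝ => φ (y + t • e))) =
      fun t => fderiv ℝ (fderiv ℝ φ) (y + t • e) e e := by
    rw [d1]
    funext t
    have h3 : HasDerivAt (fun t : ℝ => fderiv ℝ φ (y + t • e))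
        (fderiv ℝ (fderiv ℝ φ) (y + t • e) e) t :=
      ((h2.differentiable (by norm_num)) (y + t • e)).hasFDerivAt.comp_hasDerivAt t (hline t)
    have h4 := h3.clm_apply (hasDerivAt_const t e)
    rw [map_zero, add_zero] at h4
    exact h4.deriv
  have hJ := J3 _ hg _ hψ hψc
  rw [d2] at hJ
  have := J0_locfin _ hg
  have hint : Integrable (fun t : ℝ => φ (y + t • e)) (lam fun t => f (y + t • e)) :=
    hψ.continuous.integrable_of_hasCompactSupport hψc
  have h5 := ofReal_integral_eq_lintegral_ofReal hint (Eventually.of_forall fun t => h0 _)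
  rw [hJ] at h5
  refine ⟨?_, h5.symm⟩
  rw [← hJ]
  exact integral_nonneg fun t => h0 _

theorem DI_meas {m : ℕ} (f : Sp m → ℝ) (hf : ConvexOn ℝ univ f) (e : Sp m)
    (he : ‖e‖ = 1) (φ : Sp m → ℝ) (hφ : ContDiff ℝ ∞ φ) (hc : HasCompactSupport φ)
    (h0 : ∀ x, 0 ≤ φ x) :
    Measurable (fun y : Sp m => ∫⁻ t, ENNReal.ofReal (φ (y + t • e)) ∂(lam fun t => f (y + t • e))) := by
  simp only [fun y => (DI_inner f hf e he φ hφ hc h0 y).2]
  refine ENNReal.measurable_ofReal.comp ?_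
  have hF := DI_cont f hf e φ hφ
  have hs : StronglyMeasurable (fun p : Sp m × ℝ =>
      f (p.1 + p.2 • e) * fderiv ℝ (fderiv ℝ φ) (p.1 + p.2 • e) e e) :=
    (hF.comp (by fun_prop : Continuous fun p : Sp m × ℝ => p.1 + p.2 • e)).stronglyMeasurable
  exact hs.integral_prod_right'.measurable

theorem DI {m : ℕ} {U : Set (Sp m)} {μ : Measure (Sp m)} {ν : Sp m → Sp m} {f : Sp m → ℝ}
    (h : Core U μ ν f) (e : Sp m) (he : ‖e‖ = 1) (φ : Sp m → ℝ) (hφ : ContDiff ℝ ∞ φ)
    (hc : HasCompactSupport φ) (hU : tsupport φ ⊆ U) (h0 : ∀ x, 0 ≤ φ x) :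
    ∫⁻ y, (∫⁻ t, ENNReal.ofReal (φ (y + t • e)) ∂(lam fun t => f (y + t • e))) ∂(planeMeasure e)
      = ENNReal.ofReal (∫ x, φ x * ⟪ν x, e⟫_ℝ ^ 2 ∂μ) := by
  simp only [fun y => (DI_inner f h.conv e he φ hφ hc h0 y).2]
  have hF := DI_cont f h.conv e φ hφ
  have hFc := DI_supp f e φ hc
  have hFi : Integrable (fun x => f x * fderiv ℝ (fderiv ℝ φ) x e e) volume :=
    hF.integrable_of_hasCompactSupport hFc
  have hT : Measurable (fun p : Sp m × ℝ => p.1 + p.2 • e) := by fun_prop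
  have hPM := PM e he
  have hFT : Integrable (fun p : Sp m × ℝ =>
      f (p.1 + p.2 • e) * fderiv ℝ (fderiv ℝ φ) (p.1 + p.2 • e) e e)
      ((planeMeasure e).prod volume) :=
    (hPM.integrable_comp hF.aestronglyMeasurable).2 hFi
  rw [← ofReal_integral_eq_lintegral_ofReal hFT.integral_prod_left
    (Eventually.of_forall fun y => (DI_inner f h.conv e he φ hφ hc h0 y).1)]
  congr 1
  rw [← integral_prod _ hFT]
  have h1 : ∫ p : Sp m × ℝ, f (p.1 + p.2 • e) * fderiv ℝ (fderiv ℝ φ) (p.1 + p.2 • e) e e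
      ∂((planeMeasure e).prod volume) = ∫ x, f x * fderiv ℝ (fderiv ℝ φ) x e e := by
    rw [← hPM.map_eq, integral_map hT.aemeasurable hF.aestronglyMeasurable]
  rw [h1, h.hess φ hφ hc hU e e]
  simp only [sq]

end P214
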