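import Vale.Agent.P214.Defs
import Vale.Agent.P214.DI

/-!
DGE. Converse for compact sets: smooth phi_k = 1 on K, supported in thickenings; dominated convergence and DI.
-/

namespace P214

open MeasureTheory Set Filter Metric
open scoped Topology ContDiff InnerProductSpace ENNReal

theorem DGE_bump {m : ℕ} (K : Set (Sp m)) {δ : ℝ} (hδ : 0 < δ) :
    ∃ φ : Sp m → ℝ, ContDiff ℝ ∞ φ ∧ (∀ x, 0 ≤ φ x) ∧ (∀ x, φ x ≤ 1) ∧
      (∀ x ∈ cthickening (δ / 2) K, φ x = 1) ∧ ∀ x, x ∉ thickening δ K → φ x = 0 := by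
  have hd : Disjoint (thickening δ K)ᶜ (cthickening (δ / 2) K) :=
    disjoint_compl_left_iff_subset.2 (cthickening_subset_thickening' hδ (by linarith) K)
  obtain ⟨φ, h0, h1, h2⟩ := exists_contMDiffMap_zero_one_of_isClosed (n := (⊤ : ℕ∞))
    (modelWithCornersSelf ℝ (Sp m)) isOpen_thickening.isClosed_compl isClosed_cthickening hd
  refine ⟨φ, φ.contMDiff.contDiff, fun x => (h2 x).1, fun x => (h2 x).2, fun x hx => h1 hx,
    fun x hx => h0 hx⟩

theorem DGE {m : ℕ} {U : Set (Sp m)} {μ : Measure (Sp m)} {ν : Sp m → Sp m} {f : Sp m → ℝ}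
    (h : Core U μ ν f) (hn : ∀ᵐ x ∂μ, ‖ν x‖ = 1) (e : Sp m) (he : ‖e‖ = 1) (K : Set (Sp m))
    (hKU : K ⊆ U) (hK : IsCompact K)
    (h0 : ∀ᵐ y ∂(planeMeasure e), (lam fun t => f (y + t • e)) {t | y + t • e ∈ K} = 0) :
    ∀ᵐ x ∂μ, x ∈ K → ⟪ν x, e⟫_ℝ = 0 := by
  have : IsFiniteMeasure μ := ⟨h.fin⟩
  obtain ⟨δ, hδ, hδU⟩ := hK.exists_cthickening_subset_open h.isOpen hKU
  obtain ⟨Φ, hΦc, hΦ0, hΦ1, hΦK, hΦout⟩ := DGE_bump K hδ
  have hpos : ∀ n : ℕ, 0 < δ / 2 / ((n : ℝ) + 1) := fun n => by positivity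
  have hle : ∀ n : ℕ, δ / 2 / ((n : ℝ) + 1) ≤ δ / 2 := fun n =>
    div_le_self (by positivity) (by have : (0 : ℝ) ≤ n := Nat.cast_nonneg n; linarith)
  choose φ hφc hφ0 hφ1 hφK hφout using fun n : ℕ => DGE_bump K (hpos n)
  have hts : ∀ (ψ : Sp m → ℝ) (r : ℝ), r ≤ δ → (∀ x, x ∉ thickening r K → ψ x = 0) →
      tsupport ψ ⊆ cthickening δ K := by
    intro ψ r hr hψ
    refine closure_minimal (fun x hx => ?_) isClosed_cthickening
    by_contra hcon
    refine hx (hψ x fun hx' => hcon ?_)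
    exact cthickening_mono hr K (thickening_subset_cthickening r K hx')
  have hcomp : ∀ (ψ : Sp m → ℝ), tsupport ψ ⊆ cthickening δ K → HasCompactSupport ψ :=
    fun ψ hψ => hK.cthickening.of_isClosed_subset (isClosed_tsupport ψ) hψ
  have hΦts := hts Φ δ le_rfl hΦout
  have hφts : ∀ n, tsupport (φ n) ⊆ cthickening δ K := fun n =>
    hts (φ n) _ ((hle n).trans (by linarith)) (hφout n)
  have hφΦ : ∀ n x, φ n x ≤ Φ x := by
    intro n x
    by_cases hx : x ∈ thickening (δ / 2 / ((n : ℝ) + 1)) K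
    · rw [hΦK x (cthickening_mono (hle n) K (thickening_subset_cthickening _ K hx))]
      exact hφ1 n x
    · rw [hφout n x hx]
      exact hΦ0 x
  have hlim : ∀ x, x ∉ K → ∀ᶠ n in atTop, φ n x = 0 := by
    intro x hx
    have h1 : x ∉ closure K := by rwa [hK.isClosed.closure_eq]
    rw [closure_eq_iInter_thickening] at h1
    simp only [mem_iInter, not_forall] at h1
    obtain ⟨r, hr, hxr⟩ := h1
    obtain ⟨N, hN⟩ := exists_nat_gt (δ / 2 / r)
    refine eventually_atTop.2 ⟨N, fun n hn' => hφout n x fun hx' => hxr ?_⟩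
    refine thickening_mono ?_ K hx'
    have hn1 : (N : ℝ) ≤ n := by exact_mod_cast hn'
    rw [div_lt_iff₀ hr] at hN
    rw [div_le_iff₀ (by positivity)]
    nlinarith
  -- inner integrals
  let F : ℕ → Sp m → ℝ≥0∞ := fun n y =>
    ∫⁻ t, ENNReal.ofReal (φ n (y + t • e)) ∂(lam fun t => f (y + t • e))
  let B : Sp m → ℝ≥0∞ := fun y =>
    ∫⁻ t, ENNReal.ofReal (Φ (y + t • e)) ∂(lam fun t => f (y + t • e))
  have hFm : ∀ n, Measurable (F n) := fun n =>
    DI_meas f h.conv e he (φ n) (hφc n) (hcomp _ (hφts n)) (hφ0 n)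
  have hBm : Measurable B := DI_meas f h.conv e he Φ hΦc (hcomp _ hΦts) hΦ0
  have hFI : ∀ n, ∫⁻ y, F n y ∂(planeMeasure e) =
      ENNReal.ofReal (∫ x, φ n x * ⟪ν x, e⟫_ℝ ^ 2 ∂μ) := fun n =>
    DI h e he (φ n) (hφc n) (hcomp _ (hφts n)) ((hφts n).trans hδU) (hφ0 n)
  have hBI : ∫⁻ y, B y ∂(planeMeasure e) ≠ ⊤ := by
    have := DI h e he Φ hΦc (hcomp _ hΦts) (hΦts.trans hδU) hΦ0
    show ∫⁻ y, (∫⁻ t, ENNReal.ofReal (Φ (y + t • e)) ∂(lam fun t => f (y + t • e)))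
      ∂(planeMeasure e) ≠ ⊤
    rw [this]
    exact ENNReal.ofReal_ne_top
  have hFB : ∀ n y, F n y ≤ B y := fun n y =>
    lintegral_mono fun t => ENNReal.ofReal_le_ofReal (hφΦ n _)
  have hmeas : ∀ (ψ : Sp m → ℝ), ContDiff ℝ ∞ ψ → ∀ y : Sp m,
      Measurable fun t : ℝ => ENNReal.ofReal (ψ (y + t • e)) := by
    intro ψ hψ y
    have : Continuous fun t : ℝ => ψ (y + t • e) :=
      hψ.continuous.comp (continuous_const.add (continuous_id.smul continuous_const))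
    exact ENNReal.measurable_ofReal.comp this.measurable
  have hFlim : ∀ᵐ y ∂(planeMeasure e), Tendsto (fun n => F n y) atTop (𝓝 0) := by
    filter_upwards [h0, ae_lt_top hBm hBI] with y hy hBy
    have h1 := tendsto_lintegral_of_dominated_convergence
      (μ := lam fun t => f (y + t • e)) (F := fun n t => ENNReal.ofReal (φ n (y + t • e)))
      (f := fun _ => (0 : ℝ≥0∞)) (fun t => ENNReal.ofReal (Φ (y + t • e)))
      (fun n => hmeas _ (hφc n) y)
      (fun n => Eventually.of_forall fun t => ENNReal.ofReal_le_ofReal (hφΦ n _)) hBy.ne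
      (by
        have h2 : ∀ᵐ t ∂(lam fun t => f (y + t • e)), y + t • e ∉ K := by
          rw [ae_iff]
          simpa using hy
        filter_upwards [h2] with t ht
        refine tendsto_const_nhds.congr' ?_
        filter_upwards [hlim _ ht] with n hn'
        rw [hn', ENNReal.ofReal_zero])
    rw [lintegral_zero] at h1
    exact h1
  have hout := tendsto_lintegral_of_dominated_convergence (μ := planeMeasure e) (F := F)
    (f := fun _ => (0 : ℝ≥0∞)) B hFm (fun n => Eventually.of_forall (hFB n)) hBI hFlim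
  rw [lintegral_zero] at hout
  -- the integral over K
  have hbd : ∀ᵐ x ∂μ, ‖⟪ν x, e⟫_ℝ ^ 2‖ ≤ 1 := by
    filter_upwards [hn] with x hx
    rw [norm_pow, Real.norm_eq_abs]
    have h1 := abs_real_inner_le_norm (ν x) e
    rw [hx, he, one_mul] at h1
    exact pow_le_one₀ (abs_nonneg _) h1
  have hm : Measurable fun x => ⟪ν x, e⟫_ℝ ^ 2 := (h.meas.inner measurable_const).pow_const 2
  have hint : Integrable (fun x => ⟪ν x, e⟫_ℝ ^ 2) μ :=
    Integrable.mono' (integrable_const (1 : ℝ)) hm.aestronglyMeasurable hbd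
  have hint2 : ∀ n, Integrable (fun x => φ n x * ⟪ν x, e⟫_ℝ ^ 2) μ := by
    intro n
    refine Integrable.mono' (integrable_const (1 : ℝ))
      ((hφc n).continuous.measurable.mul hm).aestronglyMeasurable ?_
    filter_upwards [hbd] with x hx
    rw [norm_mul, Real.norm_eq_abs, abs_of_nonneg (hφ0 n x)]
    exact mul_le_one₀ (hφ1 n x) (norm_nonneg _) hx
  have hKn : ∀ n, ∫ x in K, ⟪ν x, e⟫_ℝ ^ 2 ∂μ ≤ ∫ x, φ n x * ⟪ν x, e⟫_ℝ ^ 2 ∂μ := by
    intro n
    rw [← integral_indicator hK.measurableSet]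
    refine integral_mono (hint.indicator hK.measurableSet) (hint2 n) fun x => ?_
    by_cases hx : x ∈ K
    · rw [indicator_of_mem hx]
      show ⟪ν x, e⟫_ℝ ^ 2 ≤ φ n x * ⟪ν x, e⟫_ℝ ^ 2
      rw [hφK n x (self_subset_cthickening K hx), one_mul]
    · rw [indicator_of_notMem hx]
      exact mul_nonneg (hφ0 n x) (sq_nonneg _)
  have hz : ENNReal.ofReal (∫ x in K, ⟪ν x, e⟫_ℝ ^ 2 ∂μ) ≤ 0 := by
    refine ge_of_tendsto' hout fun n => ?_
    rw [hFI n]
    exact ENNReal.ofReal_le_ofReal (hKn n)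
  have hz2 : ∫ x in K, ⟪ν x, e⟫_ℝ ^ 2 ∂μ ≤ 0 := ENNReal.ofReal_eq_zero.1 (le_zero_iff.1 hz)
  have hz3 : ∫ x in K, ⟪ν x, e⟫_ℝ ^ 2 ∂μ = 0 :=
    le_antisymm hz2 (integral_nonneg fun x => sq_nonneg _)
  have hz4 := (setIntegral_eq_zero_iff_of_nonneg_ae
    (Eventually.of_forall fun x => sq_nonneg _) hint.integrableOn).1 hz3
  have hz5 := (ae_restrict_iff' hK.measurableSet).1 hz4
  filter_upwards [hz5] with x hx hxK
  exact pow_eq_zero_iff (two_ne_zero) |>.1 (hx hxK)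

end P214
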