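import Vale.Agent.P214.Defs
import Vale.Agent.P214.DI

/-!
DLE. mu-null subsets of U are null for lam on almost every line: outer regular open O with N <= O <= U, mu O < eps; smooth phi_k with values in [0,1], supported in O, equal to 1 on compact K_k exhausting O; Fatou and DI.
-/

namespace P214

open MeasureTheory Set Filter Metric
open scoped Topology ContDiff InnerProductSpace ENNReal

/-- a smooth cut-off function -/
theorem DLE_cut {m : ℕ} {K O : Set (Sp m)} (hK : IsCompact K) (hO : IsOpen O) (hKO : K ⊆ O) :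
    ∃ φ : Sp m → ℝ, ContDiff ℝ ∞ φ ∧ HasCompactSupport φ ∧ tsupport φ ⊆ O ∧
      (∀ x, 0 ≤ φ x) ∧ (∀ x, φ x ≤ 1) ∧ ∀ x ∈ K, φ x = 1 := by
  obtain ⟨L, hL, hKL, hLO⟩ := exists_compact_between hK hO hKO
  obtain ⟨f, hf1, hf0, hf⟩ := exists_contMDiffMap_one_nhds_of_subset_interior
    (I := modelWithCornersSelf ℝ (Sp m)) (n := (⊤ : ℕ∞)) hK.isClosed hKL
  have hs : Function.support (f : Sp m → ℝ) ⊆ L := by
    intro x hx
    by_contra hxL
    exact hx (hf0 x hxL)
  have hts : tsupport (f : Sp m → ℝ) ⊆ L := closure_minimal hs hL.isClosed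
  refine ⟨f, ?_, ?_, hts.trans hLO, fun x => (hf x).1, fun x => (hf x).2, fun x hx => ?_⟩
  · exact f.contMDiff.contDiff
  · exact HasCompactSupport.of_support_subset_isCompact hL hs
  · exact hf1.self_of_nhdsSet x hx

/-- exhaustion of an open set by smooth cut-off functions -/
theorem DLE_exh {m : ℕ} {O : Set (Sp m)} (hO : IsOpen O) :
    ∃ φ : ℕ → Sp m → ℝ, (∀ k, ContDiff ℝ ∞ (φ k)) ∧ (∀ k, HasCompactSupport (φ k)) ∧
      (∀ k, tsupport (φ k) ⊆ O) ∧ (∀ k x, 0 ≤ φ k x) ∧ (∀ k x, φ k x ≤ 1) ∧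
      ∀ x ∈ O, ∀ᶠ k in atTop, φ k x = 1 := by
  obtain ⟨F, hF1, hF2, hF3, hF4⟩ := hO.exists_iUnion_isClosed
  have hK : ∀ k : ℕ, IsCompact (F k ∩ closedBall (0 : Sp m) k) := fun k =>
    (isCompact_closedBall (0 : Sp m) k).inter_left (hF1 k)
  choose φ h1 h2 h3 h4 h5 h6 using fun k : ℕ =>
    DLE_cut (hK k) hO (inter_subset_left.trans (hF2 k))
  refine ⟨φ, h1, h2, h3, h4, h5, fun x hx => ?_⟩
  rw [← hF3] at hx
  obtain ⟨k0, hk0⟩ := mem_iUnion.mp hx
  obtain ⟨k1, hk1⟩ := exists_nat_ge ‖x‖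
  filter_upwards [eventually_ge_atTop (max k0 k1)] with k hk
  refine h6 k x ⟨hF4 (le_trans (le_max_left _ _) hk) hk0, ?_⟩
  rw [mem_closedBall, dist_zero_right]
  refine hk1.trans ?_
  exact_mod_cast le_trans (le_max_right _ _) hk

theorem DLE_open {m : ℕ} {U : Set (Sp m)} {μ : Measure (Sp m)} {ν : Sp m → Sp m} {f : Sp m → ℝ}
    (h : Core U μ ν f) (hn : ∀ᵐ x ∂μ, ‖ν x‖ = 1) (e : Sp m) (he : ‖e‖ = 1) {O : Set (Sp m)}
    (hO : IsOpen O) (hOU : O ⊆ U) :
    ∃ G : Sp m → ℝ≥0∞, Measurable G ∧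
      (∀ y, (lam fun t => f (y + t • e)) {t | y + t • e ∈ O} ≤ G y) ∧
      ∫⁻ y, G y ∂(planeMeasure e) ≤ μ O := by
  obtain ⟨φ, h1, h2, h3, h4, h5, h6⟩ := DLE_exh hO
  have : IsFiniteMeasure μ := ⟨h.fin⟩
  set A : ℕ → Sp m → ℝ≥0∞ := fun k y =>
    ∫⁻ t, ENNReal.ofReal (φ k (y + t • e)) ∂(lam fun t => f (y + t • e)) with hA
  have hAm : ∀ k, Measurable (A k) := fun k => DI_meas f h.conv e he (φ k) (h1 k) (h2 k) (h4 k)
  refine ⟨fun y => liminf (fun k => A k y) atTop, Measurable.liminf hAm, fun y => ?_, ?_⟩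
  · have hcont : Continuous fun t : ℝ => y + t • e := by fun_prop
    have hms : MeasurableSet {t : ℝ | y + t • e ∈ O} := (hO.preimage hcont).measurableSet
    have e1 : (lam fun t => f (y + t • e)) {t | y + t • e ∈ O} =
        ∫⁻ t, ({t : ℝ | y + t • e ∈ O}).indicator (1 : ℝ → ℝ≥0∞) t
          ∂(lam fun t => f (y + t • e)) := (lintegral_indicator_one hms).symm
    rw [e1]
    refine le_trans (lintegral_mono (g := fun t => liminf (fun k =>
      ENNReal.ofReal (φ k (y + t • e))) atTop) fun t => ?_) (lintegral_liminf_le fun k => ?_)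
    · by_cases ht : y + t • e ∈ O
      · rw [indicator_of_mem (show t ∈ {t : ℝ | y + t • e ∈ O} from ht)]
        refine le_liminf_of_le (by isBoundedDefault) ?_
        filter_upwards [h6 _ ht] with k hk
        rw [hk, ENNReal.ofReal_one, Pi.one_apply]
      · rw [indicator_of_notMem (show t ∉ {t : ℝ | y + t • e ∈ O} from ht)]
        exact zero_le
    · exact (ENNReal.continuous_ofReal.comp ((h1 k).continuous.comp hcont)).measurable
  · refine (lintegral_liminf_le hAm).trans ?_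
    have h7 : ∀ k, ∫⁻ y, A k y ∂(planeMeasure e) ≤ μ O := by
      intro k
      rw [hA]
      change ∫⁻ y, (∫⁻ t, ENNReal.ofReal (φ k (y + t • e)) ∂(lam fun t => f (y + t • e)))
        ∂(planeMeasure e) ≤ μ O
      rw [DI h e he (φ k) (h1 k) (h2 k) ((h3 k).trans hOU) (h4 k)]
      have h8 : ∫ x, φ k x * ⟪ν x, e⟫_ℝ ^ 2 ∂μ ≤ ∫ x, O.indicator (fun _ => (1:ℝ)) x ∂μ := by
        refine integral_mono_of_nonneg (ae_of_all _ fun x => mul_nonneg (h4 k x) (sq_nonneg _))
          ((integrable_const 1).indicator hO.measurableSet) ?_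
        filter_upwards [hn] with x hx
        by_cases hxO : x ∈ O
        · rw [indicator_of_mem hxO]
          have h9 : ⟪ν x, e⟫_ℝ ^ 2 ≤ 1 := by
            have h10 := abs_real_inner_le_norm (ν x) e
            rw [hx, he, one_mul] at h10
            rw [← sq_abs]
            exact pow_le_one₀ (abs_nonneg _) h10
          calc φ k x * ⟪ν x, e⟫_ℝ ^ 2 ≤ 1 * 1 :=
                mul_le_mul (h5 k x) h9 (sq_nonneg _) zero_le_one
            _ = 1 := one_mul 1
        · rw [indicator_of_notMem hxO]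
          have h9 : φ k x = 0 := by
            by_contra hne
            exact hxO (h3 k (subset_tsupport _ hne))
          rw [h9, zero_mul]
      have h9 : ∫ x, O.indicator (fun _ => (1:ℝ)) x ∂μ = (μ O).toReal := by
        rw [integral_indicator hO.measurableSet, setIntegral_const, smul_eq_mul, mul_one]
        rfl
      rw [h9] at h8
      exact (ENNReal.ofReal_le_ofReal h8).trans ENNReal.ofReal_toReal_le
    refine (liminf_le_liminf (v := fun _ => μ O) (Eventually.of_forall h7)).trans ?_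
    rw [liminf_const]

theorem DLE {m : ℕ} {U : Set (Sp m)} {μ : Measure (Sp m)} {ν : Sp m → Sp m} {f : Sp m → ℝ}
    (h : Core U μ ν f) (hn : ∀ᵐ x ∂μ, ‖ν x‖ = 1) (e : Sp m) (he : ‖e‖ = 1) (N : Set (Sp m))
    (hNU : N ⊆ U) (hN : μ N = 0) :
    ∀ᵐ y ∂(planeMeasure e), (lam fun t => f (y + t • e)) {t | y + t • e ∈ N} = 0 := by
  have : IsFiniteMeasure μ := ⟨h.fin⟩
  have hO : ∀ k : ℕ, ∃ O : Set (Sp m), N ⊆ O ∧ IsOpen O ∧ O ⊆ U ∧
      μ O ≤ ((k : ℝ≥0∞) + 1)⁻¹ := by
    intro k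
    obtain ⟨O, h1, h2, h3⟩ := N.exists_isOpen_lt_of_lt (μ := μ) ((k : ℝ≥0∞) + 1)⁻¹ (by
      rw [hN]
      exact ENNReal.inv_pos.mpr (by finiteness))
    exact ⟨O ∩ U, subset_inter h1 hNU, h2.inter h.isOpen, inter_subset_right,
      (measure_mono inter_subset_left).trans h3.le⟩
  choose O h1 h2 h3 h4 using hO
  choose G h5 h6 h7 using fun k => DLE_open h hn e he (h2 k) (h3 k)
  have h8 : Measurable fun y => ⨅ k, G k y := Measurable.iInf h5
  have h9 : ∫⁻ y, (⨅ k, G k y) ∂(planeMeasure e) = 0 := by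
    refine le_antisymm ?_ zero_le
    have h10 : ∀ k : ℕ, ∫⁻ y, (⨅ k, G k y) ∂(planeMeasure e) ≤ ((k : ℝ≥0∞) + 1)⁻¹ := fun k =>
      (lintegral_mono fun y => iInf_le (fun k => G k y) k).trans ((h7 k).trans (h4 k))
    refine ge_of_tendsto' (x := atTop) (f := fun k : ℕ => ((k : ℝ≥0∞) + 1)⁻¹) ?_ h10
    have h11 : Tendsto (fun k : ℕ => ((k + 1 : ℕ) : ℝ≥0∞)⁻¹) atTop (𝓝 0) :=
      ENNReal.tendsto_inv_nat_nhds_zero.comp (tendsto_add_atTop_nat 1)
    refine h11.congr fun k => ?_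
    push_cast
    rfl
  rw [lintegral_eq_zero_iff h8] at h9
  filter_upwards [h9] with y hy
  refine le_antisymm ?_ zero_le
  have hy' : (⨅ k, G k y) = 0 := hy
  rw [← hy']
  refine le_iInf fun k => ?_
  refine le_trans (measure_mono fun t ht => ?_) (h6 k y)
  exact h1 k ht

end P214
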