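import Mathlib

/-!
Codimension-one integral varifolds with a convex potential.
-/

namespace P214

open MeasureTheory Set Filter Metric
open scoped Topology ContDiff InnerProductSpace ENNReal

/-- The ambient space, of dimension `m + 1`. -/
abbrev Sp (m : ℕ) : Type := EuclideanSpace ℝ (Fin (m + 1))

/-- `m`-dimensional Lebesgue measure of the hyperplane orthogonal to `v`. -/
noncomputable def planeMeasure {m : ℕ} (v : Sp m) : Measure (Sp m) :=
  Measure.map (fun y : ((ℝ ∙ v)ᗮ : Submodule ℝ (Sp m)) => (y : Sp m)) volume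

/-- At `x` the measure has the approximate tangent plane orthogonal to the unit vector `v`,
with multiplicity `q`. -/
def HasTangentPlane {m : ℕ} (μ : Measure (Sp m)) (x v : Sp m) (q : ℕ) : Prop :=
  ‖v‖ = 1 ∧ 1 ≤ q ∧
    ∀ φ : Sp m → ℝ, Continuous φ → HasCompactSupport φ →
      Tendsto (fun r : ℝ => (r ^ m)⁻¹ * ∫ y, φ (r⁻¹ • (y - x)) ∂μ) (𝓝[>] 0)
        (𝓝 ((q : ℝ) * ∫ y, φ y ∂(planeMeasure v)))

/-- Integral `m`-varifold in the open set `U`, given by its weight and its unit normal. -/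
def IsIntegralVarifold {m : ℕ} (U : Set (Sp m)) (μ : Measure (Sp m)) (ν : Sp m → Sp m) : Prop :=
  μ Uᶜ = 0 ∧ (∀ K : Set (Sp m), IsCompact K → K ⊆ U → μ K < ⊤) ∧ Measurable ν ∧
    ∀ᵐ x ∂μ, ∃ q : ℕ, HasTangentPlane μ x (ν x) q

/-- The first variation vanishes. -/
def IsStationary {m : ℕ} (U : Set (Sp m)) (μ : Measure (Sp m)) (ν : Sp m → Sp m) : Prop :=
  ∀ X : Sp m → Sp m, ContDiff ℝ 1 X → HasCompactSupport X → tsupport X ⊆ U →
    ∫ x, (LinearMap.trace ℝ (Sp m) (fderiv ℝ X x : Sp m →ₗ[ℝ] Sp m)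
      - ⟪fderiv ℝ X x (ν x), ν x⟫_ℝ) ∂μ = 0

/-- `f` is a potential: its distributional Hessian is the projection on the normal, times `μ`. -/
def IsPotential {m : ℕ} (U : Set (Sp m)) (μ : Measure (Sp m)) (ν : Sp m → Sp m)
    (f : Sp m → ℝ) : Prop :=
  ∀ φ : Sp m → ℝ, ContDiff ℝ ∞ φ → HasCompactSupport φ → tsupport φ ⊆ U → ∀ v w : Sp m,
    ∫ x, f x * fderiv ℝ (fderiv ℝ φ) x v w = ∫ x, φ x * (⟪ν x, v⟫_ℝ * ⟪ν x, w⟫_ℝ) ∂μ

/-- Near `p` the measure is an integer multiple of a hyperplane through `p`. -/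
def FlatAt {m : ℕ} (μ : Measure (Sp m)) (p : Sp m) : Prop :=
  ∃ (r : ℝ) (v : Sp m) (q : ℕ), 0 < r ∧ ‖v‖ = 1 ∧ 1 ≤ q ∧
    μ.restrict (ball p r) =
      (q : ℝ≥0∞) • (Measure.map (fun y => p + y) (planeMeasure v)).restrict (ball p r)

/-- Points of the support in `U` near which `μ` is not a multiple of a hyperplane. -/
def nonFlatSet {m : ℕ} (U : Set (Sp m)) (μ : Measure (Sp m)) : Set (Sp m) :=
  {p | p ∈ U ∧ (∀ r : ℝ, 0 < r → 0 < μ (ball p r)) ∧ ¬ FlatAt μ p}

/-! ### Auxiliary notions used in the proof -/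

/-- Subdifferential of a convex function on the whole space. -/
def sub {m : ℕ} (f : Sp m → ℝ) (x : Sp m) : Set (Sp m) :=
  {p | ∀ y, f x + ⟪p, y - x⟫_ℝ ≤ f y}

/-- Core situation: finite measure, globally defined convex function. -/
structure Core {m : ℕ} (U : Set (Sp m)) (μ : Measure (Sp m)) (ν : Sp m → Sp m)
    (f : Sp m → ℝ) : Prop where
  isOpen : IsOpen U
  convex : Convex ℝ U
  fin : μ univ < ⊤
  supp : μ Uᶜ = 0
  meas : Measurable ν
  tangent : ∀ᵐ x ∂μ, ∃ q : ℕ, HasTangentPlane μ x (ν x) q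
  conv : ConvexOn ℝ univ f
  hess : IsPotential U μ ν f

/-- The subdifferential at `x` is a segment of integer length `q ≥ 1` in direction `v`. -/
def GoodAt {m : ℕ} (f : Sp m → ℝ) (x v : Sp m) (q : ℕ) : Prop :=
  ‖v‖ = 1 ∧ 1 ≤ q ∧ ∃ p : Sp m, sub f x = segment ℝ p (p + (q : ℝ) • v)

open Classical in
/-- Second derivative measure of a convex function of one variable. -/
noncomputable def lam (g : ℝ → ℝ) : Measure ℝ :=
  if h : Monotone (fun t => derivWithin g (Ioi t) t) then h.stieltjesFunction.measure else 0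

end P214
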