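import Vale.Agent.P214.Defs

/-!
EXT. Local extension of a convex function: infimal convolution with `K ‖·‖` over a small ball on
which `f` is `K`-Lipschitz.
-/

namespace P214

open MeasureTheory Set Filter Metric
open scoped Topology ContDiff InnerProductSpace ENNReal

private theorem EXT_aux {m : ℕ} {f : Sp m → ℝ} {x₀ : Sp m} {r K : ℝ} (hr : 0 < r) (hK : 0 ≤ K)
    (hf : ConvexOn ℝ (ball x₀ r) f)
    (hL : ∀ x ∈ ball x₀ r, ∀ y ∈ ball x₀ r, f x ≤ f y + K * ‖x - y‖) :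
    ∃ g : Sp m → ℝ, ConvexOn ℝ univ g ∧ ∀ x ∈ ball x₀ r, g x = f x := by
  have : Nonempty (ball x₀ r) := ⟨⟨x₀, mem_ball_self hr⟩⟩
  set g : Sp m → ℝ := fun x => ⨅ y : ball x₀ r, (f y + K * ‖x - y‖) with hg
  have hbdd : ∀ x : Sp m, BddBelow (range fun y : ball x₀ r => f y + K * ‖x - y‖) := by
    intro x
    refine ⟨f x₀ - K * ‖x - x₀‖, ?_⟩
    rintro _ ⟨y, rfl⟩
    have h1 := hL x₀ (mem_ball_self hr) y y.2
    have h2 : ‖x₀ - (y : Sp m)‖ ≤ ‖x - x₀‖ + ‖x - y‖ := by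
      have h3 : x₀ - (y : Sp m) = (x - y) - (x - x₀) := by abel
      rw [h3]
      exact (norm_sub_le _ _).trans (by linarith)
    have h4 := mul_le_mul_of_nonneg_left h2 hK
    show f x₀ - K * ‖x - x₀‖ ≤ f y + K * ‖x - y‖
    linarith
  have hle : ∀ (x : Sp m) (y : ball x₀ r), g x ≤ f y + K * ‖x - y‖ := fun x y => ciInf_le (hbdd x) y
  have hex : ∀ (x : Sp m) (ε : ℝ), 0 < ε → ∃ y : ball x₀ r, f y + K * ‖x - y‖ < g x + ε := by
    intro x ε hε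
    exact exists_lt_of_ciInf_lt (by show g x < g x + ε; linarith)
  refine ⟨g, ⟨convex_univ, ?_⟩, ?_⟩
  · intro x₁ _ x₂ _ a b ha hb hab
    refine le_of_forall_pos_le_add fun ε hε => ?_
    obtain ⟨y₁, h1⟩ := hex x₁ ε hε
    obtain ⟨y₂, h2⟩ := hex x₂ ε hε
    have hy : a • (y₁ : Sp m) + b • (y₂ : Sp m) ∈ ball x₀ r :=
      (convex_ball x₀ r) y₁.2 y₂.2 ha hb hab
    have h3 := hle (a • x₁ + b • x₂) ⟨_, hy⟩
    have h4 := hf.2 y₁.2 y₂.2 ha hb hab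
    simp only [smul_eq_mul] at h4 ⊢
    have h5 : ‖a • x₁ + b • x₂ - (a • (y₁ : Sp m) + b • (y₂ : Sp m))‖ ≤
        a * ‖x₁ - y₁‖ + b * ‖x₂ - y₂‖ := by
      have e : a • x₁ + b • x₂ - (a • (y₁ : Sp m) + b • (y₂ : Sp m)) =
          a • (x₁ - y₁) + b • (x₂ - y₂) := by
        rw [smul_sub, smul_sub]
        abel
      rw [e]
      refine (norm_add_le _ _).trans (le_of_eq ?_)
      rw [norm_smul, norm_smul, Real.norm_of_nonneg ha, Real.norm_of_nonneg hb]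
    have h6 := mul_le_mul_of_nonneg_left h5 hK
    have h7 := mul_le_mul_of_nonneg_left h1.le ha
    have h8 := mul_le_mul_of_nonneg_left h2.le hb
    have h9 : a * ε + b * ε = ε := by rw [← add_mul, hab, one_mul]
    calc g (a • x₁ + b • x₂) ≤ f (a • (y₁ : Sp m) + b • (y₂ : Sp m)) +
          K * ‖a • x₁ + b • x₂ - (a • (y₁ : Sp m) + b • (y₂ : Sp m))‖ := h3
      _ ≤ (a * f y₁ + b * f y₂) + K * (a * ‖x₁ - y₁‖ + b * ‖x₂ - y₂‖) := add_le_add h4 h6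
      _ = a * (f y₁ + K * ‖x₁ - y₁‖) + b * (f y₂ + K * ‖x₂ - y₂‖) := by ring
      _ ≤ a * (g x₁ + ε) + b * (g x₂ + ε) := add_le_add h7 h8
      _ = a * g x₁ + b * g x₂ + (a * ε + b * ε) := by ring
      _ = a * g x₁ + b * g x₂ + ε := by rw [h9]
  · intro x hx
    refine le_antisymm ?_ ?_
    · have := hle x ⟨x, hx⟩
      simpa using this
    · exact le_ciInf fun y => hL x hx y y.2

theorem EXT {m : ℕ} (U : Set (Sp m)) (hU : IsOpen U) (f : Sp m → ℝ)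
    (hf : ConvexOn ℝ U f) (x₀ : Sp m) (hx₀ : x₀ ∈ U) :
    ∃ (r : ℝ) (g : Sp m → ℝ), 0 < r ∧ ball x₀ r ⊆ U ∧ ConvexOn ℝ univ g ∧
      ∀ x ∈ ball x₀ r, g x = f x := by
  obtain ⟨K, t, ht, hK⟩ := hf.locallyLipschitzOn hU hx₀
  rw [hU.nhdsWithin_eq hx₀] at ht
  obtain ⟨r, hr, hrt⟩ := Metric.mem_nhds_iff.1 (Filter.inter_mem ht (hU.mem_nhds hx₀))
  have hsub : ball x₀ r ⊆ U := fun x hx => (hrt hx).2
  have hL : ∀ x ∈ ball x₀ r, ∀ y ∈ ball x₀ r, f x ≤ f y + (K : ℝ) * ‖x - y‖ := by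
    intro x hx y hy
    have h1 := hK.dist_le_mul x (hrt hx).1 y (hrt hy).1
    rw [Real.dist_eq, dist_eq_norm] at h1
    have h2 := le_abs_self (f x - f y)
    linarith
  obtain ⟨g, hg, hgf⟩ := EXT_aux hr K.2 (hf.subset hsub (convex_ball x₀ r)) hL
  exact ⟨r, g, hr, hsub, hg, hgf⟩

end P214
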