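import Vale.Agent.P214.Defs
import Vale.Agent.P214.J0
import Vale.Agent.P214.J1

/-!
J2. Mass of lam g on an interval with differentiable endpoints.
-/

namespace P214

open MeasureTheory Set Filter Metric
open scoped Topology ContDiff InnerProductSpace ENNReal

theorem J2 (g : ℝ → ℝ) (hg : ConvexOn ℝ univ g) (a b s₁ s₂ : ℝ) (hab : a < b)
    (ha : HasDerivAt g s₁ a) (hb : HasDerivAt g s₂ b) :
    lam g (Ioc a b) = ENNReal.ofReal (s₂ - s₁) := by
  have _ := hab
  rw [J1_lam g hg, StieltjesFunction.measure_Ioc, J1_stieltjes g hg, J1_stieltjes g hg,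
    ha.hasDerivWithinAt.derivWithin (uniqueDiffWithinAt_Ioi a),
    hb.hasDerivWithinAt.derivWithin (uniqueDiffWithinAt_Ioi b)]

end P214
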