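import Vale.Agent.P214.Defs
import Vale.Agent.P214.J1
import Vale.Agent.P214.A3

/-!
JUMP. Jump of the derivative of f along a line of direction e at a good point: one-sided derivatives are max/min of <p,e> over the segment (A3 for z = e and z = -e), then J1.
-/

namespace P214

open MeasureTheory Set Filter Metric
open scoped Topology ContDiff InnerProductSpace ENNReal

theorem JUMP_max {m : ℕ} {S : Set (Sp m)} {F : Sp m → ℝ} {p v : Sp m} {q : ℝ}
    (hS : S = segment ℝ p (p + q • v)) (z : Sp m)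
    (h1 : ∀ p ∈ S, ⟪p, z⟫_ℝ ≤ F z) (h2 : ∃ p ∈ S, ⟪p, z⟫_ℝ = F z) :
    F z = ⟪p, z⟫_ℝ + max 0 (q * ⟪v, z⟫_ℝ) := by
  have ha : ⟪p, z⟫_ℝ ≤ F z := h1 p (hS ▸ left_mem_segment ℝ p _)
  have hb : ⟪p, z⟫_ℝ + q * ⟪v, z⟫_ℝ ≤ F z := by
    have := h1 (p + q • v) (hS ▸ right_mem_segment ℝ p _)
    rwa [inner_add_left, real_inner_smul_left] at this
  obtain ⟨p', hp', hF⟩ := h2
  rw [hS, segment_eq_image'] at hp'
  obtain ⟨s, hs, rfl⟩ := hp'
  simp only [add_sub_cancel_left] at hF
  rw [inner_add_left, real_inner_smul_left, real_inner_smul_left] at hF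
  rcases le_total 0 (q * ⟪v, z⟫_ℝ) with h | h
  · rw [max_eq_right h]
    have : s * (q * ⟪v, z⟫_ℝ) ≤ 1 * (q * ⟪v, z⟫_ℝ) := mul_le_mul_of_nonneg_right hs.2 h
    linarith
  · rw [max_eq_left h]
    have : s * (q * ⟪v, z⟫_ℝ) ≤ 0 := mul_nonpos_of_nonneg_of_nonpos hs.1 h
    linarith

theorem JUMP {m : ℕ} (f : Sp m → ℝ) (hf : ConvexOn ℝ univ f) (y e v : Sp m) (q : ℕ) (t : ℝ)
    (h : GoodAt f (y + t • e) v q) :
    (lam fun s => f (y + s • e)) {t} = ENNReal.ofReal ((q : ℝ) * |⟪v, e⟫_ℝ|) := by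
  obtain ⟨hv, hq, p, hp⟩ := h
  obtain ⟨F, hFc, hFh, hFl, hFle, hFm, hFs⟩ := A3 f hf (y + t • e)
  have hg : ConvexOn ℝ univ fun s : ℝ => f (y + s • e) := by
    have h := hf.comp_affineMap (AffineMap.lineMap y (y + e))
    have h2 : (fun s : ℝ => f (y + s • e)) = f ∘ (AffineMap.lineMap y (y + e)) := by
      funext s
      simp [AffineMap.lineMap_apply, add_comm]
    rw [h2]
    simpa using h
  have hR : HasDerivWithinAt (fun s : ℝ => f (y + s • e)) (F e) (Ioi t) t := by
    rw [hasDerivWithinAt_iff_tendsto_slope' self_notMem_Ioi]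
    have h1 : Tendsto (fun s : ℝ => s - t) (𝓝[>] t) (𝓝[>] 0) := by
      refine tendsto_nhdsWithin_iff.2 ⟨?_, ?_⟩
      · have : Tendsto (fun s : ℝ => s - t) (𝓝 t) (𝓝 (t - t)) :=
          (continuous_id.sub continuous_const).tendsto t
        rw [sub_self] at this
        exact this.mono_left nhdsWithin_le_nhds
      · filter_upwards [self_mem_nhdsWithin] with s hs
        exact mem_Ioi.2 (sub_pos.2 hs)
    refine ((hFl e).comp h1).congr fun s => ?_
    rw [slope_def_field]
    simp only [Function.comp]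
    have : y + t • e + (s - t) • e = y + s • e := by
      rw [sub_smul]
      abel
    rw [this]
  have hL : HasDerivWithinAt (fun s : ℝ => f (y + s • e)) (-F (-e)) (Iio t) t := by
    rw [hasDerivWithinAt_iff_tendsto_slope' self_notMem_Iio]
    have h1 : Tendsto (fun s : ℝ => t - s) (𝓝[<] t) (𝓝[>] 0) := by
      refine tendsto_nhdsWithin_iff.2 ⟨?_, ?_⟩
      · have : Tendsto (fun s : ℝ => t - s) (𝓝 t) (𝓝 (t - t)) :=
          (continuous_const.sub continuous_id).tendsto t
        rw [sub_self] at this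
        exact this.mono_left nhdsWithin_le_nhds
      · filter_upwards [self_mem_nhdsWithin] with s hs
        exact mem_Ioi.2 (sub_pos.2 hs)
    refine ((hFl (-e)).comp h1).neg.congr fun s => ?_
    rw [slope_def_field]
    simp only [Function.comp]
    have : y + t • e + (t - s) • -e = y + s • e := by
      rw [sub_smul, smul_neg, smul_neg]
      abel
    rw [this, ← neg_sub s t, div_neg, neg_neg]
  rw [J1 _ hg t _ _ hL hR]
  have hq0 : (0 : ℝ) ≤ q := Nat.cast_nonneg q
  have e1 := JUMP_max hp e (hFle e) (hFm e)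
  have e2 := JUMP_max hp (-e) (hFle (-e)) (hFm (-e))
  rw [inner_neg_right, inner_neg_right] at e2
  congr 1
  rw [e1, e2]
  rcases le_total 0 ⟪v, e⟫_ℝ with h | h
  · rw [abs_of_nonneg h, max_eq_right (mul_nonneg hq0 h), max_eq_left]
    · ring
    · have := mul_nonneg hq0 h
      linarith [mul_neg (q : ℝ) ⟪v, e⟫_ℝ]
  · rw [abs_of_nonpos h, max_eq_left (mul_nonpos_of_nonneg_of_nonpos hq0 h), max_eq_right]
    · ring
    · have := mul_nonpos_of_nonneg_of_nonpos hq0 h
      linarith [mul_neg (q : ℝ) ⟪v, e⟫_ℝ]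

end P214
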