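import Vale.Agent.P214.Defs

/-!
L1. Purely one-dimensional: integrality. T is (on the interval) a set of atoms of mass >= 1/2, so finite; l = sum of the masses c_t, integers q_t with q_t - delta <= c_t <= q_t; at most 2 l atoms, so Q = sum q_t lies in [l, l + 2 l delta], hence Q = l and all c_t = q_t.
-/

namespace P214

open MeasureTheory Set Filter Metric
open scoped Topology ContDiff InnerProductSpace ENNReal

theorem L1 (κ : Measure ℝ) (a b l δ : ℝ) (hl : 0 < l) (hδ : 0 < δ) (hδ1 : δ ≤ 1 / 2)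
    (hδ2 : 2 * l * δ < ⌊l⌋ + 1 - l) (T : Set ℝ) (hκ : κ (Ioc a b) = ENNReal.ofReal l)
    (hT : κ (Ioc a b \ T) = 0)
    (h : ∀ t ∈ T, t ∈ Ioc a b → ∃ (q : ℕ) (c : ℝ), 1 ≤ q ∧ κ {t} = ENNReal.ofReal c ∧
      (q : ℝ) - δ ≤ c ∧ c ≤ q) :
    (∃ Q : ℕ, 1 ≤ Q ∧ l = Q) ∧ ∀ t ∈ T, t ∈ Ioc a b → ∀ (q : ℕ) (c : ℝ), 1 ≤ q →
      κ {t} = ENNReal.ofReal c → (q : ℝ) - δ ≤ c → c ≤ q → c = q := by
  classical
  have h' : ∀ t : ℝ, ∃ (q : ℕ) (c : ℝ), t ∈ T ∩ Ioc a b → (1 ≤ q ∧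
      κ {t} = ENNReal.ofReal c ∧ (q : ℝ) - δ ≤ c ∧ c ≤ q) := by
    intro t
    by_cases ht : t ∈ T ∩ Ioc a b
    · obtain ⟨q, c, h1, h2, h3, h4⟩ := h t ht.1 ht.2
      exact ⟨q, c, fun _ => ⟨h1, h2, h3, h4⟩⟩
    · exact ⟨0, 0, fun h => absurd h ht⟩
  choose qf cf hf using h'
  have hchalf : ∀ t ∈ T ∩ Ioc a b, (1 / 2 : ℝ) ≤ cf t := by
    intro t ht
    obtain ⟨h1, _, h3, _⟩ := hf t ht
    have h1' : (1 : ℝ) ≤ (qf t : ℝ) := by exact_mod_cast h1
    linarith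
  have hsum : ∀ F : Finset ℝ, (↑F : Set ℝ) ⊆ T ∩ Ioc a b →
      κ (↑F : Set ℝ) = ENNReal.ofReal (∑ t ∈ F, cf t) := by
    intro F hF
    rw [ENNReal.ofReal_sum_of_nonneg (fun t ht => by
      have := hchalf t (hF ht)
      linarith)]
    rw [← MeasureTheory.sum_measure_singleton]
    refine Finset.sum_congr rfl ?_
    intro t ht
    exact (hf t (hF ht)).2.1
  have hle : ∀ F : Finset ℝ, (↑F : Set ℝ) ⊆ T ∩ Ioc a b → ∑ t ∈ F, cf t ≤ l := by
    intro F hF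
    have h1 : κ (↑F : Set ℝ) ≤ κ (Ioc a b) := measure_mono (fun x hx => (hF hx).2)
    rw [hsum F hF, hκ] at h1
    exact (ENNReal.ofReal_le_ofReal_iff hl.le).1 h1
  have hcard : ∀ F : Finset ℝ, (↑F : Set ℝ) ⊆ T ∩ Ioc a b → (F.card : ℝ) ≤ 2 * l := by
    intro F hF
    have h1 := hle F hF
    have h2 : (F.card : ℝ) * (1 / 2) ≤ ∑ t ∈ F, cf t := by
      have := Finset.card_nsmul_le_sum F cf (1 / 2 : ℝ) (fun t ht => hchalf t (hF ht))
      simpa [nsmul_eq_mul] using this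
    linarith
  have hfin : (T ∩ Ioc a b).Finite := by
    by_contra hinf
    obtain ⟨F, hF, hFc⟩ := Set.Infinite.exists_subset_card_eq hinf (⌈2 * l⌉₊ + 1)
    have h1 := hcard F hF
    rw [hFc] at h1
    have h2 := Nat.le_ceil (2 * l)
    push_cast at h1
    linarith
  set F : Finset ℝ := hfin.toFinset with hFdef
  have hF : (↑F : Set ℝ) = T ∩ Ioc a b := by
    rw [hFdef]
    exact hfin.coe_toFinset
  have hFs : (↑F : Set ℝ) ⊆ T ∩ Ioc a b := hF.le
  have hge : l ≤ ∑ t ∈ F, cf t := by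
    have h1 : κ (Ioc a b) ≤ κ (↑F : Set ℝ) := by
      calc κ (Ioc a b) ≤ κ ((↑F : Set ℝ) ∪ (Ioc a b \ T)) := by
            refine measure_mono ?_
            intro x hx
            by_cases hxT : x ∈ T
            · left
              rw [hF]
              exact ⟨hxT, hx⟩
            · right
              exact ⟨hx, hxT⟩
        _ ≤ κ (↑F : Set ℝ) + κ (Ioc a b \ T) := measure_union_le _ _
        _ = κ (↑F : Set ℝ) := by rw [hT, add_zero]
    rw [hsum F hFs, hκ] at h1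
    refine (ENNReal.ofReal_le_ofReal_iff ?_).1 h1
    refine Finset.sum_nonneg ?_
    intro t ht
    have := hchalf t (hFs ht)
    linarith
  have hsl : ∑ t ∈ F, cf t = l := le_antisymm (hle F hFs) hge
  have hQle : l ≤ ∑ t ∈ F, (qf t : ℝ) := by
    rw [← hsl]
    exact Finset.sum_le_sum (fun t ht => (hf t (hFs ht)).2.2.2)
  have hQub : ∑ t ∈ F, (qf t : ℝ) ≤ l + 2 * l * δ := by
    have h1 : ∑ t ∈ F, (qf t : ℝ) ≤ ∑ t ∈ F, (cf t + δ) :=
      Finset.sum_le_sum (fun t ht => by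
        have := (hf t (hFs ht)).2.2.1
        linarith)
    rw [Finset.sum_add_distrib, hsl, Finset.sum_const, nsmul_eq_mul] at h1
    have h2 := mul_le_mul_of_nonneg_right (hcard F hFs) hδ.le
    linarith
  have hQeq : ∑ t ∈ F, (qf t : ℝ) = l := by
    refine le_antisymm ?_ hQle
    have h1 : ((∑ t ∈ F, (qf t : ℤ) : ℤ) : ℝ) < ((⌊l⌋ + 1 : ℤ) : ℝ) := by
      push_cast
      linarith
    have h2 : (∑ t ∈ F, (qf t : ℤ) : ℤ) < ⌊l⌋ + 1 := by exact_mod_cast h1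
    have h3 : (∑ t ∈ F, (qf t : ℤ) : ℤ) ≤ ⌊l⌋ := by omega
    have h4 : ((∑ t ∈ F, (qf t : ℤ) : ℤ) : ℝ) ≤ (⌊l⌋ : ℝ) := by exact_mod_cast h3
    push_cast at h4
    exact h4.trans (Int.floor_le l)
  have hceq : ∀ t ∈ F, cf t = qf t := by
    have h1 : ∑ t ∈ F, cf t = ∑ t ∈ F, (qf t : ℝ) := by rw [hsl, hQeq]
    exact (Finset.sum_eq_sum_iff_of_le (fun t ht => (hf t (hFs ht)).2.2.2)).1 h1
  refine ⟨⟨∑ t ∈ F, qf t, ?_, ?_⟩, ?_⟩
  · by_contra hlt
    have h0 : ∑ t ∈ F, qf t = 0 := by omega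
    have h1 : ((∑ t ∈ F, qf t : ℕ) : ℝ) = l := by
      push_cast
      exact hQeq
    rw [h0] at h1
    simp at h1
    linarith
  · push_cast
    exact hQeq.symm
  · intro t htT htI q c hq hc h1 h2
    have htF : t ∈ F := by
      have : t ∈ (↑F : Set ℝ) := by
        rw [hF]
        exact ⟨htT, htI⟩
      exact this
    have hq' : (1 : ℝ) ≤ (q : ℝ) := by exact_mod_cast hq
    have hcc : c = cf t := by
      have h3 := (hf t ⟨htT, htI⟩).2.1
      rw [hc] at h3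
      have h4 := hchalf t ⟨htT, htI⟩
      exact (ENNReal.ofReal_eq_ofReal_iff (by linarith) (by linarith)).1 h3
    rw [hceq t htF] at hcc
    rw [hcc] at h1 h2 ⊢
    have h5 : (q : ℝ) < ((qf t + 1 : ℕ) : ℝ) := by
      push_cast
      linarith
    have h6 : q < qf t + 1 := by exact_mod_cast h5
    have h7 : qf t ≤ q := by exact_mod_cast h2
    have h8 : q = qf t := by omega
    rw [h8]

end P214
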