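import Vale.Agent.P214.Defs
import Vale.Agent.P214.C2

/-!
NEAR. Good points near x0 have normals almost parallel to e: q v = difference of two subgradients, each within eta of the segment of direction e, so q v = a e + w with |w| <= 2 eta, q |<v,e>| >= q - |w|.
-/

namespace P214

open MeasureTheory Set Filter Metric
open scoped Topology ContDiff InnerProductSpace ENNReal

theorem NEAR {m : ℕ} (f : Sp m → ℝ) (hf : ConvexOn ℝ univ f) (x₀ p₀ e : Sp m) (he : ‖e‖ = 1)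
    (l : ℝ) (hl : 0 < l) (hs : sub f x₀ = segment ℝ p₀ (p₀ + l • e)) (δ : ℝ) (hδ : 0 < δ) :
    ∃ r : ℝ, 0 < r ∧ ∀ x ∈ ball x₀ r, ∀ (v : Sp m) (q : ℕ), GoodAt f x v q →
      (q : ℝ) - δ ≤ (q : ℝ) * |⟪v, e⟫_ℝ| := by
  obtain ⟨r, hr, hr'⟩ := C2 f hf x₀ (δ / 4) (by linarith)
  refine ⟨r, hr, fun x hx v q hg => ?_⟩
  obtain ⟨hv, hq, p, hp⟩ := hg
  have hseg : ∀ a ∈ sub f x₀, ∃ s : ℝ, a = p₀ + s • e := by
    intro a ha
    rw [hs, segment_eq_image'] at ha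
    obtain ⟨θ, -, rfl⟩ := ha
    refine ⟨θ * l, ?_⟩
    simp only [add_sub_cancel_left, smul_smul]
  obtain ⟨a, ha, hap⟩ := hr' x hx p (by rw [hp]; exact left_mem_segment ℝ _ _)
  obtain ⟨b, hb, hbp⟩ := hr' x hx (p + (q : ℝ) • v) (by rw [hp]; exact right_mem_segment ℝ _ _)
  obtain ⟨s, hs'⟩ := hseg a ha
  obtain ⟨t, ht'⟩ := hseg b hb
  set w : Sp m := (p + (q : ℝ) • v - b) - (p - a) with hw
  have hwn : ‖w‖ ≤ δ / 2 := by
    have := norm_sub_le (p + (q : ℝ) • v - b) (p - a)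
    rw [← hw] at this
    linarith
  have hqv : (q : ℝ) • v = (t - s) • e + w := by
    rw [hw, hs', ht', sub_smul]
    abel
  have hn : (q : ℝ) ≤ |t - s| + ‖w‖ := by
    have h1 : ‖(q : ℝ) • v‖ = q := by
      rw [norm_smul, hv, mul_one, Real.norm_eq_abs, abs_of_nonneg (Nat.cast_nonneg q)]
    rw [← h1, hqv]
    refine (norm_add_le _ _).trans ?_
    rw [norm_smul, he, mul_one, Real.norm_eq_abs]
  have hi : (q : ℝ) * ⟪v, e⟫_ℝ = (t - s) + ⟪w, e⟫_ℝ := by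
    have h2 : ⟪(q : ℝ) • v, e⟫_ℝ = (q : ℝ) * ⟪v, e⟫_ℝ := real_inner_smul_left _ _ _
    rw [← h2, hqv, inner_add_left, real_inner_smul_left, real_inner_self_eq_norm_sq, he]
    ring
  have hwe : |⟪w, e⟫_ℝ| ≤ ‖w‖ := by
    have := abs_real_inner_le_norm w e
    rwa [he, mul_one] at this
  have habs : (q : ℝ) * |⟪v, e⟫_ℝ| = |(t - s) + ⟪w, e⟫_ℝ| := by
    rw [← hi, abs_mul, abs_of_nonneg (Nat.cast_nonneg q : (0 : ℝ) ≤ (q : ℝ))]
  rw [habs]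
  have h3 : |t - s| - |⟪w, e⟫_ℝ| ≤ |(t - s) + ⟪w, e⟫_ℝ| := by
    have := abs_sub_abs_le_abs_sub (t - s) (-⟪w, e⟫_ℝ)
    rwa [abs_neg, sub_neg_eq_add] at this
  linarith

end P214
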