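import Vale.Agent.P214.Defs
import Vale.Agent.P214.L1
import Vale.Agent.P214.JUMP
import Vale.Agent.P214.DLE
import Vale.Agent.P214.NEAR
import Vale.Agent.P214.CONE2
import Vale.Agent.P214.J2
import Vale.Agent.P214.A8
import Vale.Agent.P214.PL

/-!
L2. Lines near x0: on almost every line every good point in a small ball has normal +-e, and l is an integer. Take delta small for l (L1), eps = 1/10, radii from CONE2 and NEAR; write x0 = y0 + t0 e with y0 orthogonal to e (planeMeasure is carried by the hyperplane, PL); for y near y0 the line meets the two cones at t0 -+ sigma (f affine near these points, so J2 gives mass l on Ioc); N = non-good points of U is mu-null (A8), DLE; JUMP, L1 with T = good points. For v, q good: c = q |<v,e>| = q.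
-/

namespace P214

open MeasureTheory Set Filter Metric
open scoped Topology ContDiff InnerProductSpace ENNReal

/-- derivative along a line where `f` is affine near the point -/
theorem L2_deriv {m : ℕ} (f : Sp m → ℝ) (x₀ p e y : Sp m) (c ρ s : ℝ) (P : Sp m → Prop)
    (hP : IsOpen {x | P x}) (hf : ∀ x ∈ ball x₀ ρ, P x → f x = c + ⟪p, x - x₀⟫_ℝ)
    (hb : y + s • e ∈ ball x₀ ρ) (hs : P (y + s • e)) :
    HasDerivAt (fun t : ℝ => f (y + t • e)) ⟪p, e⟫_ℝ s := by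
  have hl : HasDerivAt (fun t : ℝ => y + t • e) e s := by
    have := ((hasDerivAt_id s).smul_const e).const_add y
    simpa using this
  have h1 : HasDerivAt (fun t : ℝ => c + ⟪p, (y + t • e) - x₀⟫_ℝ) ⟪p, e⟫_ℝ s := by
    have h2 : HasDerivAt (fun t : ℝ => (y + t • e) - x₀) e s := hl.sub_const x₀
    have h3 := ((innerSL ℝ p).hasFDerivAt.comp_hasDerivAt s h2).const_add c
    exact h3
  refine h1.congr_of_eventuallyEq ?_
  have hc : ContinuousAt (fun t : ℝ => y + t • e) s := hl.continuousAt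
  have e1 : ∀ᶠ t in 𝓝 s, y + t • e ∈ ball x₀ ρ := hc.preimage_mem_nhds (isOpen_ball.mem_nhds hb)
  have e2 : ∀ᶠ t in 𝓝 s, P (y + t • e) := hc.preimage_mem_nhds (hP.mem_nhds hs)
  filter_upwards [e1, e2] with t h3 h4
  exact hf _ h3 h4

theorem L2 {m : ℕ} {U : Set (Sp m)} {μ : Measure (Sp m)} {ν : Sp m → Sp m} {f : Sp m → ℝ}
    (h : Core U μ ν f) (x₀ : Sp m) (hx₀ : x₀ ∈ U) (p₀ e : Sp m) (he : ‖e‖ = 1) (l : ℝ)
    (hl : 0 < l) (hs : sub f x₀ = segment ℝ p₀ (p₀ + l • e)) :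
    (∃ Q : ℕ, 1 ≤ Q ∧ l = Q) ∧ ∃ r : ℝ, 0 < r ∧ ball x₀ r ⊆ U ∧
      ∀ᵐ y ∂(planeMeasure e), ∀ t : ℝ, y + t • e ∈ ball x₀ r → ∀ (v : Sp m) (q : ℕ),
        GoodAt f (y + t • e) v q → ⟪v, e⟫_ℝ ^ 2 = 1 := by
  -- parameters
  have hfl : (0 : ℝ) < ⌊l⌋ + 1 - l := by linarith [Int.lt_floor_add_one l]
  obtain ⟨δ, hδd⟩ : ∃ δ, δ = min (1 / 2) (((⌊l⌋ : ℝ) + 1 - l) / (4 * l)) := ⟨_, rfl⟩
  have hδ : 0 < δ := by
    rw [hδd]
    exact lt_min (by norm_num) (by positivity)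
  have hδ1 : δ ≤ 1 / 2 := by
    rw [hδd]
    exact min_le_left _ _
  have hδ2 : 2 * l * δ < ⌊l⌋ + 1 - l := by
    have h1 : δ ≤ ((⌊l⌋ : ℝ) + 1 - l) / (4 * l) := by
      rw [hδd]
      exact min_le_right _ _
    have h2 := mul_le_mul_of_nonneg_left h1 (show (0:ℝ) ≤ 2 * l by linarith)
    have h3 : 2 * l * (((⌊l⌋ : ℝ) + 1 - l) / (4 * l)) = ((⌊l⌋ : ℝ) + 1 - l) / 2 := by
      field_simp
      ring
    linarith
  obtain ⟨r₁, hr₁, hnear⟩ := NEAR f h.conv x₀ p₀ e he l hl hs δ hδ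
  obtain ⟨r₂, hr₂, hbU, hlow, hup⟩ := CONE2 h x₀ hx₀ p₀ e he l hl hs (1 / 10) (by norm_num)
    (by norm_num)
  obtain ⟨ρ, hρd⟩ : ∃ ρ, ρ = min r₁ r₂ := ⟨_, rfl⟩
  have hρ : 0 < ρ := by
    rw [hρd]
    exact lt_min hr₁ hr₂
  have hρ1 : ρ ≤ r₁ := by rw [hρd]; exact min_le_left _ _
  have hρ2 : ρ ≤ r₂ := by rw [hρd]; exact min_le_right _ _
  obtain ⟨t₀, ht₀⟩ : ∃ t₀, t₀ = ⟪x₀, e⟫_ℝ := ⟨_, rfl⟩
  obtain ⟨y₀, hy₀⟩ : ∃ y₀, y₀ = x₀ - t₀ • e := ⟨_, rfl⟩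
  have hee : ⟪e, e⟫_ℝ = 1 := by rw [real_inner_self_eq_norm_sq, he, one_pow]
  have hy₀e : ⟪y₀, e⟫_ℝ = 0 := by
    rw [hy₀, inner_sub_left, real_inner_smul_left, hee, ← ht₀, mul_one, sub_self]
  have hdec : ∀ (y : Sp m) (t : ℝ), y + t • e - x₀ = (y - y₀) + (t - t₀) • e := by
    intro y t
    rw [hy₀, sub_smul]
    abel
  have hin : ∀ (y : Sp m) (t : ℝ), ⟪y, e⟫_ℝ = 0 → ⟪y + t • e - x₀, e⟫_ℝ = t - t₀ := by
    intro y t hy
    rw [hdec, inner_add_left, inner_sub_left, hy, hy₀e, real_inner_smul_left, hee]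
    ring
  have hnorm : ∀ (y : Sp m) (t : ℝ), ‖y + t • e - x₀‖ ≤ ‖y - y₀‖ + |t - t₀| := by
    intro y t
    rw [hdec]
    refine (norm_add_le _ _).trans ?_
    rw [norm_smul, he, mul_one, Real.norm_eq_abs]
  have hnorm1 : ∀ (y : Sp m) (t : ℝ), ⟪y, e⟫_ℝ = 0 → |t - t₀| ≤ ‖y + t • e - x₀‖ := by
    intro y t hy
    rw [← hin y t hy]
    refine (abs_real_inner_le_norm _ _).trans ?_
    rw [he, mul_one]
  have hnorm2 : ∀ (y : Sp m) (t : ℝ), ⟪y, e⟫_ℝ = 0 → ‖y - y₀‖ ≤ ‖y + t • e - x₀‖ := by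
    intro y t hy
    have h1 : ‖y + t • e - x₀‖ ^ 2 = ‖y - y₀‖ ^ 2 + (t - t₀) ^ 2 := by
      rw [hdec, norm_add_sq_real, real_inner_smul_right, inner_sub_left, hy, hy₀e, norm_smul, he,
        mul_one, Real.norm_eq_abs, sq_abs]
      ring
    refine abs_le_of_sq_le_sq' ?_ (norm_nonneg _) |>.2
    nlinarith [sq_nonneg (t - t₀)]
  obtain ⟨σ, hσd⟩ : ∃ σ, σ = ρ / 2 := ⟨_, rfl⟩
  have hσ : 0 < σ := by rw [hσd]; exact half_pos hρ
  -- points of the line between the cones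
  have hball : ∀ (y : Sp m) (t : ℝ), ‖y - y₀‖ < σ / 2 → |t - t₀| ≤ σ →
      y + t • e ∈ ball x₀ ρ := by
    intro y t hy ht
    rw [mem_ball, dist_eq_norm]
    have := hnorm y t
    linarith
  -- the mass
  have hmass : ∀ y : Sp m, ⟪y, e⟫_ℝ = 0 → ‖y - y₀‖ < σ / 2 →
      (lam fun t => f (y + t • e)) (Ioc (t₀ - σ) (t₀ + σ)) = ENNReal.ofReal l := by
    intro y hy hyy
    have hg : ConvexOn ℝ univ fun t : ℝ => f (y + t • e) := by
      refine ⟨convex_univ, fun a _ b _ c d hc hd hcd => ?_⟩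
      have h1 := h.conv.2 (mem_univ (y + a • e)) (mem_univ (y + b • e)) hc hd hcd
      have h2 : c • (y + a • e) + d • (y + b • e) = y + (c • a + d • b) • e := by
        have h3 : y = (c + d) • y := by rw [hcd, one_smul]
        conv_rhs => rw [h3]
        simp only [smul_add, add_smul, smul_smul, smul_eq_mul]
        abel
      rw [h2] at h1
      exact h1
    have a1 : |(t₀ - σ) - t₀| = σ := by
      rw [sub_sub_cancel_left, abs_neg, abs_of_pos hσ]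
    have a2 : |(t₀ + σ) - t₀| = σ := by
      rw [add_sub_cancel_left, abs_of_pos hσ]
    have b1 := hball y (t₀ - σ) hyy a1.le
    have b2 := hball y (t₀ + σ) hyy a2.le
    have n1 := hnorm y (t₀ - σ)
    have n2 := hnorm y (t₀ + σ)
    rw [a1] at n1
    rw [a2] at n2
    have d1 : HasDerivAt (fun t : ℝ => f (y + t • e)) ⟪p₀, e⟫_ℝ (t₀ - σ) := by
      refine L2_deriv f x₀ p₀ e y (f x₀) ρ (t₀ - σ)
        (fun x => ⟪x - x₀, e⟫_ℝ < -(1 / 10 * ‖x - x₀‖)) ?_ ?_ b1 ?_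
      · exact isOpen_lt (by fun_prop) (by fun_prop)
      · intro x hx hP
        exact hlow x (ball_subset_ball hρ2 hx) hP
      · show ⟪y + (t₀ - σ) • e - x₀, e⟫_ℝ < _
        rw [hin y _ hy]
        linarith
    have d2 : HasDerivAt (fun t : ℝ => f (y + t • e)) ⟪p₀ + l • e, e⟫_ℝ (t₀ + σ) := by
      refine L2_deriv f x₀ (p₀ + l • e) e y (f x₀) ρ (t₀ + σ)
        (fun x => 1 / 10 * ‖x - x₀‖ < ⟪x - x₀, e⟫_ℝ) ?_ ?_ b2 ?_
      · exact isOpen_lt (by fun_prop) (by fun_prop)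
      · intro x hx hP
        exact hup x (ball_subset_ball hρ2 hx) hP
      · show _ < ⟪y + (t₀ + σ) • e - x₀, e⟫_ℝ
        rw [hin y _ hy]
        linarith
    have := J2 _ hg (t₀ - σ) (t₀ + σ) _ _ (by linarith) d1 d2
    rw [this, inner_add_left, real_inner_smul_left, hee]
    congr 1
    ring
  -- bad points
  have hA8 := A8 h
  have hn : ∀ᵐ x ∂μ, ‖ν x‖ = 1 := hA8.mono fun x hx => hx.1
  obtain ⟨N, hN⟩ : ∃ N : Set (Sp m), N = {x | x ∈ U ∧ ¬ ∃ (v : Sp m) (q : ℕ), GoodAt f x v q} :=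
    ⟨_, rfl⟩
  have hNU : N ⊆ U := by
    rw [hN]
    exact fun x hx => hx.1
  have hN0 : μ N = 0 := by
    rw [measure_eq_zero_iff_ae_notMem]
    filter_upwards [hA8] with x hx hxN
    rw [hN] at hxN
    obtain ⟨q, hq⟩ := hx.2
    exact hxN.2 ⟨ν x, q, hq⟩
  have hdle := DLE h hn e he N hNU hN0
  -- the one-dimensional conclusion
  have key : ∀ y : Sp m, ⟪y, e⟫_ℝ = 0 → ‖y - y₀‖ < σ / 2 →
      (lam fun t => f (y + t • e)) {t | y + t • e ∈ N} = 0 →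
      (∃ Q : ℕ, 1 ≤ Q ∧ l = Q) ∧ ∀ t ∈ Ioc (t₀ - σ) (t₀ + σ), ∀ (v : Sp m) (q : ℕ),
        GoodAt f (y + t • e) v q → ⟪v, e⟫_ℝ ^ 2 = 1 := by
    intro y hy hyy hyN
    have hIoc : ∀ t ∈ Ioc (t₀ - σ) (t₀ + σ), y + t • e ∈ ball x₀ ρ := by
      intro t ht
      refine hball y t hyy (abs_le.2 ⟨?_, ?_⟩)
      · linarith [ht.1]
      · linarith [ht.2]
    have hgood : ∀ t ∈ Ioc (t₀ - σ) (t₀ + σ), ∀ (v : Sp m) (q : ℕ),
        GoodAt f (y + t • e) v q →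
        (lam fun t => f (y + t • e)) {t} = ENNReal.ofReal ((q : ℝ) * |⟪v, e⟫_ℝ|) ∧
        (q : ℝ) - δ ≤ (q : ℝ) * |⟪v, e⟫_ℝ| ∧ (q : ℝ) * |⟪v, e⟫_ℝ| ≤ q := by
      intro t ht v q hg
      refine ⟨JUMP f h.conv y e v q t hg,
        hnear _ (ball_subset_ball hρ1 (hIoc t ht)) v q hg, ?_⟩
      refine mul_le_of_le_one_right (Nat.cast_nonneg q) ?_
      refine (abs_real_inner_le_norm _ _).trans ?_
      rw [he, hg.1, mul_one]
    obtain ⟨hQ, hall⟩ := L1 (lam fun t => f (y + t • e)) (t₀ - σ) (t₀ + σ) l δ hl hδ hδ1 hδ2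
      {t | ∃ (v : Sp m) (q : ℕ), GoodAt f (y + t • e) v q} (hmass y hy hyy)
      (by
        refine measure_mono_null ?_ hyN
        intro t ht
        show y + t • e ∈ N
        rw [hN]
        exact ⟨hbU (ball_subset_ball hρ2 (hIoc t ht.1)), ht.2⟩)
      (by
        rintro t ⟨v, q, hg⟩ ht
        obtain ⟨g1, g2, g3⟩ := hgood t ht v q hg
        exact ⟨q, _, hg.2.1, g1, g2, g3⟩)
    refine ⟨hQ, fun t ht v q hg => ?_⟩
    obtain ⟨g1, g2, g3⟩ := hgood t ht v q hg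
    have h1 := hall t ⟨v, q, hg⟩ ht q _ hg.2.1 g1 g2 g3
    have hq0 : (q : ℝ) ≠ 0 := by
      have := hg.2.1
      positivity
    have h2 : |⟪v, e⟫_ℝ| = 1 := by
      have h3 : (q : ℝ) * |⟪v, e⟫_ℝ| = (q : ℝ) * 1 := by rw [h1, mul_one]
      exact mul_left_cancel₀ hq0 h3
    rw [← sq_abs, h2, one_pow]
  have hall : ∀ᵐ y ∂(planeMeasure e), ⟪y, e⟫_ℝ = 0 ∧
      (lam fun t => f (y + t • e)) {t | y + t • e ∈ N} = 0 := (PL e).and hdle
  refine ⟨?_, σ / 2, by linarith, ?_, ?_⟩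
  · have hpos := PL_pos e y₀ hy₀e (σ / 2) (by linarith)
    by_contra hcon
    refine hpos.ne' (measure_mono_null ?_ hall)
    intro y hy hy2
    rw [mem_ball, dist_eq_norm] at hy
    exact hcon (key y hy2.1 hy hy2.2).1
  · exact (ball_subset_ball (by linarith)).trans hbU
  · filter_upwards [hall] with y hy t ht v q hg
    rw [mem_ball, dist_eq_norm] at ht
    have h1 := hnorm1 y t hy.1
    have h2 := hnorm2 y t hy.1
    have h3 := abs_le.1 (h1.trans ht.le)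
    exact (key y hy.1 (lt_of_le_of_lt h2 ht) hy.2).2 t ⟨by linarith [h3.1], by linarith [h3.2]⟩ v q hg

end P214
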