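import Vale.Agent.P214.Defs
import Vale.Agent.P214.L2
import Vale.Agent.P214.DGE
import Vale.Agent.P214.A8
import Vale.Agent.P214.NEAR

/-!
L3. Normals are +-e almost everywhere near x0: if not, inner regularity gives a compact K of good points in the ball with <nu,e>^2 != 1 and mu K > 0; by L2 almost no line meets K, DGE gives <nu,e> = 0 a.e. on K, contradicting NEAR (delta = 1/2).
-/

namespace P214

open MeasureTheory Set Filter Metric
open scoped Topology ContDiff InnerProductSpace ENNReal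

theorem L3 {m : ℕ} {U : Set (Sp m)} {μ : Measure (Sp m)} {ν : Sp m → Sp m} {f : Sp m → ℝ}
    (h : Core U μ ν f) (x₀ : Sp m) (hx₀ : x₀ ∈ U) (p₀ e : Sp m) (he : ‖e‖ = 1) (l : ℝ)
    (hl : 0 < l) (hs : sub f x₀ = segment ℝ p₀ (p₀ + l • e)) :
    ∃ r : ℝ, 0 < r ∧ ball x₀ r ⊆ U ∧ ∀ᵐ x ∂μ, x ∈ ball x₀ r → ⟪ν x, e⟫_ℝ ^ 2 = 1 := by
  have hfin : IsFiniteMeasure μ := ⟨h.fin⟩
  obtain ⟨_, r1, hr1, hrU, hL2⟩ := L2 h x₀ hx₀ p₀ e he l hl hs
  obtain ⟨r2, hr2, hN⟩ := NEAR f h.conv x₀ p₀ e he l hl hs (1 / 2) (by norm_num)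
  have hA8 := A8 h
  refine ⟨min r1 r2, lt_min hr1 hr2, (ball_subset_ball (min_le_left _ _)).trans hrU, ?_⟩
  -- the bad set
  have hBm : MeasurableSet {x | x ∈ ball x₀ (min r1 r2) ∧ ⟪ν x, e⟫_ℝ ^ 2 ≠ 1} := by
    have hm : Measurable fun x => ⟪ν x, e⟫_ℝ ^ 2 := (h.meas.inner measurable_const).pow_const 2
    exact measurableSet_ball.inter (hm (measurableSet_singleton 1).compl)
  by_contra hc
  have hpos : μ {x | x ∈ ball x₀ (min r1 r2) ∧ ⟪ν x, e⟫_ℝ ^ 2 ≠ 1} ≠ 0 := by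
    intro h0
    apply hc
    rw [ae_iff]
    convert h0 using 2
    ext x
    simp only [mem_setOf_eq, Classical.not_imp, ne_eq]
  set B := {x | x ∈ ball x₀ (min r1 r2) ∧ ⟪ν x, e⟫_ℝ ^ 2 ≠ 1} with hB
  set T := toMeasurable μ {x | ‖ν x‖ = 1 ∧ ∃ q : ℕ, GoodAt f x (ν x) q}ᶜ with hT
  have hT0 : μ T = 0 := by
    rw [hT, measure_toMeasurable]
    exact hA8
  have hBT : μ (B \ T) ≠ 0 := by
    rw [measure_diff_null hT0]
    exact hpos
  obtain ⟨K, hKB, hK, hK0⟩ := (hBm.diff (measurableSet_toMeasurable μ _)).exists_lt_isCompact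
    (μ := μ) (r := 0) (pos_iff_ne_zero.2 hBT)
  have hgood : ∀ x ∈ K, ∃ q : ℕ, GoodAt f x (ν x) q := by
    intro x hx
    have h1 : x ∉ T := (hKB hx).2
    by_contra h2
    apply h1
    apply subset_toMeasurable
    intro h3
    exact h2 h3.2
  have hKU : K ⊆ U := fun x hx => hrU (ball_subset_ball (min_le_left _ _) (hKB hx).1.1)
  have h1 := DGE h (hA8.mono fun x hx => hx.1) e he K hKU hK (by
    filter_upwards [hL2] with y hy
    have h2 : {t : ℝ | y + t • e ∈ K} = ∅ := by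
      rw [eq_empty_iff_forall_notMem]
      intro t ht
      obtain ⟨q, hq⟩ := hgood _ ht
      exact (hKB ht).1.2 (hy t (ball_subset_ball (min_le_left _ _) (hKB ht).1.1) _ q hq)
    rw [h2, measure_empty])
  apply hK0.ne'
  have h2 : ∀ᵐ x ∂μ, x ∉ K := by
    filter_upwards [h1] with x hx hxK
    obtain ⟨q, hq⟩ := hgood x hxK
    have h3 := hN x (ball_subset_ball (min_le_right _ _) (hKB hxK).1.1) (ν x) q hq
    rw [hx hxK, abs_zero, mul_zero] at h3
    have h4 : (1 : ℝ) ≤ q := by exact_mod_cast hq.2.1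
    linarith
  rw [ae_iff] at h2
  simpa using h2

end P214
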