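import Vale.Agent.P214.Defs
import Vale.Agent.P214.L3
import Vale.Agent.P214.A5
import Vale.Agent.P214.CONE2

/-!
FLAT. f is a two-plane function near x0: for v orthogonal to e the Hessian D2f(v,.) vanishes on the ball (nu = +-e a.e.), so by A5 f(x) - f(x - v) = f(y+v) - f(y) = <p0,v> with y, y+v in the lower cone (CONE2, eps = 1/10), and on the line x0 + t e the cones give f.
-/

namespace P214

open MeasureTheory Set Filter Metric
open scoped Topology ContDiff InnerProductSpace ENNReal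

theorem FLAT_normal {m : ℕ} {n e v : Sp m} (hn : ‖n‖ = 1) (he : ‖e‖ = 1)
    (h : ⟪n, e⟫_ℝ ^ 2 = 1) (hv : ⟪e, v⟫_ℝ = 0) : ⟪n, v⟫_ℝ = 0 := by
  have h1 : n = ⟪n, e⟫_ℝ • e := by
    rw [← sub_eq_zero, ← norm_eq_zero, ← sq_eq_zero_iff, norm_sub_sq_real, norm_smul, inner_smul_right,
      hn, he, mul_one, Real.norm_eq_abs, sq_abs]
    nlinarith
  rw [h1, inner_smul_left, hv, mul_zero]

theorem FLAT {m : ℕ} {U : Set (Sp m)} {μ : Measure (Sp m)} {ν : Sp m → Sp m} {f : Sp m → ℝ}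
    (h : Core U μ ν f) (x₀ : Sp m) (hx₀ : x₀ ∈ U) (p₀ e : Sp m) (he : ‖e‖ = 1) (l : ℝ)
    (hl : 0 < l) (hs : sub f x₀ = segment ℝ p₀ (p₀ + l • e)) :
    ∃ r : ℝ, 0 < r ∧ ball x₀ r ⊆ U ∧ ∀ x ∈ ball x₀ r,
      f x = f x₀ + ⟪p₀, x - x₀⟫_ℝ + l * max ⟪e, x - x₀⟫_ℝ 0 := by
  obtain ⟨r₁, hr₁, hU₁, hν⟩ := L3 h x₀ hx₀ p₀ e he l hl hs
  obtain ⟨r₂, hr₂, hU₂, hlow, hupp⟩ := CONE2 h x₀ hx₀ p₀ e he l hl hs (1 / 10) (by norm_num)
    (by norm_num)
  set R := min r₁ r₂ with hR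
  have hR0 : 0 < R := lt_min hr₁ hr₂
  have hW1 : ball x₀ R ⊆ ball x₀ r₁ := ball_subset_ball (min_le_left _ _)
  have hW2 : ball x₀ R ⊆ ball x₀ r₂ := ball_subset_ball (min_le_right _ _)
  have hcont : Continuous f := by
    rw [← continuousOn_univ]
    exact h.conv.continuousOn isOpen_univ
  have hee : ⟪e, e⟫_ℝ = 1 := by rw [real_inner_self_eq_norm_sq, he, one_pow]
  -- the distributional derivative in directions orthogonal to `e` vanishes
  have hD : ∀ v : Sp m, ⟪e, v⟫_ℝ = 0 → ∀ φ : Sp m → ℝ, ContDiff ℝ ∞ φ → HasCompactSupport φ →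
      tsupport φ ⊆ ball x₀ R → ∀ w : Sp m, ∫ x, f x * fderiv ℝ (fderiv ℝ φ) x v w = 0 := by
    intro v hv φ hφ hc hsup w
    rw [h.hess φ hφ hc (hsup.trans (hW1.trans hU₁)) v w]
    apply integral_eq_zero_of_ae
    filter_upwards [hν, h.tangent] with x hx ht
    obtain ⟨q, hq⟩ := ht
    by_cases hxW : x ∈ ball x₀ R
    · rw [FLAT_normal hq.1 he (hx (hW1 hxW)) hv]
      simp
    · have : φ x = 0 := by
        by_contra hne
        exact hxW (hsup (subset_tsupport _ hne))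
      rw [this]
      simp
  refine ⟨R / 4, by positivity, (ball_subset_ball (by linarith)).trans (hW1.trans hU₁), ?_⟩
  intro x hx
  rw [mem_ball_iff_norm] at hx
  set z := x - x₀ with hz
  set t := ⟪e, z⟫_ℝ with ht
  set v := z - t • e with hv
  have hve : ⟪e, v⟫_ℝ = 0 := by
    rw [hv, inner_sub_right, inner_smul_right, hee, mul_one, ← ht, sub_self]
  have htz : |t| ≤ ‖z‖ := by
    have := abs_real_inner_le_norm e z
    rwa [he, one_mul] at this
  have hvz : ‖v‖ ≤ ‖z‖ := by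
    have h1 : ‖z‖ ^ 2 = t ^ 2 + ‖v‖ ^ 2 := by
      have h2 : z = t • e + v := by rw [hv]; abel
      have h3 : ‖t • e + v‖ ^ 2 = ‖t • e‖ ^ 2 + 2 * ⟪t • e, v⟫_ℝ + ‖v‖ ^ 2 := norm_add_sq_real _ _
      rw [← h2, norm_smul, he, mul_one, Real.norm_eq_abs, sq_abs, inner_smul_left, hve] at h3
      simpa using h3
    nlinarith [norm_nonneg z, norm_nonneg v, sq_nonneg t]
  have hxv : x - v = x₀ + t • e := by
    rw [hv, hz]
    abel
  have hxvn : ‖x - v - x₀‖ = |t| := by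
    rw [hxv, add_sub_cancel_left, norm_smul, he, mul_one, Real.norm_eq_abs]
  have hyn : ‖x₀ - (R / 2) • e - x₀‖ = R / 2 := by
    rw [sub_sub_cancel_left, norm_neg, norm_smul, he, mul_one, Real.norm_eq_abs,
      abs_of_pos (by positivity)]
  have hyvn : ‖x₀ - (R / 2) • e + v - x₀‖ < 3 * R / 4 := by
    have h1 : x₀ - (R / 2) • e + v - x₀ = x₀ - (R / 2) • e - x₀ + v := by abel
    rw [h1]
    calc ‖x₀ - (R / 2) • e - x₀ + v‖ ≤ ‖x₀ - (R / 2) • e - x₀‖ + ‖v‖ := norm_add_le _ _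
      _ < 3 * R / 4 := by rw [hyn]; linarith
  have hyW : x₀ - (R / 2) • e ∈ ball x₀ R := by
    rw [mem_ball_iff_norm, hyn]
    linarith
  have hyvW : x₀ - (R / 2) • e + v ∈ ball x₀ R := by
    rw [mem_ball_iff_norm]
    linarith
  have hxW : x - v + v ∈ ball x₀ R := by
    rw [sub_add_cancel, mem_ball_iff_norm, ← hz]
    linarith
  have hxvW : x - v ∈ ball x₀ R := by
    rw [mem_ball_iff_norm, hxvn]
    linarith
  have key := A5 (ball x₀ R) isOpen_ball (convex_ball x₀ R) f hcont v (hD v hve) (x - v)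
    (x₀ - (R / 2) • e) hxvW hxW hyW hyvW
  rw [sub_add_cancel] at key
  have iy : ⟪x₀ - (R / 2) • e - x₀, e⟫_ℝ = - (R / 2) := by
    rw [sub_sub_cancel_left, inner_neg_left, inner_smul_left, hee]
    simp
  have iyv : ⟪x₀ - (R / 2) • e + v - x₀, e⟫_ℝ = - (R / 2) := by
    have h1 : x₀ - (R / 2) • e + v - x₀ = x₀ - (R / 2) • e - x₀ + v := by abel
    rw [h1, inner_add_left, iy, real_inner_comm, hve, add_zero]
  have fy := hlow _ (hW2 hyW) (by rw [iy, hyn]; linarith)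
  have fyv := hlow _ (hW2 hyvW) (by rw [iyv]; linarith)
  have e1 : x₀ - (R / 2) • e + v - x₀ = x₀ - (R / 2) • e - x₀ + v := by abel
  rw [e1, inner_add_right] at fyv
  have ix : ⟪x - v - x₀, e⟫_ℝ = t := by
    rw [hxv, add_sub_cancel_left, inner_smul_left, hee]
    simp
  have fxv : f (x - v) = f x₀ + t * ⟪p₀, e⟫_ℝ + l * max t 0 := by
    rcases lt_trichotomy t 0 with h0 | h0 | h0
    · have := hlow _ (hW2 hxvW) (by rw [ix, hxvn, abs_of_neg h0]; linarith)
      rw [this, hxv, add_sub_cancel_left, inner_smul_right, max_eq_right h0.le, mul_zero, add_zero]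
    · rw [hxv, h0]
      simp
    · have := hupp _ (hW2 hxvW) (by rw [ix, hxvn, abs_of_pos h0]; linarith)
      rw [this, hxv, add_sub_cancel_left, inner_smul_right, max_eq_left h0.le, inner_add_left,
        inner_smul_left, hee]
      simp
      ring
  have hzz : ⟪p₀, z⟫_ℝ = t * ⟪p₀, e⟫_ℝ + ⟪p₀, v⟫_ℝ := by
    have h2 : z = t • e + v := by rw [hv]; abel
    conv_lhs => rw [h2]
    rw [inner_add_right, inner_smul_right]
  rw [fyv, fy, fxv] at key
  rw [hzz]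
  linarith

end P214
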