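import Vale.Agent.P214.Defs

/-!
G1. Dimension: (I + sub f)^(-1) is 1-Lipschitz by monotonicity, and a coordinate plane {z i = a, z j = b} has dimension m - 1.
-/

namespace P214

open MeasureTheory Set Filter Metric
open scoped Topology ContDiff InnerProductSpace ENNReal

private theorem G1_mono {m : ℕ} (f : Sp m → ℝ) {x y p q : Sp m} (hp : p ∈ sub f x)
    (hq : q ∈ sub f y) : ‖x - y‖ ≤ ‖(x + p) - (y + q)‖ := by
  have h1 : f x + ⟪p, y - x⟫_ℝ ≤ f y := hp y
  have h2 : f y + ⟪q, x - y⟫_ℝ ≤ f x := hq x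
  have h3 : ⟪p, y - x⟫_ℝ = -⟪p, x - y⟫_ℝ := by
    rw [← inner_neg_right, neg_sub]
  have h4 : 0 ≤ ⟪p - q, x - y⟫_ℝ := by
    rw [inner_sub_left]
    linarith
  have h5 : (x + p) - (y + q) = (x - y) + (p - q) := by abel
  have h6 : ‖(x + p) - (y + q)‖ ^ 2 = ‖x - y‖ ^ 2 + 2 * ⟪x - y, p - q⟫_ℝ + ‖p - q‖ ^ 2 := by
    rw [h5]
    exact norm_add_sq_real _ _
  have h7 : ⟪x - y, p - q⟫_ℝ = ⟪p - q, x - y⟫_ℝ := real_inner_comm _ _
  have h8 : ‖x - y‖ ^ 2 ≤ ‖(x + p) - (y + q)‖ ^ 2 := by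
    rw [h6, h7]
    nlinarith [sq_nonneg ‖p - q‖]
  exact le_of_sq_le_sq h8 (norm_nonneg _)

private theorem G1_plane {m : ℕ} (i j : Fin (m + 1)) (hij : i ≠ j) (a b : ℝ) :
    dimH {z : Sp m | z i = a ∧ z j = b} ≤ ((m - 1 : ℕ) : ℝ≥0∞) := by
  classical
  let ι := {k : Fin (m + 1) // k ≠ i ∧ k ≠ j}
  let φ : (ι → ℝ) → Sp m := fun w =>
    WithLp.toLp 2 (fun k => if h : k ≠ i ∧ k ≠ j then w ⟨k, h⟩ else if k = i then a else b)
  have hφ : ContDiff ℝ 1 φ := by
    rw [contDiff_euclidean]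
    intro k
    by_cases h : k ≠ i ∧ k ≠ j
    · have : (fun w : ι → ℝ => φ w k) = fun w => w ⟨k, h⟩ := by
        funext w
        simp [φ, h]
      rw [this]
      exact contDiff_apply ℝ ℝ _
    · have : (fun w : ι → ℝ => φ w k) = fun _ => (if k = i then a else b) := by
        funext w
        simp only [φ]
        rw [dif_neg h]
      rw [this]
      exact contDiff_const
  have hsub : {z : Sp m | z i = a ∧ z j = b} ⊆ range φ := by
    rintro z ⟨hi, hj⟩
    refine ⟨fun k => z k.1, ?_⟩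
    ext k
    simp only [φ]
    by_cases h : k ≠ i ∧ k ≠ j
    · simp [h]
    · rw [dif_neg h]
      by_cases hk : k = i
      · rw [if_pos hk, hk, hi]
      · rw [if_neg hk]
        have : k = j := by
          by_contra hkj
          exact h ⟨hk, hkj⟩
        rw [this, hj]
  have hcard : Fintype.card ι = m - 1 := by
    rw [Fintype.card_subtype]
    have : (Finset.univ.filter fun k : Fin (m + 1) => k ≠ i ∧ k ≠ j)
        = (Finset.univ.erase i).erase j := by
      ext k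
      simp [Finset.mem_erase, and_comm]
    rw [this, Finset.card_erase_of_mem (by simp [hij.symm]), Finset.card_erase_of_mem (by simp),
      Finset.card_univ, Fintype.card_fin]
    omega
  calc dimH {z : Sp m | z i = a ∧ z j = b} ≤ dimH (range φ) := dimH_mono hsub
    _ ≤ Module.finrank ℝ (ι → ℝ) := hφ.dimH_range_le
    _ = ((m - 1 : ℕ) : ℝ≥0∞) := by rw [Module.finrank_fintype_fun_eq_card, hcard]

theorem G1 {m : ℕ} (f : Sp m → ℝ) (i j : Fin (m + 1)) (hij : i ≠ j) (a b : ℝ) :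
    dimH {x : Sp m | ∃ p ∈ sub f x, (x + p) i = a ∧ (x + p) j = b} ≤ ((m - 1 : ℕ) : ℝ≥0∞) := by
  classical
  let Z : Set (Sp m) := {z | (z i = a ∧ z j = b) ∧ ∃ x : Sp m, z - x ∈ sub f x}
  let R : Sp m → Sp m := fun z => if h : ∃ x : Sp m, z - x ∈ sub f x then h.choose else 0
  have hR : ∀ z : Sp m, (∃ x : Sp m, z - x ∈ sub f x) → z - R z ∈ sub f (R z) := by
    intro z h
    simp only [R]
    rw [dif_pos h]
    exact h.choose_spec
  have hlip : LipschitzOnWith 1 R Z := by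
    refine LipschitzOnWith.of_dist_le_mul ?_
    intro z hz w hw
    have h1 := G1_mono f (hR z hz.2) (hR w hw.2)
    rw [dist_eq_norm, dist_eq_norm, NNReal.coe_one, one_mul]
    simpa using h1
  have hsub : {x : Sp m | ∃ p ∈ sub f x, (x + p) i = a ∧ (x + p) j = b} ⊆ R '' Z := by
    rintro x ⟨p, hp, hi, hj⟩
    have hx : (x + p) - x ∈ sub f x := by simpa using hp
    have hex : ∃ y : Sp m, (x + p) - y ∈ sub f y := ⟨x, hx⟩
    refine ⟨x + p, ⟨⟨hi, hj⟩, hex⟩, ?_⟩
    have h2 := G1_mono f (hR _ hex) hx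
    have h3 : R (x + p) + (x + p - R (x + p)) - (x + (x + p - x)) = 0 := by abel
    rw [h3, norm_zero] at h2
    have h4 : R (x + p) - x = 0 := norm_le_zero_iff.mp h2
    exact sub_eq_zero.mp h4
  calc dimH {x : Sp m | ∃ p ∈ sub f x, (x + p) i = a ∧ (x + p) j = b}
      ≤ dimH (R '' Z) := dimH_mono hsub
    _ ≤ dimH Z := hlip.dimH_image_le
    _ ≤ dimH {z : Sp m | z i = a ∧ z j = b} := dimH_mono fun z hz => hz.1
    _ ≤ _ := G1_plane i j hij a b

end P214
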