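import Vale.Agent.P214.Defs

/-!
G2. A convex set not contained in a line meets a rational coordinate plane (three affinely independent points, a nonzero 2x2 minor (i,j), the projected triangle has interior points with rational coordinates).
-/

namespace P214

open MeasureTheory Set Filter Metric
open scoped Topology ContDiff InnerProductSpace ENNReal

private theorem G2_minor {m : ℕ} (u w : Sp m) (hu : u ≠ 0) (hw : ∀ t : ℝ, w ≠ t • u) :
    ∃ i j : Fin (m + 1), u i * w j - u j * w i ≠ 0 := by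
  by_contra hcon
  push Not at hcon
  obtain ⟨i, hi⟩ : ∃ i, u i ≠ 0 := by
    by_contra h
    push Not at h
    exact hu (by ext i; simpa using h i)
  refine hw (w i / u i) ?_
  ext j
  have h1 := hcon i j
  have h2 : w j = w i / u i * u j := by
    field_simp
    linarith
  simpa using h2

private theorem G2_rat (x0 y0 ui uj wi wj : ℝ) (hD : ui * wj - uj * wi ≠ 0) :
    ∃ (a b : ℚ) (s t : ℝ), 0 < s ∧ 0 < t ∧ s + t < 1 ∧ x0 + s * ui + t * wi = a ∧
      y0 + s * uj + t * wj = b := by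
  let G : ℝ × ℝ → ℝ × ℝ := fun z =>
    (((z.1 - x0) * wj - (z.2 - y0) * wi) / (ui * wj - uj * wi),
      (ui * (z.2 - y0) - uj * (z.1 - x0)) / (ui * wj - uj * wi))
  have hG : Continuous G := by
    simp only [G]
    fun_prop
  let O : Set (ℝ × ℝ) := G ⁻¹' {z | 0 < z.1 ∧ 0 < z.2 ∧ z.1 + z.2 < 1}
  have hO : IsOpen O := by
    refine IsOpen.preimage hG ?_
    refine (isOpen_lt continuous_const continuous_fst).inter
      ((isOpen_lt continuous_const continuous_snd).inter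
        (isOpen_lt (continuous_fst.add continuous_snd) continuous_const))
  have hne : O.Nonempty := by
    refine ⟨(x0 + 1 / 3 * ui + 1 / 3 * wi, y0 + 1 / 3 * uj + 1 / 3 * wj), ?_⟩
    have h1 : G (x0 + 1 / 3 * ui + 1 / 3 * wi, y0 + 1 / 3 * uj + 1 / 3 * wj) = (1 / 3, 1 / 3) := by
      simp only [G]
      refine Prod.ext ?_ ?_
      · show (_ : ℝ) / _ = 1 / 3
        rw [div_eq_iff hD]
        ring
      · show (_ : ℝ) / _ = 1 / 3
        rw [div_eq_iff hD]
        ring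
    have h2 : G (x0 + 1 / 3 * ui + 1 / 3 * wi, y0 + 1 / 3 * uj + 1 / 3 * wj) ∈
        ({z | 0 < z.1 ∧ 0 < z.2 ∧ z.1 + z.2 < 1} : Set (ℝ × ℝ)) := by
      rw [h1]
      simp only [mem_ofPred_eq]
      norm_num
    exact h2
  obtain ⟨⟨a, b⟩, hab⟩ := (Rat.denseRange_cast (𝕜 := ℝ)).prodMap
    (Rat.denseRange_cast (𝕜 := ℝ)) |>.exists_mem_open hO hne
  have hab' : 0 < (G ((a : ℝ), (b : ℝ))).1 ∧ 0 < (G ((a : ℝ), (b : ℝ))).2 ∧
      (G ((a : ℝ), (b : ℝ))).1 + (G ((a : ℝ), (b : ℝ))).2 < 1 := hab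
  refine ⟨a, b, (G ((a : ℝ), (b : ℝ))).1, (G ((a : ℝ), (b : ℝ))).2, hab'.1, hab'.2.1, hab'.2.2,
    ?_, ?_⟩
  · simp only [G]
    rw [div_mul_eq_mul_div, div_mul_eq_mul_div, add_assoc, ← add_div,
      show (((a : ℝ) - x0) * wj - ((b : ℝ) - y0) * wi) * ui
          + (ui * ((b : ℝ) - y0) - uj * ((a : ℝ) - x0)) * wi
        = ((a : ℝ) - x0) * (ui * wj - uj * wi) by ring,
      mul_div_cancel_right₀ _ hD]
    ring
  · simp only [G]
    rw [div_mul_eq_mul_div, div_mul_eq_mul_div, add_assoc, ← add_div,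
      show (((a : ℝ) - x0) * wj - ((b : ℝ) - y0) * wi) * uj
          + (ui * ((b : ℝ) - y0) - uj * ((a : ℝ) - x0)) * wj
        = ((b : ℝ) - y0) * (ui * wj - uj * wi) by ring,
      mul_div_cancel_right₀ _ hD]
    ring

theorem G2 {m : ℕ} (C : Set (Sp m)) (hC : Convex ℝ C)
    (hl : ¬ ∃ (p v : Sp m), ∀ z ∈ C, ∃ t : ℝ, z = p + t • v) :
    ∃ (i j : Fin (m + 1)) (a b : ℚ), i ≠ j ∧ ∃ z ∈ C, z i = (a : ℝ) ∧ z j = (b : ℝ) := by
  obtain ⟨z0, h0⟩ : C.Nonempty := by
    by_contra h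
    rw [not_nonempty_iff_eq_empty] at h
    exact hl ⟨0, 0, by simp [h]⟩
  obtain ⟨z1, h1, hne⟩ : ∃ z1 ∈ C, z1 ≠ z0 := by
    by_contra h
    push Not at h
    exact hl ⟨z0, 0, fun z hz => ⟨0, by simp [h z hz]⟩⟩
  obtain ⟨z2, h2, hnt⟩ : ∃ z2 ∈ C, ∀ t : ℝ, z2 ≠ z0 + t • (z1 - z0) := by
    by_contra h
    push Not at h
    exact hl ⟨z0, z1 - z0, h⟩
  have hu : z1 - z0 ≠ 0 := sub_ne_zero.mpr hne
  have hw : ∀ t : ℝ, z2 - z0 ≠ t • (z1 - z0) := by
    intro t ht
    exact hnt t (by rw [← ht]; abel)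
  obtain ⟨i, j, hD⟩ := G2_minor _ _ hu hw
  have hij : i ≠ j := by
    rintro rfl
    exact hD (by ring)
  obtain ⟨a, b, s, t, hs, ht, hst, ha, hb⟩ := G2_rat (z0 i) (z0 j) _ _ _ _ hD
  refine ⟨i, j, a, b, hij, z0 + s • (z1 - z0) + t • (z2 - z0), ?_, ?_, ?_⟩
  · have h3 : z0 + s • (z1 - z0) + t • (z2 - z0)
        = (1 - s - t) • z0 + (s • z1 + t • z2) := by
      module
    rw [h3]
    have h4 := hC.sum_mem (t := (Finset.univ : Finset (Fin 3))) (w := ![1 - s - t, s, t])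
      (z := ![z0, z1, z2]) (by
        intro k _
        fin_cases k
        · show 0 ≤ 1 - s - t
          linarith
        · exact hs.le
        · exact ht.le)
      (by simp [Fin.sum_univ_three]; ring) (by
        intro k _
        fin_cases k
        · exact h0
        · exact h1
        · exact h2)
    simpa [Fin.sum_univ_three, add_assoc] using h4
  · simpa using ha
  · simpa using hb

end P214
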