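import Vale.Agent.P214.Defs

/-!
G3. A nonempty compact convex set contained in a line is a segment.
-/

namespace P214

open MeasureTheory Set Filter Metric
open scoped Topology ContDiff InnerProductSpace ENNReal

theorem G3 {m : ℕ} (C : Set (Sp m)) (hC : Convex ℝ C) (hk : IsCompact C) (hn : C.Nonempty)
    (hl : ∃ (p v : Sp m), ∀ z ∈ C, ∃ t : ℝ, z = p + t • v) :
    ∃ (p e : Sp m) (l : ℝ), ‖e‖ = 1 ∧ 0 ≤ l ∧ C = segment ℝ p (p + l • e) := by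
  obtain ⟨p, v, hpv⟩ := hl
  -- a unit vector `e` such that all differences are multiples of `e`
  obtain ⟨e, he, hpe⟩ : ∃ e : Sp m, ‖e‖ = 1 ∧ ∀ z ∈ C, ∃ t : ℝ, z = p + t • e := by
    by_cases hv : v = 0
    · refine ⟨EuclideanSpace.single 0 1, by simp, fun z hz => ⟨0, ?_⟩⟩
      obtain ⟨t, ht⟩ := hpv z hz
      rw [ht, hv, smul_zero, zero_smul]
    · have hv0 : ‖v‖ ≠ 0 := norm_ne_zero_iff.mpr hv
      refine ⟨‖v‖⁻¹ • v, ?_, fun z hz => ?_⟩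
      · rw [norm_smul, norm_inv, norm_norm, inv_mul_cancel₀ hv0]
      · obtain ⟨t, ht⟩ := hpv z hz
        refine ⟨t * ‖v‖, ?_⟩
        rw [ht, smul_smul, mul_assoc, mul_inv_cancel₀ hv0, mul_one]
  have hcont : ContinuousOn (fun z : Sp m => ⟪e, z⟫_ℝ) C := by fun_prop
  obtain ⟨z0, hz0, hmin⟩ := hk.exists_isMinOn hn hcont
  obtain ⟨z1, hz1, hmax⟩ := hk.exists_isMaxOn hn hcont
  have hee : ⟪e, e⟫_ℝ = 1 := by rw [real_inner_self_eq_norm_sq, he, one_pow]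
  have key : ∀ z ∈ C, z = z0 + (⟪e, z⟫_ℝ - ⟪e, z0⟫_ℝ) • e := by
    intro z hz
    obtain ⟨t, ht⟩ := hpe z hz
    obtain ⟨t0, ht0⟩ := hpe z0 hz0
    have h1 : ⟪e, z⟫_ℝ - ⟪e, z0⟫_ℝ = t - t0 := by
      rw [ht, ht0, inner_add_right, inner_add_right, real_inner_smul_right,
        real_inner_smul_right, hee]
      ring
    rw [h1, sub_smul]
    nth_rewrite 1 [ht]
    nth_rewrite 1 [ht0]
    abel
  refine ⟨z0, e, ⟪e, z1⟫_ℝ - ⟪e, z0⟫_ℝ, he, sub_nonneg.mpr (hmin hz1), ?_⟩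
  rw [← key z1 hz1]
  apply Subset.antisymm
  · intro z hz
    have h0 : ⟪e, z0⟫_ℝ ≤ ⟪e, z⟫_ℝ := hmin hz
    have h1 : ⟪e, z⟫_ℝ ≤ ⟪e, z1⟫_ℝ := hmax hz
    rcases (h0.trans h1).eq_or_lt with h | h
    · have hz' : z = z0 := by
        rw [key z hz]
        have : ⟪e, z⟫_ℝ - ⟪e, z0⟫_ℝ = 0 := by linarith
        rw [this, zero_smul, add_zero]
      rw [hz']
      exact left_mem_segment ℝ z0 z1
    · rw [segment_eq_image']
      refine ⟨(⟪e, z⟫_ℝ - ⟪e, z0⟫_ℝ) / (⟪e, z1⟫_ℝ - ⟪e, z0⟫_ℝ),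
        ⟨div_nonneg (by linarith) (by linarith), div_le_one_of_le₀ (by linarith) (by linarith)⟩, ?_⟩
      have h2 : z1 - z0 = (⟪e, z1⟫_ℝ - ⟪e, z0⟫_ℝ) • e := by
        nth_rewrite 1 [key z1 hz1]
        rw [add_sub_cancel_left]
      have hne : ⟪e, z1⟫_ℝ - ⟪e, z0⟫_ℝ ≠ 0 := by
        intro h'
        linarith
      change z0 + _ • (z1 - z0) = z
      rw [h2, smul_smul, div_mul_cancel₀ _ hne]
      exact (key z hz).symm
  · exact hC.segment_subset hz0 hz1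

end P214
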