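import Vale.Agent.P214.REG
import Vale.Agent.P214.G1
import Vale.Agent.P214.G2
import Vale.Agent.P214.G3
import Vale.Agent.P214.C1
import Vale.Agent.P214.C2
import Vale.Agent.P214.D5

/-!
G4. Core theorem: outside a set of dimension m - 1 the subdifferential is a segment; length 0
means not in the support, positive length means flat.
-/

namespace P214

open MeasureTheory Set Filter Metric
open scoped Topology ContDiff InnerProductSpace ENNReal

theorem G4 {m : ℕ} {U : Set (Sp m)} {μ : Measure (Sp m)} {ν : Sp m → Sp m} {f : Sp m → ℝ}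
    (h : Core U μ ν f) : dimH (nonFlatSet U μ) ≤ ((m - 1 : ℕ) : ℝ≥0∞) := by
  have hsub : nonFlatSet U μ ⊆ ⋃ c : {c : Fin (m + 1) × Fin (m + 1) × ℚ × ℚ // c.1 ≠ c.2.1},
      {x : Sp m | ∃ p ∈ sub f x, (x + p) c.1.1 = (c.1.2.2.1 : ℝ) ∧
        (x + p) c.1.2.1 = (c.1.2.2.2 : ℝ)} := by
    rintro x ⟨hxU, hpos, hnf⟩
    obtain ⟨hne, hcomp, hconv⟩ := C1 f h.conv x
    by_cases hl : ∃ (p v : Sp m), ∀ z ∈ sub f x, ∃ t : ℝ, z = p + t • v
    · exfalso
      obtain ⟨p, e, l, he, hl0, hseg⟩ := G3 (sub f x) hconv hcomp hne hl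
      rcases eq_or_lt_of_le hl0 with h0 | h0
      · rw [← h0, zero_smul, add_zero, segment_same] at hseg
        obtain ⟨r, hr, hr'⟩ := C2 f h.conv x (1 / 2) (by norm_num)
        obtain ⟨s, hs, hsU⟩ := Metric.isOpen_iff.1 h.isOpen x hxU
        have h1 := D5 h (ball x (min r s)) isOpen_ball (convex_ball _ _)
          ((ball_subset_ball (min_le_right _ _)).trans hsU) (by
            intro y hy a ha b hb
            obtain ⟨a', ha', hda⟩ := hr' y (ball_subset_ball (min_le_left _ _) hy) a ha
            obtain ⟨b', hb', hdb⟩ := hr' y (ball_subset_ball (min_le_left _ _) hy) b hb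
            rw [hseg, mem_singleton_iff] at ha' hb'
            rw [ha'] at hda
            rw [hb'] at hdb
            calc ‖a - b‖ = ‖(a - p) - (b - p)‖ := by congr 1; abel
              _ ≤ ‖a - p‖ + ‖b - p‖ := norm_sub_le _ _
              _ < 1 := by linarith)
        have h2 := hpos (min r s) (lt_min hr hs)
        rw [h1.1] at h2
        exact lt_irrefl _ h2
      · exact hnf (REG h x hxU p e he l h0 hseg)
    · have hC : Convex ℝ ((fun p => x + p) '' sub f x) := by
        have := hconv.translate x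
        simpa [vadd_eq_add] using this
      obtain ⟨i, j, a, b, hij, z, ⟨p, hp, rfl⟩, hza, hzb⟩ :=
        G2 ((fun p => x + p) '' sub f x) hC (by
          rintro ⟨p, v, hpv⟩
          apply hl
          refine ⟨p - x, v, ?_⟩
          intro z hz
          obtain ⟨t, ht⟩ := hpv (x + z) ⟨z, hz, rfl⟩
          refine ⟨t, ?_⟩
          have : z = (x + z) - x := by abel
          rw [this, ht]
          abel)
      exact mem_iUnion.2 ⟨⟨(i, j, a, b), hij⟩, p, hp, hza, hzb⟩
  refine (dimH_mono hsub).trans ?_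
  rw [dimH_iUnion]
  refine iSup_le fun c => ?_
  exact G1 f c.1.1 c.1.2.1 c.2 _ _

end P214
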