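import Vale.Agent.P214.Defs

/-!
LOC. The set of non-flat points is local.
-/

namespace P214

open MeasureTheory Set Filter Metric
open scoped Topology ContDiff InnerProductSpace ENNReal

theorem LOC {m : ℕ} (U : Set (Sp m)) (μ : Measure (Sp m)) (x₀ : Sp m) (r : ℝ)
    (hr : ball x₀ r ⊆ U) :
    nonFlatSet U μ ∩ ball x₀ r ⊆ nonFlatSet (ball x₀ r) (μ.restrict (ball x₀ r)) := by
  rintro p ⟨⟨hpU, hpos, hnf⟩, hpb⟩
  obtain ⟨s, hs, hsb⟩ := Metric.isOpen_iff.1 isOpen_ball p hpb
  refine ⟨hpb, ?_, ?_⟩
  · intro t ht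
    rw [Measure.restrict_apply measurableSet_ball]
    refine lt_of_lt_of_le (hpos (min t s) (lt_min ht hs)) (measure_mono ?_)
    intro y hy
    exact ⟨ball_subset_ball (min_le_left _ _) hy, hsb (ball_subset_ball (min_le_right _ _) hy)⟩
  · rintro ⟨t, v, q, ht, hv, hq, h⟩
    apply hnf
    refine ⟨min t s, v, q, lt_min ht hs, hv, hq, ?_⟩
    have h1 : ball p (min t s) ⊆ ball p t := ball_subset_ball (min_le_left _ _)
    have h2 : ball p (min t s) ⊆ ball x₀ r :=
      (ball_subset_ball (min_le_right _ _)).trans hsb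
    have h3 := congrArg (fun κ : Measure (Sp m) => κ.restrict (ball p (min t s))) h
    rw [Measure.restrict_restrict measurableSet_ball, Measure.restrict_restrict
      (measurableSet_ball.inter measurableSet_ball), Measure.restrict_smul,
      Measure.restrict_restrict measurableSet_ball,
      inter_eq_left.2 h1] at h3
    rw [← h3]
    congr 1
    exact (inter_eq_left.2 h2).symm

end P214
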