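import Vale.Agent.P214.Defs

/-!
RST. Localisation: the restriction of the data to a small ball is a Core (tangent planes of the restricted measure at points of the open ball are the same; closed ball of the same centre inside U has finite measure).
-/

namespace P214

open MeasureTheory Set Filter Metric
open scoped Topology ContDiff InnerProductSpace ENNReal

theorem RST_plane {m : ℕ} {μ : Measure (Sp m)} {x₀ x v : Sp m} {r : ℝ} {q : ℕ}
    (hx : x ∈ ball x₀ r) (h : HasTangentPlane μ x v q) :
    HasTangentPlane (μ.restrict (ball x₀ r)) x v q := by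
  obtain ⟨h1, h2, h3⟩ := h
  refine ⟨h1, h2, fun φ hφ hφc => ?_⟩
  refine (h3 φ hφ hφc).congr' ?_
  obtain ⟨R, hR⟩ := hφc.isCompact.isBounded.subset_closedBall (0 : Sp m)
  have hδ : 0 < r - dist x x₀ := by
    have := mem_ball.1 hx
    linarith
  have hpos : 0 < |R| + 1 := by positivity
  filter_upwards [Ioo_mem_nhdsGT (div_pos hδ hpos)] with s hs
  have hs0 : 0 < s := hs.1
  have hs1 : s * (|R| + 1) < r - dist x x₀ := (lt_div_iff₀ hpos).1 hs.2
  congr 1
  refine (setIntegral_eq_integral_of_forall_compl_eq_zero fun y hy => ?_).symm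
  refine image_eq_zero_of_notMem_tsupport fun hmem => ?_
  have h4 := hR hmem
  rw [mem_closedBall, dist_zero_right, norm_smul, norm_inv, Real.norm_of_nonneg hs0.le,
    inv_mul_le_iff₀ hs0] at h4
  have h5 : r ≤ dist y x₀ := not_lt.1 fun h => hy (mem_ball.2 h)
  have h6 : dist y x₀ ≤ dist y x + dist x x₀ := dist_triangle _ _ _
  have h7 : dist y x = ‖y - x‖ := dist_eq_norm _ _
  have h8 : s * R ≤ s * |R| := mul_le_mul_of_nonneg_left (le_abs_self R) hs0.le
  nlinarith

theorem RST {m : ℕ} (U : Set (Sp m)) (hU : IsOpen U) (μ : Measure (Sp m)) (ν : Sp m → Sp m)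
    (f : Sp m → ℝ) (hV : IsIntegralVarifold U μ ν) (hp : IsPotential U μ ν f) (x₀ : Sp m)
    (r : ℝ) (hr : closedBall x₀ r ⊆ U) (g : Sp m → ℝ) (hg : ConvexOn ℝ univ g)
    (hgf : ∀ x ∈ ball x₀ r, g x = f x) :
    Core (ball x₀ r) (μ.restrict (ball x₀ r)) ν g where
  isOpen := isOpen_ball
  convex := convex_ball _ _
  fin := by
    rw [Measure.restrict_apply_univ]
    exact (measure_mono ball_subset_closedBall).trans_lt
      (hV.2.1 _ (isCompact_closedBall x₀ r) hr)
  supp := by
    rw [Measure.restrict_apply measurableSet_ball.compl, compl_inter_self, measure_empty]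
  meas := hV.2.2.1
  tangent := by
    filter_upwards [ae_restrict_of_ae hV.2.2.2, ae_restrict_mem measurableSet_ball] with x hx hxb
    obtain ⟨q, hq⟩ := hx
    exact ⟨q, RST_plane hxb hq⟩
  conv := hg
  hess := by
    intro φ h1 h2 h3 v w
    have h4 := hp φ h1 h2 (h3.trans (ball_subset_closedBall.trans hr)) v w
    have h5 : ∫ x in ball x₀ r, φ x * (⟪ν x, v⟫_ℝ * ⟪ν x, w⟫_ℝ) ∂μ =
        ∫ x, φ x * (⟪ν x, v⟫_ℝ * ⟪ν x, w⟫_ℝ) ∂μ := by
      refine setIntegral_eq_integral_of_forall_compl_eq_zero fun x hx => ?_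
      rw [image_eq_zero_of_notMem_tsupport (fun h => hx (h3 h)), zero_mul]
    rw [h5, ← h4]
    refine integral_congr_ae (Eventually.of_forall fun x => ?_)
    by_cases hx : x ∈ ball x₀ r
    · simp only [hgf x hx]
    · have h6 : x ∉ tsupport (fderiv ℝ (fderiv ℝ φ)) := fun h =>
        hx (h3 (tsupport_fderiv_subset ℝ (tsupport_fderiv_subset ℝ h)))
      have h7 := image_eq_zero_of_notMem_tsupport h6
      simp only [h7]
      simp

end P214
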