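import Vale.Agent.P214.Defs
import Vale.Agent.P214.G4
import Vale.Agent.P214.EXT
import Vale.Agent.P214.RST
import Vale.Agent.P214.LOC

namespace P214

open MeasureTheory Set Filter Metric
open scoped Topology ContDiff InnerProductSpace ENNReal

theorem final {m : ℕ} (U : Set (Sp m)) (hU : IsOpen U) (μ : Measure (Sp m)) (ν : Sp m → Sp m)
    (f : Sp m → ℝ) (hV : IsIntegralVarifold U μ ν) (hf : ConvexOn ℝ U f)
    (hp : IsPotential U μ ν f) : dimH (nonFlatSet U μ) ≤ ((m - 1 : ℕ) : ℝ≥0∞) := by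
  have key : ∀ x : Sp m, x ∈ U → ∃ r : ℝ, 0 < r ∧ ball x r ⊆ U ∧
      dimH (nonFlatSet U μ ∩ ball x r) ≤ ((m - 1 : ℕ) : ℝ≥0∞) := by
    intro x hx
    obtain ⟨r, g, hr, hrU, hg, hgf⟩ := EXT U hU f hf x hx
    have hr2 : 0 < r / 2 := by positivity
    have hcl : closedBall x (r / 2) ⊆ U :=
      (closedBall_subset_ball (by linarith)).trans hrU
    have hb : ball x (r / 2) ⊆ U := ball_subset_closedBall.trans hcl
    refine ⟨r / 2, hr2, hb, ?_⟩
    have hC := RST U hU μ ν f hV hp x (r / 2) hcl g hg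
      (fun y hy => hgf y (ball_subset_ball (by linarith) hy))
    exact (dimH_mono (LOC U μ x (r / 2) hb)).trans (G4 hC)
  choose! r hr hrU hdim using key
  obtain ⟨t, htU, htc, hte⟩ := TopologicalSpace.isOpen_biUnion_countable U
    (fun x => ball x (r x)) (fun x _ => isOpen_ball)
  have hsub : nonFlatSet U μ ⊆ ⋃ x ∈ t, (nonFlatSet U μ ∩ ball x (r x)) := by
    intro p hp
    have hpU : p ∈ U := hp.1
    have h1 : p ∈ ⋃ x ∈ U, ball x (r x) :=
      mem_biUnion hpU (mem_ball_self (hr p hpU))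
    rw [← hte] at h1
    obtain ⟨x, hx, hpx⟩ := mem_iUnion₂.1 h1
    exact mem_biUnion hx ⟨hp, hpx⟩
  refine (dimH_mono hsub).trans ?_
  rw [dimH_bUnion htc]
  exact iSup₂_le fun x hx => hdim x (htU hx)

end P214
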