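import Vale.Agent.P214.Defs
import Vale.Agent.P214.G4
import Vale.Agent.P214.EXT
import Vale.Agent.P214.RST
import Vale.Agent.P214.LOC
import Vale.Agent.P214.CV1
import Vale.Agent.P214.CV2

namespace P214

open MeasureTheory Set Filter Metric
open scoped Topology ContDiff InnerProductSpace ENNReal

theorem final2_local {m : ℕ} (U : Set (Sp m)) (hU : IsOpen U) (μ : Measure (Sp m))
    (ν : Sp m → Sp m) (f : Sp m → ℝ) (hf : LocallyIntegrableOn f U)
    (hp : IsPotential U μ ν f) (x : Sp m) (hx : x ∈ U) :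
    ∃ (r : ℝ) (g : Sp m → ℝ), 0 < r ∧ ball x r ⊆ U ∧ ConvexOn ℝ univ g ∧
      ∀ᵐ y, y ∈ ball x r → g y = f y := by
  obtain ⟨r, g, hr, hrU, hg, hlim⟩ := CV1 U hU f hf (by
    intro φ h1 h2 h3 h0 v
    rw [hp φ h1 h2 h3 v v]
    exact integral_nonneg fun y => mul_nonneg (h0 y) (mul_self_nonneg _)) x hx
  obtain ⟨F, hF, hFf⟩ := CV2 x r hr g f hg hlim
  obtain ⟨s, G, hs, hsb, hG, hGF⟩ := EXT (ball x r) isOpen_ball F hF x (mem_ball_self hr)
  refine ⟨s, G, hs, hsb.trans hrU, hG, ?_⟩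
  filter_upwards [hFf] with y hy hys
  rw [hGF y hys, hy (hsb hys)]

theorem final2 {m : ℕ} (U : Set (Sp m)) (hU : IsOpen U) (μ : Measure (Sp m)) (ν : Sp m → Sp m)
    (f : Sp m → ℝ) (hV : IsIntegralVarifold U μ ν) (hf : LocallyIntegrableOn f U)
    (hp : IsPotential U μ ν f) : dimH (nonFlatSet U μ) ≤ ((m - 1 : ℕ) : ℝ≥0∞) := by
  classical
  have key : ∀ x : Sp m, x ∈ U → ∃ r : ℝ, 0 < r ∧ ball x r ⊆ U ∧
      dimH (nonFlatSet U μ ∩ ball x r) ≤ ((m - 1 : ℕ) : ℝ≥0∞) := by
    intro x hx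
    obtain ⟨r, g, hr, hrU, hg, hgf⟩ := final2_local U hU μ ν f hf hp x hx
    have hr2 : 0 < r / 2 := by positivity
    have hcl : closedBall x (r / 2) ⊆ U :=
      (closedBall_subset_ball (by linarith)).trans hrU
    have hb : ball x (r / 2) ⊆ U := ball_subset_closedBall.trans hcl
    refine ⟨r / 2, hr2, hb, ?_⟩
    set f' : Sp m → ℝ := fun y => if y ∈ ball x r then g y else f y with hf'
    have hae : f' =ᵐ[volume] f := by
      filter_upwards [hgf] with y hy
      by_cases hyb : y ∈ ball x r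
      · simp only [hf', if_pos hyb, hy hyb]
      · simp only [hf', if_neg hyb]
    have hp' : IsPotential U μ ν f' := by
      intro φ h1 h2 h3 v w
      rw [← hp φ h1 h2 h3 v w]
      refine integral_congr_ae ?_
      filter_upwards [hae] with y hy
      rw [hy]
    have hC := RST U hU μ ν f' hV hp' x (r / 2) hcl g hg
      (fun y hy => by
        have : y ∈ ball x r := ball_subset_ball (by linarith) hy
        simp only [hf', if_pos this])
    exact (dimH_mono (LOC U μ x (r / 2) hb)).trans (G4 hC)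
  choose! r hr hrU hdim using key
  obtain ⟨t, htU, htc, hte⟩ := TopologicalSpace.isOpen_biUnion_countable U
    (fun x => ball x (r x)) (fun x _ => isOpen_ball)
  have hsub : nonFlatSet U μ ⊆ ⋃ x ∈ t, (nonFlatSet U μ ∩ ball x (r x)) := by
    intro p hp
    have hpU : p ∈ U := hp.1
    have h1 : p ∈ ⋃ x ∈ U, ball x (r x) :=
      mem_biUnion hpU (mem_ball_self (hr p hpU))
    rw [← hte] at h1
    obtain ⟨x, hx, hpx⟩ := mem_iUnion₂.1 h1
    exact mem_biUnion hx ⟨hp, hpx⟩
  refine (dimH_mono hsub).trans ?_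
  rw [dimH_bUnion htc]
  exact iSup₂_le fun x hx => hdim x (htU hx)

end P214
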