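import Vale.Agent.P214.Closed

/-!
KA. Value of the mollified tensor on vectors (integral commutes with evaluation; integrand bounded, kappa finite).
-/

namespace P214

open MeasureTheory Set Filter Metric
open scoped Topology ContDiff InnerProductSpace ENNReal

theorem KA_tens_apply {m : ℕ} (ν : Sp m → Sp m) (y v w : Sp m) :
    tens ν y v w = ⟪ν y, v⟫_ℝ * ⟪ν y, w⟫_ℝ := by
  simp [tens]

theorem KA_gen {m : ℕ} {G : Type*} [NormedAddCommGroup G] [NormedSpace ℝ G]
    [FiniteDimensional ℝ G] (κ : Measure (Sp m)) [IsFiniteMeasure κ] (ν : Sp m → Sp m)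
    (hν : Measurable ν) (h1 : ∀ᵐ y ∂κ, ‖ν y‖ = 1) (f : Sp m → ℝ) (hf : Continuous f) (C : ℝ)
    (hC : ∀ y, ‖f y‖ ≤ C) (B : Sp m →ₗ[ℝ] Sp m →ₗ[ℝ] G) (hB : ∀ a b, ‖B a b‖ ≤ 1 * ‖a‖ * ‖b‖)
    (L : G →ₗ[ℝ] ℝ) :
    L (∫ y, f y • B (ν y) (ν y) ∂κ) = ∫ y, f y * L (B (ν y) (ν y)) ∂κ := by
  have : CompleteSpace G := FiniteDimensional.complete ℝ G
  have hB2 : Continuous (fun z : Sp m => B z z) := by
    have h2 : (fun z : Sp m => B z z) = fun z : Sp m => (B.mkContinuous₂ 1 hB) z z := by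
      funext z
      rfl
    rw [h2]
    exact (B.mkContinuous₂ 1 hB).continuous.clm_apply continuous_id
  have hi : Integrable (fun y => f y • B (ν y) (ν y)) κ := by
    refine Integrable.of_bound (C := C) ?_ ?_
    · exact (hf.stronglyMeasurable.smul
        (hB2.comp_stronglyMeasurable hν.stronglyMeasurable)).aestronglyMeasurable
    · filter_upwards [h1] with y hy
      rw [norm_smul]
      calc ‖f y‖ * ‖B (ν y) (ν y)‖ ≤ ‖f y‖ * 1 := by
            refine mul_le_mul_of_nonneg_left ?_ (norm_nonneg _)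
            have := hB (ν y) (ν y)
            rwa [hy, one_mul, one_mul] at this
        _ ≤ C := by rw [mul_one]; exact hC _
  have h3 := (LinearMap.toContinuousLinearMap L).integral_comp_comm hi
  rw [LinearMap.coe_toContinuousLinearMap'] at h3
  rw [← h3]
  congr 1
  funext y
  rw [map_smul, smul_eq_mul]

/-- the bilinear map `(a, b) ↦ ⟨a, ·⟩⟨b, ·⟩` -/
noncomputable def KA_B (m : ℕ) : Sp m →ₗ[ℝ] Sp m →ₗ[ℝ] (Sp m →L[ℝ] Sp m →L[ℝ] ℝ) :=
  LinearMap.mk₂ ℝ (fun a b => (innerSL ℝ a).smulRight (innerSL ℝ b))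
    (fun a a' b => by
      ext v w
      simp [inner_add_left, add_mul])
    (fun c a b => by
      ext v w
      simp [inner_smul_left, mul_assoc])
    (fun a b b' => by
      ext v w
      simp [inner_add_left, mul_add])
    (fun c a b => by
      ext v w
      simp [inner_smul_left, mul_left_comm])

theorem KA {m : ℕ} (κ : Measure (Sp m)) [IsFiniteMeasure κ] (ν : Sp m → Sp m)
    (hν : Measurable ν) (h1 : ∀ᵐ y ∂κ, ‖ν y‖ = 1) (ρ : Sp m → ℝ) (hρ : ContDiff ℝ ∞ ρ)
    (hc : HasCompactSupport ρ) (x v w : Sp m) :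
    mol κ ν ρ x v w = ∫ y, ρ (x - y) * (⟪ν y, v⟫_ℝ * ⟪ν y, w⟫_ℝ) ∂κ := by
  obtain ⟨C, hC⟩ := hρ.continuous.bounded_above_of_compact_support hc
  have h2 : Continuous (fun y : Sp m => ρ (x - y)) :=
    hρ.continuous.comp (continuous_const.sub continuous_id)
  let L : (Sp m →L[ℝ] Sp m →L[ℝ] ℝ) →ₗ[ℝ] ℝ :=
    { toFun := fun T => T v w
      map_add' := fun T T' => rfl
      map_smul' := fun c T => rfl }
  have h3 := KA_gen (G := Sp m →L[ℝ] Sp m →L[ℝ] ℝ) κ ν hν h1 (fun y => ρ (x - y)) h2 C (fun y => hC _) (KA_B m)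
    (fun a b => by
      change ‖(innerSL ℝ a).smulRight (innerSL ℝ b)‖ ≤ _
      rw [ContinuousLinearMap.norm_smulRight_apply, innerSL_apply_norm, innerSL_apply_norm,
        one_mul]) L
  refine Eq.trans h3 ?_
  refine integral_congr_ae (Filter.Eventually.of_forall fun y => ?_)
  exact congrArg (fun t => ρ (x - y) * t) (KA_tens_apply ν y v w)

end P214
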