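import Vale.Agent.P214.Closed

/-!
KB. Differentiability of the mollified tensor and formula for its derivative (hasFDerivAt_integral_of_dominated_of_fderiv_le).
-/

namespace P214

open MeasureTheory Set Filter Metric
open scoped Topology ContDiff InnerProductSpace ENNReal

theorem KB_gen {H G : Type} [NormedAddCommGroup H] [NormedSpace ℝ H] [MeasurableSpace H]
    [BorelSpace H] [SecondCountableTopology H] [NormedAddCommGroup G] [NormedSpace ℝ G]
    (κ : Measure H) [IsFiniteMeasure κ] (T : H → G) (htm : AEStronglyMeasurable T κ)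
    (h1 : ∀ᵐ y ∂κ, ‖T y‖ = 1) (ρ : H → ℝ) (hρ : ContDiff ℝ ∞ ρ) (hc : HasCompactSupport ρ)
    (x : H) :
    DifferentiableAt ℝ (fun x => ∫ y, ρ (x - y) • T y ∂κ) x ∧
      ∀ u, Integrable (fun y => (fderiv ℝ ρ (x - y) u) • T y) κ ∧
        fderiv ℝ (fun x => ∫ y, ρ (x - y) • T y ∂κ) x u =
        ∫ y, (fderiv ℝ ρ (x - y) u) • T y ∂κ := by
  have hd : Continuous (fderiv ℝ ρ) := hρ.continuous_fderiv (by simp)
  obtain ⟨M, hM⟩ := hd.bounded_above_of_compact_support (hc.fderiv ℝ)
  obtain ⟨M₀, hM₀⟩ := hρ.continuous.bounded_above_of_compact_support hc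
  have hFm : ∀ x : H, AEStronglyMeasurable (fun y => ρ (x - y) • T y) κ := by
    intro x
    have h2 : Continuous (fun y : H => ρ (x - y)) :=
      hρ.continuous.comp (continuous_const.sub continuous_id)
    exact h2.aestronglyMeasurable.smul htm
  have hF'm : ∀ x : H, AEStronglyMeasurable
      (fun y => (fderiv ℝ ρ (x - y)).smulRight (T y)) κ := by
    intro x
    have h2 : Continuous (fun p : H × G =>
        (ContinuousLinearMap.smulRightL ℝ H G (fderiv ℝ ρ (x - p.1))) p.2) :=
      ((ContinuousLinearMap.smulRightL ℝ H G).continuous.comp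
        (hd.comp (continuous_const.sub continuous_fst))).clm_apply continuous_snd
    have h3 : AEStronglyMeasurable (fun y : H => (y, T y)) κ :=
      continuous_id.aestronglyMeasurable.prodMk htm
    exact h2.comp_aestronglyMeasurable h3
  have hb : ∀ x : H, ∀ᵐ y ∂κ, ‖(fderiv ℝ ρ (x - y)).smulRight (T y)‖ ≤ M := by
    intro x
    filter_upwards [h1] with y hy
    rw [ContinuousLinearMap.norm_smulRight_apply, hy, mul_one]
    exact hM _
  have hint : Integrable (fun y => (fderiv ℝ ρ (x - y)).smulRight (T y)) κ :=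
    Integrable.mono' (integrable_const M) (hF'm x) (hb x)
  have hfd : HasFDerivAt (fun x => ∫ y, ρ (x - y) • T y ∂κ)
      (∫ y, (fderiv ℝ ρ (x - y)).smulRight (T y) ∂κ) x := by
    refine hasFDerivAt_integral_of_dominated_of_fderiv_le (s := univ) (bound := fun _ => M)
      (F' := fun x y => (fderiv ℝ ρ (x - y)).smulRight (T y))
      univ_mem (Filter.Eventually.of_forall hFm) ?_ (hF'm x) ?_ (integrable_const M) ?_
    · refine Integrable.mono' (integrable_const M₀) (hFm x) ?_
      filter_upwards [h1] with y hy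
      rw [norm_smul, hy, mul_one]
      exact hM₀ _
    · filter_upwards [h1] with y hy z _
      rw [ContinuousLinearMap.norm_smulRight_apply, hy, mul_one]
      exact hM _
    · filter_upwards with y z _
      have h2 : HasFDerivAt (fun z : H => ρ (z - y)) (fderiv ℝ ρ (z - y)) z := by
        have h3 := ((hρ.differentiable (by simp)) (z - y)).hasFDerivAt.comp z
          ((hasFDerivAt_id z).sub_const y)
        rw [ContinuousLinearMap.comp_id] at h3
        exact h3
      exact h2.smul_const (T y)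
  refine ⟨hfd.differentiableAt, fun u => ⟨hint.apply_continuousLinearMap u, ?_⟩⟩
  rw [hfd.fderiv, ContinuousLinearMap.integral_apply hint]
  rfl

theorem KB_cont {m : ℕ} : Continuous (fun v : Sp m =>
    ((innerSL ℝ v).smulRight (innerSL ℝ v) : Sp m →L[ℝ] Sp m →L[ℝ] ℝ)) := by
  have h : Continuous (fun v : Sp m =>
      (ContinuousLinearMap.smulRightL ℝ (Sp m) (Sp m →L[ℝ] ℝ) (innerSL ℝ v)) (innerSL ℝ v)) :=
    ((ContinuousLinearMap.smulRightL ℝ (Sp m) (Sp m →L[ℝ] ℝ)).continuous.comp
      (innerSL ℝ).continuous).clm_apply (innerSL ℝ).continuous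
  exact h

theorem KB_meas {m : ℕ} (κ : Measure (Sp m)) (ν : Sp m → Sp m) (hν : Measurable ν) :
    AEStronglyMeasurable (tens ν) κ :=
  KB_cont.comp_aestronglyMeasurable hν.aestronglyMeasurable

theorem KB_norm {m : ℕ} (ν : Sp m → Sp m) (y : Sp m) (h : ‖ν y‖ = 1) : ‖tens ν y‖ = 1 := by
  unfold tens
  rw [ContinuousLinearMap.norm_smulRight_apply, innerSL_apply_norm, h, mul_one]

theorem KB {m : ℕ} (κ : Measure (Sp m)) [IsFiniteMeasure κ] (ν : Sp m → Sp m)
    (hν : Measurable ν) (h1 : ∀ᵐ y ∂κ, ‖ν y‖ = 1) (ρ : Sp m → ℝ) (hρ : ContDiff ℝ ∞ ρ)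
    (hc : HasCompactSupport ρ) :
    Differentiable ℝ (mol κ ν ρ) ∧ ∀ x u v w : Sp m,
      fderiv ℝ (mol κ ν ρ) x u v w
        = ∫ y, fderiv ℝ ρ (x - y) u * (⟪ν y, v⟫_ℝ * ⟪ν y, w⟫_ℝ) ∂κ := by
  have htm := KB_meas κ ν hν
  have hn : ∀ᵐ y ∂κ, ‖tens ν y‖ = 1 := h1.mono (fun y hy => KB_norm ν y hy)
  have key := KB_gen κ (tens ν) htm hn ρ hρ hc
  have hmol : mol κ ν ρ = fun x => ∫ y, ρ (x - y) • tens ν y ∂κ := rfl
  refine ⟨fun x => (key x).1, fun x u v w => ?_⟩
  obtain ⟨hint, heq⟩ := (key x).2 u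
  have hint2 : Integrable (fun y => ((fderiv ℝ ρ (x - y) u) • tens ν y) v) κ :=
    hint.apply_continuousLinearMap v
  rw [hmol, heq, ContinuousLinearMap.integral_apply hint, ContinuousLinearMap.integral_apply hint2]
  refine integral_congr_ae (Filter.Eventually.of_forall fun y => ?_)
  simp [tens]

end P214
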