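import Vale.Agent.P214.Closed
import Vale.Agent.P214.KB

/-!
KC. Closedness of the mollified tensor: KB and IsClosedTensor for phi(y) = rho(x - y), supported in the ball of radius R about x, inside closedBall c (2R).
-/

namespace P214

open MeasureTheory Set Filter Metric
open scoped Topology ContDiff InnerProductSpace ENNReal

theorem KC {m : ℕ} (U : Set (Sp m)) (μ : Measure (Sp m)) (ν : Sp m → Sp m)
    (hV : IsIntegralVarifold U μ ν) (hcl : IsClosedTensor U μ ν) (c : Sp m) (R : ℝ) (hR : 0 < R)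
    (hU : closedBall c (2 * R) ⊆ U) (ρ : Sp m → ℝ) (hρ : ContDiff ℝ ∞ ρ)
    (hc : HasCompactSupport ρ) (hs : tsupport ρ ⊆ ball 0 R) (x : Sp m) (hx : x ∈ ball c R)
    (u v w : Sp m) :
    fderiv ℝ (mol (μ.restrict (closedBall c (2 * R))) ν ρ) x u v w
      = fderiv ℝ (mol (μ.restrict (closedBall c (2 * R))) ν ρ) x v u w := by
  obtain ⟨-, hfin, hmeas, htan⟩ := hV
  have hK : μ (closedBall c (2 * R)) < ⊤ := hfin _ (isCompact_closedBall c (2 * R)) hU
  have : IsFiniteMeasure (μ.restrict (closedBall c (2 * R))) :=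
    ⟨by rw [Measure.restrict_apply_univ]; exact hK⟩
  have h1 : ∀ᵐ y ∂(μ.restrict (closedBall c (2 * R))), ‖ν y‖ = 1 := by
    refine ae_restrict_of_ae ?_
    filter_upwards [htan] with y hy
    obtain ⟨q, hq⟩ := hy
    exact hq.1
  have hKB := (KB (μ.restrict (closedBall c (2 * R))) ν hmeas h1 ρ hρ hc).2
  set φ : Sp m → ℝ := fun y => ρ (x - y) with hφ
  have hφs : ContDiff ℝ ∞ φ := hρ.comp (contDiff_const.sub contDiff_id)
  have hφd : ∀ y a, fderiv ℝ φ y a = - fderiv ℝ ρ (x - y) a := by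
    intro y a
    have e1 : HasFDerivAt ρ (fderiv ℝ ρ (x - y)) (x - y) :=
      (hρ.differentiable (by simp) (x - y)).hasFDerivAt
    have e2 : HasFDerivAt (fun y : Sp m => x - y) (-ContinuousLinearMap.id ℝ (Sp m)) y := by
      have := (hasFDerivAt_id (𝕜 := ℝ) y).const_sub x
      exact this
    have e3 := (e1.comp y e2).fderiv
    change fderiv ℝ (ρ ∘ fun y : Sp m => x - y) y a = _
    rw [e3]
    simp
  have hφc : HasCompactSupport φ := hc.comp_homeomorph (Homeomorph.subLeft x)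
  have hts : ∀ y ∈ tsupport φ, y ∈ closedBall c (2 * R) := by
    intro y hy
    have h2 : tsupport φ = (Homeomorph.subLeft x) ⁻¹' tsupport ρ :=
      tsupport_comp_eq_preimage ρ (Homeomorph.subLeft x)
    rw [h2] at hy
    have h3 : x - y ∈ ball (0 : Sp m) R := hs hy
    rw [mem_ball_zero_iff] at h3
    rw [mem_ball, dist_eq_norm] at hx
    rw [mem_closedBall, dist_eq_norm]
    have h4 : y - c = -(x - y) + (x - c) := by abel
    rw [h4]
    refine (norm_add_le _ _).trans ?_
    rw [norm_neg]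
    linarith
  have hz : ∀ y, y ∉ closedBall c (2 * R) → ∀ a, fderiv ℝ φ y a = 0 := by
    intro y hy a
    have h2 : y ∉ tsupport φ := fun h => hy (hts y h)
    have h3 : fderiv ℝ φ y = 0 := by
      have := (tsupport_fderiv_subset ℝ (f := φ))
      by_contra hne
      exact h2 (this (subset_tsupport _ hne))
    rw [h3]
    rfl
  have key : ∀ a b : Sp m, ∫ y, fderiv ℝ ρ (x - y) a * (⟪ν y, b⟫_ℝ * ⟪ν y, w⟫_ℝ)
      ∂(μ.restrict (closedBall c (2 * R))) =
      - ∫ y, fderiv ℝ φ y a * (⟪ν y, b⟫_ℝ * ⟪ν y, w⟫_ℝ) ∂μ := by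
    intro a b
    rw [← setIntegral_eq_integral_of_forall_compl_eq_zero (μ := μ)
      (s := closedBall c (2 * R)) (f := fun y => fderiv ℝ φ y a * (⟪ν y, b⟫_ℝ * ⟪ν y, w⟫_ℝ))
      (fun y hy => by simp only [hz y hy a, zero_mul]), ← integral_neg]
    refine integral_congr_ae (Eventually.of_forall fun y => ?_)
    simp only [hφd]
    ring
  rw [hKB, hKB, key, key, hcl φ hφs hφc (fun y hy => hU (hts y hy)) u v w]

end P214
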