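import Vale.Agent.P214.Closed
import Vale.Agent.P214.KA

/-!
KD. Mass bound (Tonelli).
-/

namespace P214

open MeasureTheory Set Filter Metric
open scoped Topology ContDiff InnerProductSpace ENNReal

private theorem KD_ofReal {α : Type*} [MeasurableSpace α] (μ : Measure α) (f : α → ℝ)
    (h0 : ∀ x, 0 ≤ f x) : ENNReal.ofReal (∫ x, f x ∂μ) ≤ ∫⁻ x, ENNReal.ofReal (f x) ∂μ := by
  by_cases hf : Integrable f μ
  · exact le_of_eq (ofReal_integral_eq_lintegral_ofReal hf (ae_of_all _ h0))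
  · rw [integral_undef hf, ENNReal.ofReal_zero]
    exact zero_le

theorem KD {m : ℕ} (κ : Measure (Sp m)) [IsFiniteMeasure κ] (ν : Sp m → Sp m)
    (hν : Measurable ν) (h1 : ∀ᵐ y ∂κ, ‖ν y‖ = 1) (ρ : Sp m → ℝ) (hρ : ContDiff ℝ ∞ ρ)
    (hc : HasCompactSupport ρ) (h0 : ∀ x, 0 ≤ ρ x) (hi : ∫ x, ρ x = 1) (B : Set (Sp m))
    (hB : MeasurableSet B) (v : Sp m) (hv : ‖v‖ ≤ 1) :
    ∫ x in B, mol κ ν ρ x v v ≤ κ.real univ := by
  have hint : ∀ x, mol κ ν ρ x v v = ∫ y, ρ (x - y) * (⟪ν y, v⟫_ℝ * ⟪ν y, v⟫_ℝ) ∂κ :=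
    fun x => KA κ ν hν h1 ρ hρ hc x v v
  have hρi : Integrable ρ := hρ.continuous.integrable_of_hasCompactSupport hc
  have hρl : ∀ y : Sp m, ∫⁻ x, ENNReal.ofReal (ρ (x - y)) = 1 := by
    intro y
    rw [lintegral_sub_right_eq_self (fun x => ENNReal.ofReal (ρ x)) y,
      ← ofReal_integral_eq_lintegral_ofReal hρi (ae_of_all _ h0), hi, ENNReal.ofReal_one]
  have hsq : ∀ᵐ y ∂κ, ⟪ν y, v⟫_ℝ * ⟪ν y, v⟫_ℝ ≤ 1 := by
    filter_upwards [h1] with y hy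
    have h2 : |⟪ν y, v⟫_ℝ| ≤ 1 := by
      refine (abs_real_inner_le_norm _ _).trans ?_
      rw [hy, one_mul]
      exact hv
    rw [← abs_mul_abs_self]
    nlinarith [abs_nonneg ⟪ν y, v⟫_ℝ]
  have hnn : ∀ x y : Sp m, 0 ≤ ρ (x - y) * (⟪ν y, v⟫_ℝ * ⟪ν y, v⟫_ℝ) :=
    fun x y => mul_nonneg (h0 _) (mul_self_nonneg _)
  have hmeas : Measurable (fun p : Sp m × Sp m =>
      ENNReal.ofReal (ρ (p.1 - p.2) * (⟪ν p.2, v⟫_ℝ * ⟪ν p.2, v⟫_ℝ))) := by
    have a1 : Measurable (fun p : Sp m × Sp m => ρ (p.1 - p.2)) :=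
      hρ.continuous.measurable.comp (measurable_fst.sub measurable_snd)
    have a2 : Measurable (fun p : Sp m × Sp m => ⟪ν p.2, v⟫_ℝ) :=
      (hν.comp measurable_snd).inner measurable_const
    exact (a1.mul (a2.mul a2)).ennreal_ofReal
  have key : ∫⁻ x in B, ENNReal.ofReal (mol κ ν ρ x v v) ≤ κ univ := by
    calc ∫⁻ x in B, ENNReal.ofReal (mol κ ν ρ x v v)
        ≤ ∫⁻ x in B, ∫⁻ y, ENNReal.ofReal (ρ (x - y) * (⟪ν y, v⟫_ℝ * ⟪ν y, v⟫_ℝ)) ∂κ := by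
          refine lintegral_mono fun x => ?_
          simp only [hint]
          exact KD_ofReal κ _ (hnn x)
      _ ≤ ∫⁻ x, ∫⁻ y, ENNReal.ofReal (ρ (x - y) * (⟪ν y, v⟫_ℝ * ⟪ν y, v⟫_ℝ)) ∂κ :=
          setLIntegral_le_lintegral _ _
      _ = ∫⁻ y, (∫⁻ x, ENNReal.ofReal (ρ (x - y) * (⟪ν y, v⟫_ℝ * ⟪ν y, v⟫_ℝ))) ∂κ :=
          lintegral_lintegral_swap hmeas.aemeasurable
      _ ≤ ∫⁻ _y, 1 ∂κ := by
          refine lintegral_mono_ae (hsq.mono fun y hy => ?_)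
          rw [← hρl y]
          refine lintegral_mono fun x => ENNReal.ofReal_le_ofReal ?_
          have := mul_le_mul_of_nonneg_left hy (h0 (x - y))
          rwa [mul_one] at this
      _ = κ univ := by rw [lintegral_const, one_mul]
  by_cases hI : Integrable (fun x => mol κ ν ρ x v v) (volume.restrict B)
  · have hg0 : ∀ x, 0 ≤ mol κ ν ρ x v v := fun x => by
      rw [hint]
      exact integral_nonneg (hnn x)
    have h2 := ofReal_integral_eq_lintegral_ofReal hI (ae_of_all _ hg0)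
    rw [← h2] at key
    have h3 := ENNReal.toReal_mono (measure_ne_top κ univ) key
    rwa [ENNReal.toReal_ofReal (integral_nonneg hg0)] at h3
  · rw [integral_undef hI]
    exact measureReal_nonneg

end P214
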