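import Vale.Agent.P214.Closed
import Vale.Agent.P214.KA

/-!
KE, proofs.
-/

namespace P214.KEPf

open MeasureTheory Set Filter Metric
open scoped Topology ContDiff InnerProductSpace ENNReal

variable {m : ℕ}

/-- pointwise convergence of the mollification -/
theorem conv_pt (ρ : ℕ → Sp m → ℝ) (hρ : ∀ n, ContDiff ℝ ∞ (ρ n))
    (hc : ∀ n, HasCompactSupport (ρ n)) (h0 : ∀ n x, 0 ≤ ρ n x)
    (hi : ∀ n, ∫ x, ρ n x = 1) (δ : ℕ → ℝ) (hδ : Tendsto δ atTop (𝓝 0))
    (hs : ∀ n, tsupport (ρ n) ⊆ closedBall 0 (δ n)) (φ : Sp m → ℝ) (hφ : Continuous φ)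
    (y : Sp m) :
    Tendsto (fun n => ∫ x, φ x * ρ n (x - y)) atTop (𝓝 (φ y)) := by
  have hsub : ∀ n, ∫ x, φ x * ρ n (x - y) = ∫ z, φ (z + y) * ρ n z := by
    intro n
    have := integral_add_right_eq_self (μ := (volume : Measure (Sp m)))
      (fun x => φ x * ρ n (x - y)) y
    rw [← this]
    simp only [add_sub_cancel_right]
  have hρi : ∀ n, Integrable (ρ n) := fun n =>
    (hρ n).continuous.integrable_of_hasCompactSupport (hc n)
  have hfi : ∀ n, Integrable (fun z => φ (z + y) * ρ n z) := fun n =>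
    ((hφ.comp (continuous_id.add continuous_const)).mul
      (hρ n).continuous).integrable_of_hasCompactSupport (hc n).mul_left
  rw [Metric.tendsto_atTop]
  intro ε hε
  obtain ⟨η, hη, hηφ⟩ := Metric.continuousAt_iff.1 (hφ.continuousAt (x := y)) (ε / 2) (half_pos hε)
  obtain ⟨N, hN⟩ := (Metric.tendsto_atTop.1 hδ) η hη
  refine ⟨N, fun n hn => ?_⟩
  have hδn : δ n < η := by
    have := hN n hn
    rw [Real.dist_eq, sub_zero] at this
    exact (le_abs_self _).trans_lt this
  rw [hsub n, Real.dist_eq]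
  have e0 : (∫ z, φ (z + y) * ρ n z) - φ y = ∫ z, (φ (z + y) - φ y) * ρ n z := by
    have h2 : ∫ z, φ y * ρ n z = φ y := by
      rw [integral_const_mul, hi n, mul_one]
    calc _ = (∫ z, φ (z + y) * ρ n z) - ∫ z, φ y * ρ n z := by rw [h2]
      _ = ∫ z, (φ (z + y) * ρ n z - φ y * ρ n z) :=
          (integral_sub (hfi n) ((hρi n).const_mul _)).symm
      _ = _ := by
          congr 1
          funext z
          ring
  rw [e0]
  have hb : ∀ z, |(φ (z + y) - φ y) * ρ n z| ≤ ε / 2 * ρ n z := by
    intro z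
    rw [abs_mul, abs_of_nonneg (h0 n z)]
    by_cases hz : z ∈ tsupport (ρ n)
    · refine mul_le_mul_of_nonneg_right ?_ (h0 n z)
      have h3 : dist (z + y) y < η := by
        have h4 := hs n hz
        rw [mem_closedBall, dist_zero_right] at h4
        rw [dist_eq_norm, add_sub_cancel_right]
        linarith
      have h5 := hηφ h3
      rw [Real.dist_eq] at h5
      exact h5.le
    · rw [image_eq_zero_of_notMem_tsupport hz]
      simp
  calc |∫ z, (φ (z + y) - φ y) * ρ n z| ≤ ∫ z, |(φ (z + y) - φ y) * ρ n z| :=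
        abs_integral_le_integral_abs
    _ ≤ ∫ z, ε / 2 * ρ n z := by
        refine integral_mono_of_nonneg (Eventually.of_forall fun z => abs_nonneg _)
          ((hρi n).const_mul _) (Eventually.of_forall hb)
    _ = ε / 2 := by rw [integral_const_mul, hi n, mul_one]
    _ < ε := by linarith

/-- Fubini -/
theorem swap (κ : Measure (Sp m)) [IsFiniteMeasure κ] (g : Sp m → ℝ) (hg : Measurable g) (C : ℝ)
    (hgC : ∀ᵐ y ∂κ, |g y| ≤ C) (r : Sp m → ℝ) (hr : Continuous r) (hrc : HasCompactSupport r)
    (φ : Sp m → ℝ) (hφ : Continuous φ) (hφc : HasCompactSupport φ) :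
    ∫ x, φ x * ∫ y, r (x - y) * g y ∂κ = ∫ y, (∫ x, φ x * r (x - y)) * g y ∂κ := by
  obtain ⟨M, hM⟩ := hrc.exists_bound_of_continuous hr
  have hint : Integrable (Function.uncurry fun x y => φ x * (r (x - y) * g y))
      ((volume : Measure (Sp m)).prod κ) := by
    have hd : Integrable (fun p : Sp m × Sp m => |φ p.1| * (M * |C|))
        ((volume : Measure (Sp m)).prod κ) :=
      ((hφ.integrable_of_hasCompactSupport hφc).abs).mul_prod (integrable_const (M * |C|))
    refine hd.mono' ?_ ?_
    · refine Measurable.aestronglyMeasurable ?_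
      exact (hφ.measurable.comp measurable_fst).mul
        ((hr.measurable.comp (measurable_fst.sub measurable_snd)).mul (hg.comp measurable_snd))
    · have h2 : ∀ᵐ p ∂((volume : Measure (Sp m)).prod κ), |g p.2| ≤ C :=
        (Measure.quasiMeasurePreserving_snd (μ := (volume : Measure (Sp m))) (ν := κ)).ae hgC
      filter_upwards [h2] with p hp
      have h3 := hM (p.1 - p.2)
      rw [Real.norm_eq_abs] at h3
      simp only [Function.uncurry, Real.norm_eq_abs, abs_mul]
      refine mul_le_mul_of_nonneg_left ?_ (abs_nonneg _)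
      exact mul_le_mul h3 (hp.trans (le_abs_self _)) (abs_nonneg _) ((abs_nonneg _).trans h3)
  calc ∫ x, φ x * ∫ y, r (x - y) * g y ∂κ = ∫ x, ∫ y, φ x * (r (x - y) * g y) ∂κ := by
        congr 1
        funext x
        rw [integral_const_mul]
    _ = ∫ y, (∫ x, φ x * (r (x - y) * g y)) ∂κ := integral_integral_swap hint
    _ = _ := by
        congr 1
        funext y
        rw [← integral_mul_const]
        congr 1
        funext x
        ring

theorem KE (κ : Measure (Sp m)) [IsFiniteMeasure κ] (ν : Sp m → Sp m)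
    (hν : Measurable ν) (h1 : ∀ᵐ y ∂κ, ‖ν y‖ = 1) (ρ : ℕ → Sp m → ℝ)
    (hρ : ∀ n, ContDiff ℝ ∞ (ρ n)) (hc : ∀ n, HasCompactSupport (ρ n)) (h0 : ∀ n x, 0 ≤ ρ n x)
    (hi : ∀ n, ∫ x, ρ n x = 1) (δ : ℕ → ℝ) (hδ : Tendsto δ atTop (𝓝 0))
    (hs : ∀ n, tsupport (ρ n) ⊆ closedBall 0 (δ n)) (φ : Sp m → ℝ) (hφ : ContDiff ℝ ∞ φ)
    (hφc : HasCompactSupport φ) (v w : Sp m) :
    Tendsto (fun n => ∫ x, φ x * mol κ ν (ρ n) x v w) atTop
      (𝓝 (∫ x, φ x * (⟪ν x, v⟫_ℝ * ⟪ν x, w⟫_ℝ) ∂κ)) := by
  set g : Sp m → ℝ := fun y => ⟪ν y, v⟫_ℝ * ⟪ν y, w⟫_ℝ with hg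
  have hgm : Measurable g := (hν.inner_const).mul (hν.inner_const)
  have hgC : ∀ᵐ y ∂κ, |g y| ≤ ‖v‖ * ‖w‖ := by
    filter_upwards [h1] with y hy
    rw [hg]
    simp only [abs_mul]
    have ha := abs_real_inner_le_norm (ν y) v
    have hb := abs_real_inner_le_norm (ν y) w
    rw [hy, one_mul] at ha hb
    exact mul_le_mul ha hb (abs_nonneg _) (norm_nonneg _)
  have hE : ∀ n, ∫ x, φ x * mol κ ν (ρ n) x v w =
      ∫ y, (∫ x, φ x * ρ n (x - y)) * g y ∂κ := by
    intro n
    rw [← swap κ g hgm _ hgC (ρ n) (hρ n).continuous (hc n) φ hφ.continuous hφc]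
    congr 1
    funext x
    rw [KA κ ν hν h1 (ρ n) (hρ n) (hc n) x v w]
  simp only [hE]
  obtain ⟨M, hM⟩ := hφc.exists_bound_of_continuous hφ.continuous
  refine tendsto_integral_of_dominated_convergence (fun _ => M * (‖v‖ * ‖w‖)) ?_
    (integrable_const _) ?_ ?_
  · intro n
    refine Measurable.aestronglyMeasurable (Measurable.mul ?_ hgm)
    have hcont : Continuous (fun y => ∫ x, φ x * ρ n (x - y)) := by
      have hρi : Integrable (ρ n) := (hρ n).continuous.integrable_of_hasCompactSupport (hc n)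
      have heq : (fun y => ∫ x, φ x * ρ n (x - y)) = fun y => ∫ z, φ (z + y) * ρ n z := by
        funext y
        have := integral_add_right_eq_self (μ := (volume : Measure (Sp m)))
          (fun x => φ x * ρ n (x - y)) y
        rw [← this]
        simp only [add_sub_cancel_right]
      rw [heq]
      refine continuous_of_dominated (bound := fun z => M * ‖ρ n z‖) ?_ ?_ (hρi.norm.const_mul M) ?_
      · intro y
        exact ((hφ.continuous.comp (continuous_id.add continuous_const)).mul
          (hρ n).continuous).aestronglyMeasurable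
      · intro y
        refine Eventually.of_forall fun z => ?_
        rw [norm_mul]
        exact mul_le_mul_of_nonneg_right (hM _) (norm_nonneg _)
      · refine Eventually.of_forall fun z => ?_
        exact (hφ.continuous.comp (continuous_const.add continuous_id)).mul continuous_const
    exact hcont.measurable
  · intro n
    filter_upwards [hgC] with y hy
    rw [norm_mul, Real.norm_eq_abs (g y)]
    have hM0 : 0 ≤ M := (norm_nonneg _).trans (hM 0)
    refine mul_le_mul ?_ hy (abs_nonneg _) hM0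
    have hρi : Integrable (fun x => ρ n (x - y)) :=
      ((hρ n).continuous.integrable_of_hasCompactSupport (hc n)).comp_sub_right y
    calc ‖∫ x, φ x * ρ n (x - y)‖ ≤ ∫ x, ‖φ x * ρ n (x - y)‖ := norm_integral_le_integral_norm _
      _ ≤ ∫ x, M * ρ n (x - y) := by
          refine integral_mono_of_nonneg (Eventually.of_forall fun x => norm_nonneg _)
            (hρi.const_mul M) (Eventually.of_forall fun x => ?_)
          simp only [norm_mul]
          rw [Real.norm_of_nonneg (h0 n _)]
          exact mul_le_mul_of_nonneg_right (hM _) (h0 n _)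
      _ = M := by
          rw [integral_const_mul, integral_sub_right_eq_self (ρ n) y, hi n, mul_one]
  · refine Eventually.of_forall fun y => ?_
    exact (conv_pt ρ hρ hc h0 hi δ hδ hs φ hφ.continuous y).mul_const (g y)

end P214.KEPf
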