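import Vale.Agent.P214.Closed
import Vale.Agent.P214.KA
import Vale.Agent.P214.KEPf

/-!
KE. Weak convergence of the mollified tensors (Fubini; phi * rho_n -> phi uniformly).
-/

namespace P214

open MeasureTheory Set Filter Metric
open scoped Topology ContDiff InnerProductSpace ENNReal

theorem KE {m : ℕ} (κ : Measure (Sp m)) [IsFiniteMeasure κ] (ν : Sp m → Sp m)
    (hν : Measurable ν) (h1 : ∀ᵐ y ∂κ, ‖ν y‖ = 1) (ρ : ℕ → Sp m → ℝ)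
    (hρ : ∀ n, ContDiff ℝ ∞ (ρ n)) (hc : ∀ n, HasCompactSupport (ρ n)) (h0 : ∀ n x, 0 ≤ ρ n x)
    (hi : ∀ n, ∫ x, ρ n x = 1) (δ : ℕ → ℝ) (hδ : Tendsto δ atTop (𝓝 0))
    (hs : ∀ n, tsupport (ρ n) ⊆ closedBall 0 (δ n)) (φ : Sp m → ℝ) (hφ : ContDiff ℝ ∞ φ)
    (hφc : HasCompactSupport φ) (v w : Sp m) :
    Tendsto (fun n => ∫ x, φ x * mol κ ν (ρ n) x v w) atTop
      (𝓝 (∫ x, φ x * (⟪ν x, v⟫_ℝ * ⟪ν x, w⟫_ℝ) ∂κ)) := by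
  exact KEPf.KE κ ν hν h1 ρ hρ hc h0 hi δ hδ hs φ hφ hφc v w

end P214
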