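import Vale.Agent.P214.Closed

/-!
KF. Poincare lemma twice (Convex.exists_forall_hasFDerivAt_of_fderiv_symmetric): M closed and symmetric on a ball is a Hessian; normalise by subtracting constants and a linear map.
-/

namespace P214

open MeasureTheory Set Filter Metric
open scoped Topology ContDiff InnerProductSpace ENNReal

theorem KF {m : ℕ} (c : Sp m) (R : ℝ) (hR : 0 < R) (M : Sp m → Sp m →L[ℝ] Sp m →L[ℝ] ℝ)
    (hM : Differentiable ℝ M) (hsym : ∀ x v w, M x v w = M x w v)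
    (hcl : ∀ x ∈ ball c R, ∀ u v w : Sp m, fderiv ℝ M x u v w = fderiv ℝ M x v u w) :
    ∃ (h : Sp m → ℝ) (G : Sp m → Sp m →L[ℝ] ℝ), h c = 0 ∧ G c = 0 ∧
      (∀ x ∈ ball c R, HasFDerivAt h (G x) x) ∧ (∀ x ∈ ball c R, HasFDerivAt G (M x) x) := by
  have hcl' : ∀ a ∈ ball c R, ∀ x y, fderiv ℝ M a x y = fderiv ℝ M a y x := fun a ha x y => by
    ext w
    exact hcl a ha x y w
  obtain ⟨G0, hG0⟩ := (convex_ball c R).exists_forall_hasFDerivAt_of_fderiv_symmetric isOpen_ball
    hM.differentiableOn hcl'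
  have hG : ∀ x ∈ ball c R, HasFDerivAt (fun y => G0 y - G0 c) (M x) x := fun x hx =>
    (hG0 x hx).sub_const (G0 c)
  have hGd : DifferentiableOn ℝ (fun y => G0 y - G0 c) (ball c R) := fun x hx =>
    (hG x hx).differentiableAt.differentiableWithinAt
  have hGs : ∀ a ∈ ball c R, ∀ x y, fderiv ℝ (fun y => G0 y - G0 c) a x y =
      fderiv ℝ (fun y => G0 y - G0 c) a y x := fun a ha x y => by
    rw [(hG a ha).fderiv]
    exact hsym a x y
  obtain ⟨h0, hh0⟩ := (convex_ball c R).exists_forall_hasFDerivAt_of_fderiv_symmetric isOpen_ball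
    hGd hGs
  refine ⟨fun y => h0 y - h0 c, fun y => G0 y - G0 c, sub_self _, sub_self _, fun x hx => ?_, hG⟩
  exact (hh0 x hx).sub_const (h0 c)

end P214
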