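import Vale.Agent.P214.Closed

/-!
KG. Nonnegative Hessian on a ball implies convex.
-/

namespace P214

open MeasureTheory Set Filter Metric
open scoped Topology ContDiff InnerProductSpace ENNReal

theorem KG {m : ℕ} (c : Sp m) (R : ℝ) (M : Sp m → Sp m →L[ℝ] Sp m →L[ℝ] ℝ)
    (hpos : ∀ x v, 0 ≤ M x v v) (h : Sp m → ℝ) (G : Sp m → Sp m →L[ℝ] ℝ)
    (hh : ∀ x ∈ ball c R, HasFDerivAt h (G x) x) (hG : ∀ x ∈ ball c R, HasFDerivAt G (M x) x) :
    ConvexOn ℝ (ball c R) h := by
  refine ⟨convex_ball c R, ?_⟩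
  intro x hx y hy a b ha hb hab
  set d : Sp m := y - x with hd
  have hline : ∀ t ∈ Icc (0 : ℝ) 1, x + t • d ∈ ball c R := by
    intro t ht
    have h3 := (convex_ball c R) hx hy (a := 1 - t) (b := t) (by linarith [ht.2]) ht.1 (by ring)
    have h4 : x + t • d = (1 - t) • x + t • y := by
      rw [hd]; module
    rw [h4]; exact h3
  have hl : ∀ t : ℝ, HasDerivAt (fun t : ℝ => x + t • d) d t := by
    intro t
    simpa using ((hasDerivAt_id t).smul_const d).const_add x
  have h1 : ∀ t ∈ Icc (0 : ℝ) 1,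
      HasDerivAt (fun t : ℝ => h (x + t • d)) (G (x + t • d) d) t := by
    intro t ht
    exact (hh _ (hline t ht)).comp_hasDerivAt t (hl t)
  have h2 : ∀ t ∈ Icc (0 : ℝ) 1,
      HasDerivAt (fun t : ℝ => G (x + t • d) d) (M (x + t • d) d d) t := by
    intro t ht
    have h5 : HasDerivAt (fun t : ℝ => G (x + t • d)) (M (x + t • d) d) t :=
      (hG _ (hline t ht)).comp_hasDerivAt t (hl t)
    simpa using h5.clm_apply (hasDerivAt_const t d)
  have hconv : ConvexOn ℝ (Icc (0 : ℝ) 1) (fun t : ℝ => h (x + t • d)) := by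
    refine convexOn_of_hasDerivWithinAt2_nonneg (convex_Icc 0 1)
      (f' := fun t => G (x + t • d) d) (f'' := fun t => M (x + t • d) d d) ?_ ?_ ?_ ?_
    · intro t ht
      exact (h1 t ht).continuousAt.continuousWithinAt
    · intro t ht
      exact (h1 t (interior_subset ht)).hasDerivWithinAt
    · intro t ht
      exact (h2 t (interior_subset ht)).hasDerivWithinAt
    · intro t ht
      exact hpos _ _
  have h6 := hconv.2 (x := 0) (y := 1) ⟨le_refl _, zero_le_one⟩ ⟨zero_le_one, le_refl _⟩ ha hb hab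
  have e1 : a • x + b • y = x + b • d := by
    have : a = 1 - b := by linarith
    rw [this, hd]; module
  rw [e1]
  have e2 : x + d = y := by rw [hd]; module
  simpa [e2] using h6

end P214
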