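import Vale.Agent.P214.Closed
import Vale.Agent.P214.PM
import Vale.Agent.P214.PL

/-!
KH. Uniform bound. `z` maximum point of `h` on the closed ball of radius `R/4`, `a = h z`, `u = z - c`. For `|y| < R/64`:
`(7/8) a + G z y ≤ h (z + y) - 2 h (c + y) ≤ G (c + y + u) u - G (c + y - u) u = ∫ s in -1..1, M (c + y + s u) u u`.
Integrate over `y` and use Fubini.
-/

namespace P214

open MeasureTheory Set Filter Metric
open scoped Topology ContDiff InnerProductSpace ENNReal

/-- tangent inequality -/
private theorem KH_tan {m : ℕ} {c : Sp m} {R : ℝ} {h : Sp m → ℝ} {G : Sp m → Sp m →L[ℝ] ℝ}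
    (hc : ConvexOn ℝ (ball c R) h) {x y : Sp m} (hx : x ∈ ball c R) (hy : y ∈ ball c R)
    (hG : HasFDerivAt h (G x) x) : h x + G x (y - x) ≤ h y := by
  have h1 : HasDerivAt (fun t : ℝ => h (x + t • (y - x))) (G x (y - x)) 0 := by
    have e1 : HasDerivAt (fun t : ℝ => x + t • (y - x)) (y - x) 0 := by
      have := ((hasDerivAt_id (0 : ℝ)).smul_const (y - x)).const_add x
      simpa using this
    have e2 : HasFDerivAt h (G x) (x + (0 : ℝ) • (y - x)) := by simpa using hG
    exact e2.comp_hasDerivAt (0 : ℝ) e1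
  have h2 : Tendsto (slope (fun t : ℝ => h (x + t • (y - x))) 0) (𝓝[>] 0) (𝓝 (G x (y - x))) :=
    h1.tendsto_slope.mono_left (nhdsWithin_mono _ fun t ht => ne_of_gt ht)
  have h3 : ∀ᶠ t : ℝ in 𝓝[>] 0, slope (fun t : ℝ => h (x + t • (y - x))) 0 t ≤ h y - h x := by
    have h4 : Ioo (0 : ℝ) 1 ∈ 𝓝[>] (0 : ℝ) := Ioo_mem_nhdsGT one_pos
    filter_upwards [h4] with t ht
    rw [slope_def_field, zero_smul, add_zero, sub_zero, div_le_iff₀ ht.1]
    have h5 := hc.2 hx hy (by linarith [ht.2] : (0 : ℝ) ≤ 1 - t) ht.1.le (by ring)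
    have h6 : (1 - t) • x + t • y = x + t • (y - x) := by
      rw [sub_smul, one_smul, smul_sub]; abel
    rw [h6, smul_eq_mul, smul_eq_mul] at h5
    linarith
  have := le_of_tendsto h2 h3
  linarith

/-- fundamental theorem along a segment -/
private theorem KH_ftc {m : ℕ} {c : Sp m} {R : ℝ} {M : Sp m → Sp m →L[ℝ] Sp m →L[ℝ] ℝ}
    (hM : Continuous M) {G : Sp m → Sp m →L[ℝ] ℝ} (hG : ∀ x ∈ ball c R, HasFDerivAt G (M x) x)
    (p u : Sp m) (hp : ∀ s ∈ Icc (-1 : ℝ) 1, p + s • u ∈ ball c R) :
    ∫ s in (-1 : ℝ)..1, M (p + s • u) u u = G (p + u) u - G (p - u) u := by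
  have h1 : ∀ s ∈ uIcc (-1 : ℝ) 1, HasDerivAt (fun s : ℝ => G (p + s • u) u) (M (p + s • u) u u) s := by
    intro s hs
    rw [uIcc_of_le (by norm_num)] at hs
    have e1 : HasDerivAt (fun t : ℝ => p + t • u) u s := by
      have := ((hasDerivAt_id s).smul_const u).const_add p
      simpa using this
    have e2 := (hG _ (hp s hs)).comp_hasDerivAt s e1
    have e3 := e2.clm_apply (hasDerivAt_const s u)
    simpa using e3
  have h2 : Continuous fun s : ℝ => M (p + s • u) u u := by
    have : Continuous fun s : ℝ => M (p + s • u) := hM.comp (by fun_prop)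
    exact (this.clm_apply continuous_const).clm_apply continuous_const
  rw [intervalIntegral.integral_eq_sub_of_hasDerivAt h1 (h2.intervalIntegrable _ _)]
  simp [sub_eq_add_neg]

/-- odd functions -/
private theorem KH_odd {m : ℕ} (L : Sp m →L[ℝ] ℝ) (ρ : ℝ) : ∫ y in ball (0 : Sp m) ρ, L y = 0 := by
  have h1 := (Measure.measurePreserving_neg (volume : Measure (Sp m))).setIntegral_preimage_emb
    (MeasurableEquiv.neg (Sp m)).measurableEmbedding (fun y => L y) (ball (0 : Sp m) ρ)
  have h2 : (Neg.neg ⁻¹' ball (0 : Sp m) ρ) = ball (0 : Sp m) ρ := by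
    ext y
    simp
  rw [h2] at h1
  simp only [map_neg, integral_neg] at h1
  linarith

theorem KH {m : ℕ} (R : ℝ) (hR : 0 < R) (C : ℝ) :
    ∃ C₀ : ℝ, ∀ (c : Sp m) (M : Sp m → Sp m →L[ℝ] Sp m →L[ℝ] ℝ), Continuous M →
      (∀ x v, 0 ≤ M x v v) → (∀ v : Sp m, ‖v‖ ≤ 1 → ∫ x in ball c R, M x v v ≤ C) →
      ∀ (h : Sp m → ℝ) (G : Sp m → Sp m →L[ℝ] ℝ), ConvexOn ℝ (ball c R) h → h c = 0 → G c = 0 →
        (∀ x ∈ ball c R, HasFDerivAt h (G x) x) → (∀ x ∈ ball c R, HasFDerivAt G (M x) x) →
        ∀ x ∈ ball c (R / 4), 0 ≤ h x ∧ h x ≤ C₀ := by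
  set V : ℝ := (volume : Measure (Sp m)).real (ball (0 : Sp m) (R / 64)) with hV
  have hV0 : 0 < V := by
    rw [hV]
    exact ENNReal.toReal_pos (measure_ball_pos _ _ (by positivity)).ne' measure_ball_lt_top.ne
  refine ⟨2 * ((R / 4) ^ 2 * C) / (7 / 8 * V), ?_⟩
  intro c M hM hM0 hMC h G hconv hc0 hGc hG hGM
  have hcR : c ∈ ball c R := mem_ball_self hR
  have hnn : ∀ x ∈ ball c R, 0 ≤ h x := by
    intro x hx
    have := KH_tan (G := G) hconv hcR hx (hG c hcR)
    rw [hc0, hGc] at this
    simpa using this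
  have hcont : ContinuousOn h (closedBall c (R / 4)) := fun x hx =>
    (hG x (closedBall_subset_ball (by linarith) hx)).continuousAt.continuousWithinAt
  obtain ⟨z, hz, hzmax⟩ := (isCompact_closedBall c (R / 4)).exists_isMaxOn
    ⟨c, mem_closedBall_self (by positivity)⟩ hcont
  have hzm : ∀ x ∈ closedBall c (R / 4), h x ≤ h z := fun x hx => hzmax hx
  obtain ⟨u, hu⟩ : ∃ u : Sp m, u = z - c := ⟨_, rfl⟩
  have hun : ‖u‖ ≤ R / 4 := by
    rw [hu, ← dist_eq_norm]
    exact hz
  -- lines stay in the ball
  have hline : ∀ y ∈ ball (0 : Sp m) (R / 64), ∀ s ∈ Icc (-1 : ℝ) 1, c + y + s • u ∈ ball c R := by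
    intro y hy s hs
    rw [mem_ball_zero_iff] at hy
    rw [mem_ball, dist_eq_norm]
    have e1 : c + y + s • u - c = y + s • u := by abel
    rw [e1]
    have e2 : ‖s • u‖ ≤ ‖u‖ := by
      rw [norm_smul]
      have : ‖s‖ ≤ 1 := by
        rw [Real.norm_eq_abs, abs_le]
        exact hs
      nlinarith [norm_nonneg u]
    have e3 := norm_add_le y (s • u)
    linarith
  -- pointwise estimate
  have hpt : ∀ y ∈ ball (0 : Sp m) (R / 64),
      7 / 8 * h z + G z y ≤ ∫ s in (-1 : ℝ)..1, M (c + y + s • u) u u := by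
    intro y hy
    have hy' := hy
    rw [mem_ball_zero_iff] at hy'
    have b1 : c + y + u ∈ ball c R := by
      have := hline y hy 1 (by norm_num)
      rwa [one_smul] at this
    have b2 : c + y - u ∈ ball c R := by
      have := hline y hy (-1) (by norm_num)
      rwa [neg_smul, one_smul, ← sub_eq_add_neg] at this
    have b0 : c + y ∈ ball c R := by
      have := hline y hy 0 (by norm_num)
      rwa [zero_smul, add_zero] at this
    have b3 : z + y = c + y + u := by rw [hu]; abel
    have b4 : c + (16 : ℝ) • y ∈ closedBall c (R / 4) := by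
      rw [mem_closedBall, dist_eq_norm, add_sub_cancel_left, norm_smul]
      norm_num
      linarith
    rw [KH_ftc hM hGM (c + y) u (hline y hy)]
    have t1 := KH_tan (G := G) hconv b1 b0 (hG _ b1)
    have t2 := KH_tan (G := G) hconv b2 b0 (hG _ b2)
    have t3 := KH_tan (G := G) hconv (closedBall_subset_ball (by linarith) hz) b1
      (hG _ (closedBall_subset_ball (by linarith) hz))
    have e1 : c + y - (c + y + u) = -u := by abel
    have e2 : c + y - (c + y - u) = u := by abel
    have e3 : c + y + u - z = y := by rw [hu]; abel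
    rw [e1, map_neg] at t1
    rw [e2] at t2
    rw [e3] at t3
    have t4 := hnn _ b2
    have t5 : h (c + y) ≤ h z / 16 := by
      have e4 := hconv.2 hcR (closedBall_subset_ball (by linarith : R / 4 < R) b4)
        (by norm_num : (0 : ℝ) ≤ 15 / 16) (by norm_num : (0 : ℝ) ≤ 1 / 16) (by norm_num)
      have e5 : (15 / 16 : ℝ) • c + (1 / 16 : ℝ) • (c + (16 : ℝ) • y) = c + y := by
        rw [smul_add, smul_smul, ← add_assoc, ← add_smul]
        norm_num
      rw [e5, hc0, smul_zero, zero_add, smul_eq_mul] at e4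
      have e6 := hzm _ b4
      linarith
    linarith
  -- integrate
  have hFc : Continuous fun p : Sp m × ℝ => M (c + p.1 + p.2 • u) u u := by
    have : Continuous fun p : Sp m × ℝ => M (c + p.1 + p.2 • u) := hM.comp (by fun_prop)
    exact (this.clm_apply continuous_const).clm_apply continuous_const
  have hint : Integrable (Function.uncurry fun (y : Sp m) (s : ℝ) => M (c + y + s • u) u u)
      (((volume : Measure (Sp m)).restrict (ball 0 (R / 64))).prod
        ((volume : Measure ℝ).restrict (Ioc (-1) 1))) := by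
    rw [Measure.prod_restrict]
    have h1 : IntegrableOn (fun p : Sp m × ℝ => M (c + p.1 + p.2 • u) u u)
        (closedBall 0 (R / 64) ×ˢ Icc (-1) 1) ((volume : Measure (Sp m)).prod volume) :=
      hFc.continuousOn.integrableOn_compact ((isCompact_closedBall _ _).prod isCompact_Icc)
    exact h1.mono_set (prod_mono ball_subset_closedBall Ioc_subset_Icc_self)
  have hswap : ∫ y in ball (0 : Sp m) (R / 64), ∫ s in (-1 : ℝ)..1, M (c + y + s • u) u u
      = ∫ s in Ioc (-1 : ℝ) 1, ∫ y in ball (0 : Sp m) (R / 64), M (c + y + s • u) u u := by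
    have e1 : ∀ y : Sp m, ∫ s in (-1 : ℝ)..1, M (c + y + s • u) u u
        = ∫ s in Ioc (-1 : ℝ) 1, M (c + y + s • u) u u := fun y =>
      intervalIntegral.integral_of_le (by norm_num)
    simp_rw [e1]
    exact integral_integral_swap hint
  have hslice : ∀ s ∈ Ioc (-1 : ℝ) 1,
      ∫ y in ball (0 : Sp m) (R / 64), M (c + y + s • u) u u ≤ (R / 4) ^ 2 * C := by
    intro s hs
    have hFx : Continuous fun x : Sp m => M x u u :=
      (hM.clm_apply continuous_const).clm_apply continuous_const
    have h1 := (measurePreserving_add_left (volume : Measure (Sp m)) (c + s • u)).setIntegral_preimage_emb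
      (measurableEmbedding_addLeft (c + s • u)) (fun x => M x u u) (ball (c + s • u) (R / 64))
    have h2 : ((fun y => c + s • u + y) ⁻¹' ball (c + s • u) (R / 64)) = ball (0 : Sp m) (R / 64) := by
      ext y
      simp
    rw [h2] at h1
    have h3 : ∀ y : Sp m, c + y + s • u = c + s • u + y := fun y => by abel
    simp_rw [h3]
    rw [h1]
    have hsub : ball (c + s • u) (R / 64) ⊆ ball c R := by
      intro x hx
      have := hline (x - (c + s • u)) (by
        rw [mem_ball_zero_iff, ← dist_eq_norm]; exact hx) s (Ioc_subset_Icc_self hs)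
      have e1 : c + (x - (c + s • u)) + s • u = x := by abel
      rwa [e1] at this
    have hI : IntegrableOn (fun x : Sp m => M x u u) (ball c R) :=
      (hFx.continuousOn.integrableOn_compact (isCompact_closedBall c R)).mono_set ball_subset_closedBall
    refine (setIntegral_mono_set hI (Eventually.of_forall fun x => hM0 x u)
      (Eventually.of_forall fun x hx => hsub hx)).trans ?_
    have e1 : ∀ x, M x u u = (R / 4) ^ 2 * M x ((4 / R) • u) ((4 / R) • u) := by
      intro x
      rw [map_smul, map_smul, ContinuousLinearMap.smul_apply, smul_eq_mul, smul_eq_mul]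
      field_simp
    simp_rw [e1]
    rw [integral_const_mul]
    refine mul_le_mul_of_nonneg_left (hMC _ ?_) (by positivity)
    rw [norm_smul, Real.norm_of_nonneg (by positivity), div_mul_eq_mul_div, div_le_one hR]
    linarith
  have htot : ∫ y in ball (0 : Sp m) (R / 64), ∫ s in (-1 : ℝ)..1, M (c + y + s • u) u u
      ≤ 2 * ((R / 4) ^ 2 * C) := by
    rw [hswap]
    have h1 : ∫ s in Ioc (-1 : ℝ) 1, ∫ y in ball (0 : Sp m) (R / 64), M (c + y + s • u) u u
        ≤ ∫ s in Ioc (-1 : ℝ) 1, (R / 4) ^ 2 * C := by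
      refine integral_mono_of_nonneg (Eventually.of_forall fun s =>
        integral_nonneg fun y => hM0 _ u) (integrable_const _) ?_
      exact (ae_restrict_iff' measurableSet_Ioc).2 (Eventually.of_forall hslice)
    refine h1.trans (le_of_eq ?_)
    rw [setIntegral_const, Measure.real, Real.volume_Ioc, smul_eq_mul]
    norm_num
  have hlow : 7 / 8 * h z * V ≤ ∫ y in ball (0 : Sp m) (R / 64), ∫ s in (-1 : ℝ)..1, M (c + y + s • u) u u := by
    have e1 : ∫ y in ball (0 : Sp m) (R / 64), (7 / 8 * h z + G z y) = 7 / 8 * h z * V := by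
      have i2 : IntegrableOn (fun y : Sp m => G z y) (ball 0 (R / 64)) :=
        ((G z).continuous.continuousOn.integrableOn_compact
          (isCompact_closedBall (0 : Sp m) (R / 64))).mono_set ball_subset_closedBall
      have i0 : IntegrableOn (fun _ : Sp m => 7 / 8 * h z) (ball 0 (R / 64)) :=
        ((continuous_const (y := 7 / 8 * h z)).continuousOn.integrableOn_compact
          (isCompact_closedBall (0 : Sp m) (R / 64))).mono_set ball_subset_closedBall
      rw [integral_add i0 i2, KH_odd, add_zero, setIntegral_const, smul_eq_mul,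
        ← hV, mul_comm]
    rw [← e1]
    have i1 : IntegrableOn (fun y : Sp m => 7 / 8 * h z + G z y) (ball 0 (R / 64)) :=
      ((continuous_const.add (G z).continuous).continuousOn.integrableOn_compact
        (isCompact_closedBall (0 : Sp m) (R / 64))).mono_set ball_subset_closedBall
    have i3 : IntegrableOn (fun y : Sp m => ∫ s in (-1 : ℝ)..1, M (c + y + s • u) u u)
        (ball 0 (R / 64)) := by
      have e2 : ∀ y : Sp m, ∫ s in (-1 : ℝ)..1, M (c + y + s • u) u u
          = ∫ s in Ioc (-1 : ℝ) 1, M (c + y + s • u) u u := fun y =>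
        intervalIntegral.integral_of_le (by norm_num)
      simp_rw [e2]
      exact hint.integral_prod_left
    exact setIntegral_mono_on i1 i3 measurableSet_ball hpt
  intro x hx
  refine ⟨hnn x (ball_subset_ball (by linarith) hx), ?_⟩
  refine (hzm x (ball_subset_closedBall hx)).trans ?_
  rw [le_div_iff₀ (by positivity)]
  linarith

end P214
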