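import Vale.Agent.P214.Closed

/-!
KI. Selection: uniformly bounded convex functions on a ball have a subsequence converging pointwise (countable dense set, compactness of a countable product of intervals gives a convergent subsequence, equi-Lipschitz on smaller balls) to a convex function.
-/

namespace P214

open MeasureTheory Set Filter Metric
open scoped Topology ContDiff InnerProductSpace ENNReal

theorem KI {m : ℕ} (c : Sp m) (R C : ℝ) (hR : 0 < R) (h : ℕ → Sp m → ℝ)
    (hc : ∀ n, ConvexOn ℝ (ball c R) (h n)) (hb : ∀ n, ∀ x ∈ ball c R, 0 ≤ h n x ∧ h n x ≤ C) :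
    ∃ (s : ℕ → ℕ) (F : Sp m → ℝ), StrictMono s ∧ ConvexOn ℝ (ball c R) F ∧
      ∀ x ∈ ball c R, Tendsto (fun n => h (s n) x) atTop (𝓝 (F x)) := by
  classical
  have hC : 0 ≤ C := (hb 0 c (mem_ball_self hR)).1.trans (hb 0 c (mem_ball_self hR)).2
  let u : ℕ → Sp m := TopologicalSpace.denseSeq (Sp m)
  have hu : DenseRange u := TopologicalSpace.denseRange_denseSeq _
  let X : ℕ → ℕ → ℝ := fun n k => if u k ∈ ball c R then h n (u k) else 0
  have hX : ∀ n, X n ∈ Set.pi Set.univ (fun _ : ℕ => Icc (0:ℝ) C) := by
    intro n k _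
    change (if u k ∈ ball c R then h n (u k) else 0) ∈ Icc (0:ℝ) C
    split_ifs with hk
    · exact hb n _ hk
    · exact ⟨le_rfl, hC⟩
  obtain ⟨a, ha, s, hs, hlim⟩ := (isCompact_univ_pi fun _ : ℕ =>
    isCompact_Icc (a := (0:ℝ)) (b := C)).tendsto_subseq hX
  have hlim' : ∀ k, Tendsto (fun n => X (s n) k) atTop (𝓝 (a k)) :=
    fun k => (tendsto_pi_nhds.mp hlim) k
  have hconv : ∀ x ∈ ball c R, ∃ l, Tendsto (fun n => h (s n) x) atTop (𝓝 l) := by
    intro x hx
    apply cauchySeq_tendsto_of_complete
    rw [Metric.cauchySeq_iff']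
    intro η hη
    have hxR : dist x c < R := hx
    set ε := (R - dist x c) / 2 with hε
    have hε0 : 0 < ε := by linarith
    have hLip : ∀ n, LipschitzOnWith (2 * C / ε).toNNReal (h n) (ball c (R - ε)) := fun n =>
      (hc n).lipschitzOnWith_of_abs_le hε0 fun y hy => by
        rw [abs_of_nonneg (hb n y hy).1]
        exact (hb n y hy).2
    set K : ℝ := 2 * C / ε with hK
    have hK0 : 0 ≤ K := by positivity
    have hxs : x ∈ ball c (R - ε) := by
      rw [mem_ball]
      linarith
    have hopen : IsOpen (ball c (R - ε) ∩ ball x (η / (4 * (K + 1)))) := isOpen_ball.inter isOpen_ball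
    obtain ⟨k, hk1, hk2⟩ := hu.exists_mem_open hopen
      ⟨x, hxs, mem_ball_self (by positivity)⟩
    have hkR : u k ∈ ball c R := ball_subset_ball (by linarith) hk1
    have hX' : ∀ n, X n k = h n (u k) := fun n => if_pos hkR
    have hcau : CauchySeq fun n => h (s n) (u k) := by
      have h1 := (hlim' k).cauchySeq
      simp only [hX'] at h1
      exact h1
    obtain ⟨N, hN⟩ := (Metric.cauchySeq_iff'.mp hcau) (η / 4) (by positivity)
    refine ⟨N, fun n hn => ?_⟩
    have h2 := hN n hn
    have hd : K * dist x (u k) ≤ η / 4 := by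
      have h3 : dist x (u k) < η / (4 * (K + 1)) := by
        rw [dist_comm]
        exact hk2
      have h4 : (K + 1) * dist x (u k) ≤ η / 4 := by
        have h5 := mul_le_mul_of_nonneg_left h3.le (by linarith : (0:ℝ) ≤ K + 1)
        have h6 : (K + 1) * (η / (4 * (K + 1))) = η / 4 := by
          field_simp
        linarith
      nlinarith [dist_nonneg (x := x) (y := u k)]
    have hL : ∀ n, dist (h n x) (h n (u k)) ≤ η / 4 := by
      intro n
      have h3 := (hLip n).dist_le_mul x hxs (u k) hk1
      rw [Real.coe_toNNReal _ hK0] at h3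
      exact h3.trans hd
    calc dist (h (s n) x) (h (s N) x)
        ≤ dist (h (s n) x) (h (s n) (u k)) + dist (h (s n) (u k)) (h (s N) (u k))
          + dist (h (s N) (u k)) (h (s N) x) := dist_triangle4 _ _ _ _
      _ < η := by
        have h3 := hL (s n)
        have h4 := hL (s N)
        rw [dist_comm (h (s N) x)] at h4
        linarith
  choose! F hF using hconv
  refine ⟨s, F, hs, ⟨convex_ball c R, ?_⟩, hF⟩
  intro x hx y hy p q hp hq hpq
  have hz : p • x + q • y ∈ ball c R := convex_ball c R hx hy hp hq hpq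
  refine le_of_tendsto_of_tendsto' (hF _ hz)
    (((hF x hx).const_mul p).add ((hF y hy).const_mul q)) fun n => ?_
  exact (hc (s n)).2 hx hy hp hq hpq

end P214
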