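import Vale.Agent.P214.Closed

/-!
KJ. Integration by parts twice against a test function supported in the ball.
-/

namespace P214

open MeasureTheory Set Filter Metric
open scoped Topology ContDiff InnerProductSpace ENNReal

private theorem KJ_int {m : ℕ} (c : Sp m) (R : ℝ) (f k : Sp m → ℝ)
    (hf : ∀ x ∈ ball c R, ContinuousAt f x) (hk : Continuous k) (hkc : HasCompactSupport k)
    (hs : tsupport k ⊆ ball c R) : Integrable (fun x => f x * k x) := by
  have hsub : tsupport (fun x => f x * k x) ⊆ tsupport k :=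
    closure_mono (fun x hx => right_ne_zero_of_mul hx)
  have hc : Continuous (fun x => f x * k x) :=
    continuous_of_tsupport fun x hx => (hf x (hs (hsub hx))).mul hk.continuousAt
  exact hc.integrable_of_hasCompactSupport hkc.mul_left

private theorem KJ_ibp {m : ℕ} (c : Sp m) (R : ℝ) (f : Sp m → ℝ) (f' : Sp m → Sp m →L[ℝ] ℝ)
    (ψ : Sp m → ℝ) (e : Sp m)
    (hf : ∀ x ∈ ball c R, HasFDerivAt f (f' x) x)
    (hf' : ∀ x ∈ ball c R, ContinuousAt (fun y => f' y e) x)
    (hψ : ContDiff ℝ 1 ψ) (hψc : HasCompactSupport ψ) (hs : tsupport ψ ⊆ ball c R) :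
    ∫ x, f x * fderiv ℝ ψ x e = -∫ x, ψ x * f' x e := by
  have hd : Continuous (fun x => fderiv ℝ ψ x e) :=
    (hψ.continuous_fderiv (by norm_num)).clm_apply continuous_const
  have hdc : HasCompactSupport (fun x => fderiv ℝ ψ x e) := hψc.fderiv_apply (𝕜 := ℝ) e
  have hds : tsupport (fun x => fderiv ℝ ψ x e) ⊆ ball c R :=
    (tsupport_fderiv_apply_subset ℝ e).trans hs
  have h1 := integral_bilinear_hasFDerivAt_right_eq_neg_left_of_integrable
    (μ := (volume : Measure (Sp m))) (f := f) (f' := f') (g := ψ) (g' := fderiv ℝ ψ) (v := e)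
    (B := ContinuousLinearMap.mul ℝ ℝ)
    (KJ_int c R (fun x => f' x e) ψ hf' hψ.continuous hψc hs)
    (KJ_int c R f (fun x => fderiv ℝ ψ x e) (fun x hx => (hf x hx).continuousAt) hd hdc hds)
    (KJ_int c R f ψ (fun x hx => (hf x hx).continuousAt) hψ.continuous hψc hs)
    (fun x hx => hf x (hs hx))
    (fun x _ => ((hψ.differentiable (by norm_num)) x).hasFDerivAt)
  simp only [ContinuousLinearMap.mul_apply'] at h1
  rw [h1]
  congr 1
  refine integral_congr_ae (ae_of_all _ fun x => ?_)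
  exact mul_comm _ _

theorem KJ {m : ℕ} (c : Sp m) (R : ℝ) (M : Sp m → Sp m →L[ℝ] Sp m →L[ℝ] ℝ)
    (hM : Continuous M) (h : Sp m → ℝ) (G : Sp m → Sp m →L[ℝ] ℝ)
    (hh : ∀ x ∈ ball c R, HasFDerivAt h (G x) x) (hG : ∀ x ∈ ball c R, HasFDerivAt G (M x) x)
    (φ : Sp m → ℝ) (hφ : ContDiff ℝ ∞ φ) (hφc : HasCompactSupport φ)
    (hs : tsupport φ ⊆ ball c R) (v w : Sp m) :
    ∫ x, h x * fderiv ℝ (fderiv ℝ φ) x v w = ∫ x, φ x * M x v w := by
  have hfd : ContDiff ℝ 1 (fderiv ℝ φ) := hφ.fderiv_right (m := 1) (by norm_cast)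
  have hsymm : ∀ x, fderiv ℝ (fderiv ℝ φ) x v w = fderiv ℝ (fderiv ℝ φ) x w v := by
    intro x
    have h1 : IsSymmSndFDerivAt ℝ φ x := by
      apply ContDiffAt.isSymmSndFDerivAt (n := 2)
      · exact (hφ.of_le (by norm_cast)).contDiffAt
      · simp
    exact h1.eq v w
  have hψ : ContDiff ℝ 1 (fun x => fderiv ℝ φ x v) := hfd.clm_apply contDiff_const
  have hψc : HasCompactSupport (fun x => fderiv ℝ φ x v) := hφc.fderiv_apply (𝕜 := ℝ) v
  have hψs : tsupport (fun x => fderiv ℝ φ x v) ⊆ ball c R :=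
    (tsupport_fderiv_apply_subset ℝ v).trans hs
  have hGc : ∀ x ∈ ball c R, ContinuousAt (fun y => G y w) x := fun x hx =>
    (hG x hx).continuousAt.clm_apply continuousAt_const
  have hd2 : ∀ x, fderiv ℝ (fun y => fderiv ℝ φ y v) x w = fderiv ℝ (fderiv ℝ φ) x w v := by
    intro x
    have h1 : HasFDerivAt (fderiv ℝ φ) (fderiv ℝ (fderiv ℝ φ) x) x :=
      (hfd.differentiable (by norm_num) x).hasFDerivAt
    have h2 : HasFDerivAt (fun y => fderiv ℝ φ y v) ((fderiv ℝ (fderiv ℝ φ) x).flip v) x := by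
      have h3 := h1.clm_apply (hasFDerivAt_const v x)
      simpa using h3
    rw [h2.fderiv]
    rfl
  have e1 := KJ_ibp c R h G (fun x => fderiv ℝ φ x v) w hh hGc hψ hψc hψs
  have e2 := KJ_ibp c R (fun x => G x w) (fun x => (M x).flip w) φ v
    (fun x hx => by
      have h3 := (hG x hx).clm_apply (hasFDerivAt_const w x)
      simpa using h3)
    (fun x _ => by
      have h4 : Continuous fun y => M y v w := (hM.clm_apply continuous_const).clm_apply
        continuous_const
      exact h4.continuousAt)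
    (hφ.of_le (by norm_cast)) hφc hs
  calc ∫ x, h x * fderiv ℝ (fderiv ℝ φ) x v w
      = ∫ x, h x * fderiv ℝ (fun y => fderiv ℝ φ y v) x w := by
        refine integral_congr_ae (ae_of_all _ fun x => ?_)
        simp only [hd2, hsymm]
    _ = -∫ x, fderiv ℝ φ x v * G x w := e1
    _ = -∫ x, G x w * fderiv ℝ φ x v := by
        congr 1
        refine integral_congr_ae (ae_of_all _ fun x => ?_)
        exact mul_comm _ _
    _ = ∫ x, φ x * M x v w := by
        rw [e2, neg_neg]
        rfl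

end P214
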