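import Vale.Agent.P214.Closed
import Vale.Agent.P214.KA
import Vale.Agent.P214.KB
import Vale.Agent.P214.KC
import Vale.Agent.P214.KD
import Vale.Agent.P214.KE
import Vale.Agent.P214.KF
import Vale.Agent.P214.KG
import Vale.Agent.P214.KH
import Vale.Agent.P214.KI
import Vale.Agent.P214.KJ

/-!
KK. Existence of a convex local potential.
-/

namespace P214

open MeasureTheory Set Filter Metric
open scoped Topology ContDiff InnerProductSpace ENNReal

theorem KK {m : ℕ} (U : Set (Sp m)) (hU : IsOpen U) (μ : Measure (Sp m)) (ν : Sp m → Sp m)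
    (hV : IsIntegralVarifold U μ ν) (hcl : IsClosedTensor U μ ν) (c : Sp m) (hc : c ∈ U) :
    ∃ (r : ℝ) (F : Sp m → ℝ), 0 < r ∧ ball c r ⊆ U ∧ ConvexOn ℝ (ball c r) F ∧
      ∀ φ : Sp m → ℝ, ContDiff ℝ ∞ φ → HasCompactSupport φ → tsupport φ ⊆ ball c r →
        ∀ v w : Sp m, ∫ x, F x * fderiv ℝ (fderiv ℝ φ) x v w
          = ∫ x, φ x * (⟪ν x, v⟫_ℝ * ⟪ν x, w⟫_ℝ) ∂μ := by
  obtain ⟨R₀, hR₀, hR₀U⟩ := Metric.isOpen_iff.1 hU c hc
  set R : ℝ := R₀ / 4 with hRdef
  have hR : 0 < R := by positivity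
  have hclU : closedBall c (2 * R) ⊆ U :=
    (closedBall_subset_ball (by rw [hRdef]; linarith)).trans hR₀U
  set κ : Measure (Sp m) := μ.restrict (closedBall c (2 * R)) with hκ
  have hfin : μ (closedBall c (2 * R)) < ⊤ := hV.2.1 _ (isCompact_closedBall _ _) hclU
  have : IsFiniteMeasure κ := ⟨by rw [hκ, Measure.restrict_apply_univ]; exact hfin⟩
  have h1 : ∀ᵐ y ∂κ, ‖ν y‖ = 1 := by
    refine ae_restrict_of_ae ?_
    filter_upwards [hV.2.2.2] with y hy
    obtain ⟨q, hq⟩ := hy
    exact hq.1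
  have hν : Measurable ν := hV.2.2.1
  -- bumps
  let b : ℕ → ContDiffBump (0 : Sp m) := fun n =>
    { rIn := R / (2 * (n + 2))
      rOut := R / (n + 2)
      rIn_pos := by positivity
      rIn_lt_rOut := by
        apply div_lt_div_of_pos_left hR (by positivity)
        have : (0 : ℝ) ≤ n := Nat.cast_nonneg n
        linarith }
  let ρ : ℕ → Sp m → ℝ := fun n => (b n).normed volume
  have hρ : ∀ n, ContDiff ℝ ∞ (ρ n) := fun n => (b n).contDiff_normed
  have hρc : ∀ n, HasCompactSupport (ρ n) := fun n => (b n).hasCompactSupport_normed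
  have hρ0 : ∀ n x, 0 ≤ ρ n x := fun n x => (b n).nonneg_normed x
  have hρi : ∀ n, ∫ x, ρ n x = 1 := fun n => (b n).integral_normed
  have hρs : ∀ n, tsupport (ρ n) ⊆ closedBall 0 (R / (n + 2)) := fun n => by
    have := (b n).tsupport_normed_eq (μ := (volume : Measure (Sp m)))
    exact this.subset
  have hδ : Tendsto (fun n : ℕ => R / ((n : ℝ) + 2)) atTop (𝓝 0) := by
    have : Tendsto (fun n : ℕ => (n : ℝ) + 2) atTop atTop :=
      tendsto_atTop_add_const_right _ _ tendsto_natCast_atTop_atTop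
    exact this.const_div_atTop R
  have hρb : ∀ n, tsupport (ρ n) ⊆ ball 0 R := fun n => (hρs n).trans (closedBall_subset_ball (by
    rw [div_lt_iff₀ (by positivity)]
    have : (0 : ℝ) ≤ n := Nat.cast_nonneg n
    nlinarith))
  let M : ℕ → Sp m → Sp m →L[ℝ] Sp m →L[ℝ] ℝ := fun n => mol κ ν (ρ n)
  have hMd : ∀ n, Differentiable ℝ (M n) := fun n => (KB κ ν hν h1 (ρ n) (hρ n) (hρc n)).1
  have hMv : ∀ n x v w, M n x v w = ∫ y, ρ n (x - y) * (⟪ν y, v⟫_ℝ * ⟪ν y, w⟫_ℝ) ∂κ :=
    fun n x v w => KA κ ν hν h1 (ρ n) (hρ n) (hρc n) x v w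
  have hsym : ∀ n x v w, M n x v w = M n x w v := by
    intro n x v w
    rw [hMv, hMv]
    congr 1
    funext y
    ring
  have hpos : ∀ n x v, 0 ≤ M n x v v := by
    intro n x v
    rw [hMv]
    exact integral_nonneg fun y => mul_nonneg (hρ0 n _) (mul_self_nonneg _)
  have hclM : ∀ n, ∀ x ∈ ball c R, ∀ u v w : Sp m,
      fderiv ℝ (M n) x u v w = fderiv ℝ (M n) x v u w := fun n x hx u v w =>
    KC U μ ν hV hcl c R hR hclU (ρ n) (hρ n) (hρc n) (hρb n) x hx u v w
  have hKF := fun n => KF c R hR (M n) (hMd n) (hsym n) (hclM n)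
  choose h G hhc hGc hh hG using hKF
  have hconv : ∀ n, ConvexOn ℝ (ball c R) (h n) := fun n =>
    KG c R (M n) (hpos n) (h n) (G n) (hh n) (hG n)
  obtain ⟨C₀, hC₀⟩ := KH (m := m) R hR (κ.real univ)
  have hbd : ∀ n, ∀ x ∈ ball c (R / 4), 0 ≤ h n x ∧ h n x ≤ C₀ := fun n =>
    hC₀ c (M n) (hMd n).continuous (hpos n)
      (fun v hv => KD κ ν hν h1 (ρ n) (hρ n) (hρc n) (hρ0 n) (hρi n) (ball c R)
        measurableSet_ball v hv) (h n) (G n) (hconv n) (hhc n) (hGc n) (hh n) (hG n)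
  have hR4 : 0 < R / 4 := by positivity
  have hsubb : ball c (R / 4) ⊆ ball c R := ball_subset_ball (by linarith)
  obtain ⟨s, F, hs, hF, hlim⟩ := KI c (R / 4) C₀ hR4 h
    (fun n => (hconv n).subset hsubb (convex_ball _ _)) hbd
  refine ⟨R / 4, F, hR4, ?_, hF, ?_⟩
  · exact (hsubb.trans (ball_subset_closedBall.trans
      (closedBall_subset_closedBall (by linarith)))).trans hclU
  intro φ hφ hφc hφs v w
  have hφR : tsupport φ ⊆ ball c R := hφs.trans hsubb
  have e1 : ∀ n, ∫ x, h n x * fderiv ℝ (fderiv ℝ φ) x v w = ∫ x, φ x * M n x v w := fun n =>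
    KJ c R (M n) (hMd n).continuous (h n) (G n) (hh n) (hG n) φ hφ hφc hφR v w
  have e2 : Tendsto (fun n => ∫ x, φ x * M (s n) x v w) atTop
      (𝓝 (∫ x, φ x * (⟪ν x, v⟫_ℝ * ⟪ν x, w⟫_ℝ) ∂κ)) :=
    (KE κ ν hν h1 ρ hρ hρc hρ0 hρi (fun n => R / ((n : ℝ) + 2)) hδ hρs φ hφ hφc v w).comp
      hs.tendsto_atTop
  have hD2c : Continuous (fun x => fderiv ℝ (fderiv ℝ φ) x v w) := by
    have h2 : ContDiff ℝ 1 (fderiv ℝ φ) := (hφ.of_le (m := 2) (by norm_cast)).fderiv_right
      (by norm_num)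
    exact ((h2.continuous_fderiv (by norm_num)).clm_apply continuous_const).clm_apply
      continuous_const
  have hD2s : ∀ x, x ∉ tsupport φ → fderiv ℝ (fderiv ℝ φ) x v w = 0 := by
    intro x hx
    have h3 : x ∉ tsupport (fderiv ℝ (fderiv ℝ φ)) := fun hx' =>
      hx (tsupport_fderiv_subset ℝ (tsupport_fderiv_subset ℝ hx'))
    rw [image_eq_zero_of_notMem_tsupport h3]
    rfl
  have e3 : Tendsto (fun n => ∫ x, h (s n) x * fderiv ℝ (fderiv ℝ φ) x v w) atTop
      (𝓝 (∫ x, F x * fderiv ℝ (fderiv ℝ φ) x v w)) := by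
    obtain ⟨B, hB⟩ : ∃ B, ∀ x, ‖fderiv ℝ (fderiv ℝ φ) x v w‖ ≤ B := by
      have hcs : HasCompactSupport (fun x => fderiv ℝ (fderiv ℝ φ) x v w) :=
        HasCompactSupport.intro hφc hD2s
      exact hcs.exists_bound_of_continuous hD2c
    have hC0 : 0 ≤ C₀ := by
      have := hbd 0 c (mem_ball_self hR4)
      linarith
    refine tendsto_integral_of_dominated_convergence
      (indicator (tsupport φ) fun _ => C₀ * B) ?_ ?_ ?_ ?_
    · intro n
      have : (fun x => h (s n) x * fderiv ℝ (fderiv ℝ φ) x v w)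
          = indicator (ball c R) (fun x => h (s n) x * fderiv ℝ (fderiv ℝ φ) x v w) := by
        funext x
        by_cases hx : x ∈ ball c R
        · rw [indicator_of_mem hx]
        · rw [indicator_of_notMem hx, hD2s x (fun h => hx (hφR h)), mul_zero]
      rw [this, aestronglyMeasurable_indicator_iff measurableSet_ball]
      refine ContinuousOn.aestronglyMeasurable ?_ measurableSet_ball
      have hcn : ContinuousOn (h (s n)) (ball c R) := fun x hx =>
        (hh (s n) x hx).continuousAt.continuousWithinAt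
      exact hcn.mul hD2c.continuousOn
    · exact (integrable_indicator_iff hφc.isCompact.measurableSet).2
        (integrableOn_const hφc.isCompact.measure_lt_top.ne)
    · intro n
      refine Eventually.of_forall fun x => ?_
      by_cases hx : x ∈ tsupport φ
      · rw [indicator_of_mem hx, norm_mul]
        have := hbd (s n) x (hφs hx)
        refine mul_le_mul ?_ (hB x) (norm_nonneg _) hC0
        rw [Real.norm_of_nonneg this.1]
        exact this.2
      · rw [indicator_of_notMem hx, hD2s x hx, mul_zero, norm_zero]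
    · refine Eventually.of_forall fun x => ?_
      by_cases hx : x ∈ ball c (R / 4)
      · exact (hlim x hx).mul_const _
      · simp only [hD2s x (fun h => hx (hφs h)), mul_zero]
        exact tendsto_const_nhds
  have e4 : ∫ x, F x * fderiv ℝ (fderiv ℝ φ) x v w
      = ∫ x, φ x * (⟪ν x, v⟫_ℝ * ⟪ν x, w⟫_ℝ) ∂κ := by
    refine tendsto_nhds_unique e3 ?_
    refine e2.congr fun n => ?_
    exact (e1 (s n)).symm
  rw [e4, hκ]
  refine setIntegral_eq_integral_of_forall_compl_eq_zero fun x hx => ?_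
  have : φ x = 0 := by
    refine image_eq_zero_of_notMem_tsupport fun h => hx ?_
    exact ball_subset_closedBall.trans (closedBall_subset_closedBall (by linarith)) (hφR h)
  rw [this, zero_mul]

end P214
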