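import Vale.Agent.P214.Closed

/-!
KL. Restriction of an integral varifold to a smaller open set.
-/

namespace P214

open MeasureTheory Set Filter Metric
open scoped Topology ContDiff InnerProductSpace ENNReal

private theorem KL_plane {m : ℕ} {μ : Measure (Sp m)} {B : Set (Sp m)} (hB : IsOpen B)
    {x v : Sp m} {q : ℕ} (hx : x ∈ B) (h : HasTangentPlane μ x v q) :
    HasTangentPlane (μ.restrict B) x v q := by
  obtain ⟨h1, h2, h3⟩ := h
  refine ⟨h1, h2, fun φ hφ hφc => ?_⟩
  refine (h3 φ hφ hφc).congr' ?_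
  obtain ⟨R, hR⟩ := hφc.isCompact.isBounded.subset_closedBall (0 : Sp m)
  obtain ⟨δ, hδ, hδB⟩ := Metric.isOpen_iff.1 hB x hx
  have hpos : 0 < |R| + 1 := by positivity
  filter_upwards [Ioo_mem_nhdsGT (div_pos hδ hpos)] with s hs
  have hs0 : 0 < s := hs.1
  have hs1 : s * (|R| + 1) < δ := (lt_div_iff₀ hpos).1 hs.2
  congr 1
  refine (setIntegral_eq_integral_of_forall_compl_eq_zero fun y hy => ?_).symm
  refine image_eq_zero_of_notMem_tsupport fun hmem => ?_
  have h4 := hR hmem
  rw [mem_closedBall, dist_zero_right, norm_smul, norm_inv, Real.norm_of_nonneg hs0.le,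
    inv_mul_le_iff₀ hs0] at h4
  have h5 : δ ≤ dist y x := not_lt.1 fun h => hy (hδB (mem_ball.2 h))
  have h7 : dist y x = ‖y - x‖ := dist_eq_norm _ _
  have h8 : s * R ≤ s * |R| := mul_le_mul_of_nonneg_left (le_abs_self R) hs0.le
  nlinarith

theorem KL {m : ℕ} (U B : Set (Sp m)) (hB : IsOpen B) (hBU : B ⊆ U) (μ : Measure (Sp m))
    (ν : Sp m → Sp m) (hV : IsIntegralVarifold U μ ν) :
    IsIntegralVarifold B (μ.restrict B) ν := by
  refine ⟨?_, ?_, hV.2.2.1, ?_⟩
  · rw [Measure.restrict_apply hB.measurableSet.compl, compl_inter_self, measure_empty]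
  · intro K hK hKB
    exact (Measure.restrict_apply_le B K).trans_lt (hV.2.1 K hK (hKB.trans hBU))
  · filter_upwards [ae_restrict_of_ae hV.2.2.2, ae_restrict_mem hB.measurableSet] with x hx hxb
    obtain ⟨q, hq⟩ := hx
    exact ⟨q, KL_plane hB hxb hq⟩

end P214
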