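import Vale.Agent.P214.Closed

/-!
KM. Closed tensor implies stationarity for smooth fields: write X in coordinates; tr DX = sum_i d_i X_i sum_j nu_j nu_j, and closedness with u = e_i, v = w = e_j applied to phi = X_i turns the integral of d_i X_i nu_j nu_j into that of d_j X_i nu_i nu_j (|nu| = 1 a.e.).
-/

namespace P214

open MeasureTheory Set Filter Metric
open scoped Topology ContDiff InnerProductSpace ENNReal

theorem KM_int {m : ℕ} (U : Set (Sp m)) (μ : Measure (Sp m)) (ν : Sp m → Sp m)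
    (hV : IsIntegralVarifold U μ ν) (φ : Sp m → ℝ) (hφ : ContDiff ℝ ∞ φ)
    (hc : HasCompactSupport φ) (hs : tsupport φ ⊆ U) (u v w : Sp m) :
    Integrable (fun x => fderiv ℝ φ x u * (⟪ν x, v⟫_ℝ * ⟪ν x, w⟫_ℝ)) μ := by
  have hcf : Continuous (fderiv ℝ φ) := hφ.continuous_fderiv (by simp)
  have hcont : Continuous (fun x => fderiv ℝ φ x u) := hcf.clm_apply continuous_const
  have hK : IsCompact (tsupport φ) := hc
  have hμK : μ (tsupport φ) < ⊤ := hV.2.1 _ hK hs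
  have hnu : ∀ᵐ x ∂μ, ‖ν x‖ = 1 := hV.2.2.2.mono (fun x ⟨q, hq⟩ => hq.1)
  obtain ⟨M, hM⟩ := hcf.bounded_above_of_compact_support (hc.fderiv ℝ)
  have hM0 : 0 ≤ M := (norm_nonneg _).trans (hM 0)
  refine Integrable.mono' (g := (tsupport φ).indicator (fun _ => M * ‖u‖ * (‖v‖ * ‖w‖))) ?_ ?_ ?_
  · rw [integrable_indicator_iff hK.measurableSet]
    exact integrableOn_const hμK.ne
  · have h1 : Measurable (fun x => ⟪ν x, v⟫_ℝ) := hV.2.2.1.inner_const
    have h2 : Measurable (fun x => ⟪ν x, w⟫_ℝ) := hV.2.2.1.inner_const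
    exact (hcont.measurable.mul (h1.mul h2)).aestronglyMeasurable
  · filter_upwards [hnu] with x hx
    by_cases hxK : x ∈ tsupport φ
    · rw [indicator_of_mem hxK, norm_mul, norm_mul]
      have h1 : ‖fderiv ℝ φ x u‖ ≤ M * ‖u‖ :=
        ((fderiv ℝ φ x).le_opNorm u).trans (mul_le_mul_of_nonneg_right (hM x) (norm_nonneg _))
      have h2 : ‖⟪ν x, v⟫_ℝ‖ ≤ ‖v‖ := by
        have := norm_inner_le_norm (𝕜 := ℝ) (ν x) v
        rwa [hx, one_mul] at this
      have h3 : ‖⟪ν x, w⟫_ℝ‖ ≤ ‖w‖ := by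
        have := norm_inner_le_norm (𝕜 := ℝ) (ν x) w
        rwa [hx, one_mul] at this
      exact mul_le_mul h1 (mul_le_mul h2 h3 (norm_nonneg _) (norm_nonneg _)) (by positivity)
        (by positivity)
    · rw [indicator_of_notMem hxK]
      have h1 : fderiv ℝ φ x = 0 := by
        by_contra h2
        exact hxK (support_fderiv_subset ℝ h2)
      rw [h1]
      simp

theorem KM {m : ℕ} (U : Set (Sp m)) (μ : Measure (Sp m)) (ν : Sp m → Sp m)
    (hV : IsIntegralVarifold U μ ν) (hcl : IsClosedTensor U μ ν) (X : Sp m → Sp m)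
    (hX : ContDiff ℝ ∞ X) (hc : HasCompactSupport X) (hs : tsupport X ⊆ U) :
    ∫ x, (LinearMap.trace ℝ (Sp m) (fderiv ℝ X x : Sp m →ₗ[ℝ] Sp m)
      - ⟪fderiv ℝ X x (ν x), ν x⟫_ℝ) ∂μ = 0 := by
  have hnu : ∀ᵐ x ∂μ, ‖ν x‖ = 1 := hV.2.2.2.mono (fun x ⟨q, hq⟩ => hq.1)
  let b := EuclideanSpace.basisFun (Fin (m + 1)) ℝ
  let Φ : Fin (m + 1) → Sp m → ℝ := fun i x => ⟪b i, X x⟫_ℝ
  have hΦ : ∀ i, ContDiff ℝ ∞ (Φ i) := fun i => contDiff_const.inner ℝ hX
  have hXd : Differentiable ℝ X := hX.differentiable (by simp)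
  have hsub : ∀ i, Function.support (Φ i) ⊆ Function.support X := by
    intro i x hx
    rw [Function.mem_support] at hx ⊢
    intro h
    apply hx
    simp only [Φ]
    rw [h, inner_zero_right]
  have hΦc : ∀ i, HasCompactSupport (Φ i) := fun i => hc.mono (hsub i)
  have hΦs : ∀ i, tsupport (Φ i) ⊆ U := fun i => (closure_mono (hsub i)).trans hs
  have hfd : ∀ i x u, fderiv ℝ (Φ i) x u = ⟪b i, fderiv ℝ X x u⟫_ℝ := by
    intro i x u
    have h1 : HasFDerivAt (Φ i) ((innerSL ℝ (b i)).comp (fderiv ℝ X x)) x :=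
      (innerSL ℝ (b i)).hasFDerivAt.comp x (hXd x).hasFDerivAt
    rw [h1.fderiv]
    rfl
  have hint := fun i u v w => KM_int U μ ν hV (Φ i) (hΦ i) (hΦc i) (hΦs i) u v w
  have hcl' : ∀ i j, ∫ x, fderiv ℝ (Φ i) x (b i) * (⟪ν x, b j⟫_ℝ * ⟪ν x, b j⟫_ℝ) ∂μ
      = ∫ x, fderiv ℝ (Φ i) x (b j) * (⟪ν x, b i⟫_ℝ * ⟪ν x, b j⟫_ℝ) ∂μ := fun i j =>
    hcl (Φ i) (hΦ i) (hΦc i) (hΦs i) (b i) (b j) (b j)
  have hpt : ∀ᵐ x ∂μ, LinearMap.trace ℝ (Sp m) (fderiv ℝ X x : Sp m →ₗ[ℝ] Sp m)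
      - ⟪fderiv ℝ X x (ν x), ν x⟫_ℝ =
      ∑ i, ∑ j, (fderiv ℝ (Φ i) x (b i) * (⟪ν x, b j⟫_ℝ * ⟪ν x, b j⟫_ℝ)
        - fderiv ℝ (Φ i) x (b j) * (⟪ν x, b i⟫_ℝ * ⟪ν x, b j⟫_ℝ)) := by
    filter_upwards [hnu] with x hx
    have h1 : LinearMap.trace ℝ (Sp m) (fderiv ℝ X x : Sp m →ₗ[ℝ] Sp m)
        = ∑ i, fderiv ℝ (Φ i) x (b i) := by
      rw [LinearMap.trace_eq_sum_inner _ b]
      apply Finset.sum_congr rfl
      intro i _
      rw [hfd]
      rfl
    have h2 : ∑ j, ⟪ν x, b j⟫_ℝ * ⟪ν x, b j⟫_ℝ = 1 := by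
      have h3 := b.sum_inner_mul_inner (ν x) (ν x)
      rw [real_inner_self_eq_norm_sq, hx, one_pow] at h3
      refine Eq.trans ?_ h3
      apply Finset.sum_congr rfl
      intro j _
      rw [real_inner_comm (b j) (ν x)]
    have h4 : ⟪fderiv ℝ X x (ν x), ν x⟫_ℝ
        = ∑ i, ∑ j, fderiv ℝ (Φ i) x (b j) * (⟪ν x, b i⟫_ℝ * ⟪ν x, b j⟫_ℝ) := by
      rw [← b.sum_inner_mul_inner (fderiv ℝ X x (ν x)) (ν x)]
      apply Finset.sum_congr rfl
      intro i _
      have h5 : ⟪fderiv ℝ X x (ν x), b i⟫_ℝ = ∑ j, ⟪ν x, b j⟫_ℝ * fderiv ℝ (Φ i) x (b j) := by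
        have h6 : ν x = ∑ j, ⟪b j, ν x⟫_ℝ • b j := (b.sum_repr' (ν x)).symm
        have h7 : fderiv ℝ X x (ν x) = ∑ j, ⟪b j, ν x⟫_ℝ • fderiv ℝ X x (b j) := by
          conv_lhs => rw [h6]
          rw [map_sum]
          apply Finset.sum_congr rfl
          intro j _
          rw [map_smul]
        rw [h7, sum_inner]
        apply Finset.sum_congr rfl
        intro j _
        rw [real_inner_smul_left, hfd, real_inner_comm (ν x) (b j), real_inner_comm (b i)]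
      rw [h5, Finset.sum_mul]
      apply Finset.sum_congr rfl
      intro j _
      rw [real_inner_comm (ν x) (b i)]
      ring
    rw [h1, h4, ← Finset.sum_sub_distrib]
    apply Finset.sum_congr rfl
    intro i _
    rw [Finset.sum_sub_distrib, ← Finset.mul_sum, h2, mul_one]
  rw [integral_congr_ae hpt, integral_finsetSum]
  · apply Finset.sum_eq_zero
    intro i _
    rw [integral_finsetSum]
    · apply Finset.sum_eq_zero
      intro j _
      rw [integral_sub (hint i _ _ _) (hint i _ _ _), hcl' i j, sub_self]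
    · intro j _
      exact (hint i _ _ _).sub (hint i _ _ _)
  · intro i _
    apply integrable_finsetSum
    intro j _
    exact (hint i _ _ _).sub (hint i _ _ _)

end P214
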