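import Vale.Agent.P214.Defs

/-!
ST2. From smooth to C1 fields by mollification (derivatives converge uniformly, supports in a
fixed compact subset of U of finite measure, |nu| = 1 almost everywhere).
-/

namespace P214

open MeasureTheory Set Filter Metric
open scoped Topology ContDiff InnerProductSpace ENNReal

theorem ST2_moll {m : ℕ} (X : Sp m → Sp m) (hX : ContDiff ℝ 1 X) (hc : HasCompactSupport X)
    (ρ : ℝ) (hρ : 0 < ρ) (ε : ℝ) (hε : 0 < ε) :
    ∃ Y : Sp m → Sp m, ContDiff ℝ ∞ Y ∧ HasCompactSupport Y ∧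
      tsupport Y ⊆ cthickening ρ (tsupport X) ∧ ∀ x, ‖fderiv ℝ Y x - fderiv ℝ X x‖ ≤ ε := by
  have hcf : HasCompactSupport (fderiv ℝ X) := hc.fderiv ℝ
  have hcont : Continuous (fderiv ℝ X) := hX.continuous_fderiv (by norm_num)
  have huc : UniformContinuous (fderiv ℝ X) := hcf.uniformContinuous_of_continuous hcont
  obtain ⟨δ, hδ, h1⟩ := Metric.uniformContinuous_iff.mp huc ε hε
  have hpos : 0 < min δ ρ := lt_min hδ hρ
  let φ : ContDiffBump (0 : Sp m) := ⟨min δ ρ / 2, min δ ρ, half_pos hpos, half_lt_self hpos⟩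
  have hφ : φ.rOut = min δ ρ := rfl
  refine ⟨convolution (φ.normed volume) X (ContinuousLinearMap.lsmul ℝ ℝ) volume, ?_, ?_, ?_, ?_⟩
  · exact HasCompactSupport.contDiff_convolution_left (ContinuousLinearMap.lsmul ℝ ℝ)
      φ.hasCompactSupport_normed φ.contDiff_normed hX.continuous.locallyIntegrable
  · exact HasCompactSupport.convolution (ContinuousLinearMap.lsmul ℝ ℝ)
      φ.hasCompactSupport_normed hc
  · refine closure_minimal ?_ isClosed_cthickening
    refine (support_convolution_subset (ContinuousLinearMap.lsmul ℝ ℝ)).trans ?_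
    rintro x ⟨a, ha, b, hb, rfl⟩
    rw [φ.support_normed_eq, mem_ball_zero_iff, hφ] at ha
    refine mem_cthickening_of_dist_le _ b _ _ (subset_tsupport _ hb) ?_
    have h3 : dist (a + b) b = ‖a‖ := by
      rw [dist_eq_norm, add_sub_cancel_right]
    have h4 : dist (a + b) b ≤ ρ := by
      rw [h3]
      exact ha.le.trans (min_le_right _ _)
    exact h4
  · intro x
    have h2 := HasCompactSupport.hasFDerivAt_convolution_right (ContinuousLinearMap.lsmul ℝ ℝ)
      hc (φ.continuous_normed (μ := volume)).locallyIntegrable hX x (μ := volume)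
    rw [h2.fderiv]
    have h3 : convolution (φ.normed volume) (fderiv ℝ X)
        (ContinuousLinearMap.precompR (Sp m) (ContinuousLinearMap.lsmul ℝ ℝ)) volume x =
        convolution (φ.normed volume) (fderiv ℝ X) (ContinuousLinearMap.lsmul ℝ ℝ) volume x := by
      unfold convolution
      congr 1
    rw [h3, ← dist_eq_norm]
    refine ContDiffBump.dist_normed_convolution_le hcont.aestronglyMeasurable ?_
    intro y hy
    rw [mem_ball, hφ] at hy
    exact (h1 (lt_of_lt_of_le hy (min_le_left _ _))).le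

theorem ST2 {m : ℕ} (U : Set (Sp m)) (hU : IsOpen U) (μ : Measure (Sp m)) (ν : Sp m → Sp m)
    (hV : IsIntegralVarifold U μ ν)
    (h : ∀ X : Sp m → Sp m, ContDiff ℝ ∞ X → HasCompactSupport X → tsupport X ⊆ U →
      ∫ x, (LinearMap.trace ℝ (Sp m) (fderiv ℝ X x : Sp m →ₗ[ℝ] Sp m)
        - ⟪fderiv ℝ X x (ν x), ν x⟫_ℝ) ∂μ = 0) :
    IsStationary U μ ν := by
  intro X hX hc hsub
  obtain ⟨ρ, hρ, hρU⟩ := hc.isCompact.exists_cthickening_subset_open hU hsub
  choose Y hY1 hY2 hY3 hY4 using fun n : ℕ => ST2_moll X hX hc ρ hρ (1 / ((n : ℝ) + 1)) (by positivity)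
  have hK : IsCompact (cthickening ρ (tsupport X)) := hc.isCompact.cthickening
  have hμK : μ (cthickening ρ (tsupport X)) < ⊤ := hV.2.1 _ hK hρU
  obtain ⟨T, hT⟩ : ∃ T : (Sp m →L[ℝ] Sp m) →L[ℝ] ℝ,
      ∀ A : Sp m →L[ℝ] Sp m, LinearMap.trace ℝ (Sp m) (A : Sp m →ₗ[ℝ] Sp m) = T A :=
    ⟨LinearMap.toContinuousLinearMap
      ((LinearMap.trace ℝ (Sp m)).comp (ContinuousLinearMap.coeLM ℝ)), fun A => rfl⟩
  have hnu : ∀ᵐ x ∂μ, ‖ν x‖ = 1 := hV.2.2.2.mono (fun x ⟨q, hq⟩ => hq.1)
  have hcontX : Continuous (fderiv ℝ X) := hX.continuous_fderiv (by norm_num)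
  obtain ⟨M, hM⟩ := hcontX.bounded_above_of_compact_support (hc.fderiv ℝ)
  have hYc : ∀ n, Continuous (fderiv ℝ (Y n)) := fun n =>
    (hY1 n).continuous_fderiv (by simp)
  have hlim : Tendsto (fun n => ∫ x, (T (fderiv ℝ (Y n) x) - ⟪fderiv ℝ (Y n) x (ν x), ν x⟫_ℝ) ∂μ)
      atTop (𝓝 (∫ x, (T (fderiv ℝ X x) - ⟪fderiv ℝ X x (ν x), ν x⟫_ℝ) ∂μ)) := by
    refine tendsto_integral_of_dominated_convergence
      ((cthickening ρ (tsupport X)).indicator (fun _ => (‖T‖ + 1) * (M + 1))) ?_ ?_ ?_ ?_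
    · intro n
      have h1 : Continuous (fun p : Sp m × Sp m =>
          T (fderiv ℝ (Y n) p.1) - ⟪fderiv ℝ (Y n) p.1 p.2, p.2⟫_ℝ) :=
        (T.continuous.comp ((hYc n).comp continuous_fst)).sub
          ((((hYc n).comp continuous_fst).clm_apply continuous_snd).inner continuous_snd)
      have h2 : Measurable (fun x : Sp m => ((x, ν x) : Sp m × Sp m)) :=
        measurable_id.prodMk hV.2.2.1
      exact (h1.measurable.comp h2).aestronglyMeasurable
    · rw [integrable_indicator_iff hK.measurableSet]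
      exact integrableOn_const hμK.ne
    · intro n
      filter_upwards [hnu] with x hx
      by_cases hxK : x ∈ cthickening ρ (tsupport X)
      · rw [indicator_of_mem hxK]
        have h1 : ‖fderiv ℝ (Y n) x‖ ≤ M + 1 := by
          have h2 := hY4 n x
          have h3 := hM x
          have h4 : (1 : ℝ) / ((n : ℝ) + 1) ≤ 1 := by
            rw [div_le_one (by positivity)]
            have : (0 : ℝ) ≤ n := Nat.cast_nonneg n
            linarith
          have h5 : ‖fderiv ℝ (Y n) x‖ ≤ ‖fderiv ℝ (Y n) x - fderiv ℝ X x‖ + ‖fderiv ℝ X x‖ :=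
            norm_le_norm_sub_add _ _
          linarith
        have h6 : ‖T (fderiv ℝ (Y n) x)‖ ≤ ‖T‖ * ‖fderiv ℝ (Y n) x‖ := T.le_opNorm _
        have h7 : ‖⟪fderiv ℝ (Y n) x (ν x), ν x⟫_ℝ‖ ≤ ‖fderiv ℝ (Y n) x‖ := by
          have h8 := norm_inner_le_norm (𝕜 := ℝ) (fderiv ℝ (Y n) x (ν x)) (ν x)
          have h9 := (fderiv ℝ (Y n) x).le_opNorm (ν x)
          rw [hx, mul_one] at h8 h9
          exact h8.trans h9
        have h10 := norm_sub_le (T (fderiv ℝ (Y n) x)) ⟪fderiv ℝ (Y n) x (ν x), ν x⟫_ℝ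
        have h11 : (‖T‖ + 1) * ‖fderiv ℝ (Y n) x‖ ≤ (‖T‖ + 1) * (M + 1) :=
          mul_le_mul_of_nonneg_left h1 (by positivity)
        linarith
      · rw [indicator_of_notMem hxK]
        have h1 : fderiv ℝ (Y n) x = 0 := by
          by_contra h2
          exact hxK (hY3 n (support_fderiv_subset ℝ h2))
        rw [h1]
        simp
    · filter_upwards with x
      have h1 : Tendsto (fun n => fderiv ℝ (Y n) x) atTop (𝓝 (fderiv ℝ X x)) := by
        rw [tendsto_iff_norm_sub_tendsto_zero]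
        exact squeeze_zero (fun n => norm_nonneg _) (fun n => hY4 n x)
          tendsto_one_div_add_atTop_nhds_zero_nat
      have h2 : Continuous (fun A : Sp m →L[ℝ] Sp m => T A - ⟪A (ν x), ν x⟫_ℝ) :=
        T.continuous.sub ((continuous_id.clm_apply continuous_const).inner continuous_const)
      exact (h2.tendsto _).comp h1
  have hzero : ∀ n, ∫ x, (T (fderiv ℝ (Y n) x) - ⟪fderiv ℝ (Y n) x (ν x), ν x⟫_ℝ) ∂μ = 0 := by
    intro n
    have h1 := h (Y n) (hY1 n) (hY2 n) ((hY3 n).trans hρU)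
    simp only [hT] at h1
    exact h1
  simp only [hzero] at hlim
  simp only [hT]
  exact tendsto_nhds_unique hlim tendsto_const_nhds

end P214
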