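import Vale.Agent.P214.Final
import Vale.Agent.P214.KK
import Vale.Agent.P214.KL
import Vale.Agent.P214.KM
import Vale.Agent.P214.ST2
import Vale.Agent.P214.Abs

namespace P214

open MeasureTheory Set Filter Metric
open scoped Topology ContDiff InnerProductSpace ENNReal

theorem final3_dim {m : ℕ} (U : Set (Sp m)) (hU : IsOpen U) (μ : Measure (Sp m))
    (ν : Sp m → Sp m) (hV : IsIntegralVarifold U μ ν) (hcl : IsClosedTensor U μ ν) :
    dimH (nonFlatSet U μ) ≤ ((m - 1 : ℕ) : ℝ≥0∞) := by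
  have key : ∀ x : Sp m, x ∈ U → ∃ r : ℝ, 0 < r ∧ ball x r ⊆ U ∧
      dimH (nonFlatSet U μ ∩ ball x r) ≤ ((m - 1 : ℕ) : ℝ≥0∞) := by
    intro x hx
    obtain ⟨r, F, hr, hrU, hF, hpot⟩ := KK U hU μ ν hV hcl x hx
    refine ⟨r, hr, hrU, ?_⟩
    have hV' := KL U (ball x r) isOpen_ball hrU μ ν hV
    have hp' : IsPotential (ball x r) (μ.restrict (ball x r)) ν F := by
      intro φ h1 h2 h3 v w
      rw [hpot φ h1 h2 h3 v w]
      refine (setIntegral_eq_integral_of_forall_compl_eq_zero fun y hy => ?_).symm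
      have : φ y = 0 := image_eq_zero_of_notMem_tsupport fun h => hy (h3 h)
      rw [this, zero_mul]
    exact (dimH_mono (LOC U μ x r hrU)).trans
      (final (ball x r) isOpen_ball (μ.restrict (ball x r)) ν F hV' hF hp')
  choose! r hr hrU hdim using key
  obtain ⟨t, htU, htc, hte⟩ := TopologicalSpace.isOpen_biUnion_countable U
    (fun x => ball x (r x)) (fun x _ => isOpen_ball)
  have hsub : nonFlatSet U μ ⊆ ⋃ x ∈ t, (nonFlatSet U μ ∩ ball x (r x)) := by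
    intro p hp
    have hpU : p ∈ U := hp.1
    have h1 : p ∈ ⋃ x ∈ U, ball x (r x) :=
      mem_biUnion hpU (mem_ball_self (hr p hpU))
    rw [← hte] at h1
    obtain ⟨x, hx, hpx⟩ := mem_iUnion₂.1 h1
    exact mem_biUnion hx ⟨hp, hpx⟩
  refine (dimH_mono hsub).trans ?_
  rw [dimH_bUnion htc]
  exact iSup₂_le fun x hx => hdim x (htU hx)

theorem final3 {m : ℕ} (U : Set (Sp m)) (hU : IsOpen U) (μ : Measure (Sp m))
    (ν : Sp m → Sp m) (hV : IsIntegralVarifold U μ ν) (hcl : IsClosedTensor U μ ν) :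
    IsStationary U μ ν ∧ dimH (nonFlatSet U μ) ≤ ((m - 1 : ℕ) : ℝ≥0∞) :=
  ⟨ST2 U hU μ ν hV (fun X h1 h2 h3 => KM U μ ν hV hcl X h1 h2 h3),
    final3_dim U hU μ ν hV hcl⟩

theorem final4 {m : ℕ} (U : Set (Sp m)) (hU : IsOpen U) (μ : Measure (Sp m))
    (ν : Sp m → Sp m) (hV : P214A.IsIntegralVarifold m U μ ν)
    (hcl : P214A.IsClosedTensor U μ ν) :
    P214A.IsStationary U μ ν ∧ dimH (P214A.nonFlatSet U μ) ≤ ((m - 1 : ℕ) : ℝ≥0∞) :=
  final3 U hU μ ν hV hcl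

end P214
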