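import Vale.Agent.P214.Defs
import Vale.Agent.P214.A4

/-!
MS1. The measure near x0 tested on smooth functions: sum the potential identity over an orthonormal basis (|nu| = 1 a.e.), translate, A4.
-/

namespace P214

open MeasureTheory Set Filter Metric
open scoped Topology ContDiff InnerProductSpace ENNReal

theorem MS1_cd {m : ℕ} {φ : Sp m → ℝ} (hφ : ContDiff ℝ ∞ φ) (w : Sp m) :
    ContDiff ℝ ∞ (fun x => fderiv ℝ φ x w) :=
  (hφ.fderiv_right (m := ∞) (by simp)).clm_apply contDiff_const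

theorem MS1_cs {m : ℕ} {φ : Sp m → ℝ} (hc : HasCompactSupport φ) (w : Sp m) :
    HasCompactSupport (fun x => fderiv ℝ φ x w) :=
  hc.fderiv_apply ℝ w

theorem MS1_D2 {m : ℕ} {φ : Sp m → ℝ} (hφ : ContDiff ℝ ∞ φ) (v w x : Sp m) :
    fderiv ℝ (fderiv ℝ φ) x v w = fderiv ℝ (fun x => fderiv ℝ φ x w) x v := by
  have h1 : DifferentiableAt ℝ (fderiv ℝ φ) x :=
    (hφ.fderiv_right (m := ∞) (by simp)).differentiable (by simp) x
  rw [fderiv_clm_apply h1 (differentiableAt_const w)]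
  simp

theorem MS1_int {m : ℕ} {φ : Sp m → ℝ} (hφ : ContDiff ℝ ∞ φ) (hc : HasCompactSupport φ)
    (v w : Sp m) {a : Sp m → ℝ} (ha : Continuous a) :
    Integrable (fun x => a x * fderiv ℝ (fderiv ℝ φ) x v w) := by
  simp_rw [MS1_D2 hφ v w]
  have h1 : Continuous (fun x => fderiv ℝ (fun x => fderiv ℝ φ x w) x v) :=
    (MS1_cd (MS1_cd hφ w) v).continuous
  exact (ha.mul h1).integrable_of_hasCompactSupport
    ((MS1_cs (MS1_cs hc w) v).mul_left)

theorem MS1_affine {m : ℕ} {φ : Sp m → ℝ} (hφ : ContDiff ℝ ∞ φ) (hc : HasCompactSupport φ)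
    (v w p x₀ : Sp m) (c : ℝ) :
    ∫ x, (c + ⟪p, x - x₀⟫_ℝ) * fderiv ℝ (fderiv ℝ φ) x v w = 0 := by
  have hg := MS1_cd hφ w
  have hgc := MS1_cs hc w
  have hgi : Integrable (fun x => fderiv ℝ φ x w) :=
    hg.continuous.integrable_of_hasCompactSupport hgc
  have hzero : ∫ x, fderiv ℝ φ x w = 0 := by
    have := integral_mul_fderiv_eq_neg_fderiv_mul_of_integrable (𝕜 := ℝ)
      (μ := (volume : Measure (Sp m))) (f := fun _ : Sp m => (1 : ℝ)) (g := φ) (v := w)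
      (by simp) (by simpa using hgi)
      (by simpa using hφ.continuous.integrable_of_hasCompactSupport hc)
      (fun x _ => differentiableAt_const _) (fun x _ => hφ.differentiable (by simp) x)
    simpa using this
  have hda : ∀ x : Sp m, HasFDerivAt (fun x : Sp m => c + ⟪p, x - x₀⟫_ℝ)
      (innerSL ℝ p) x := by
    intro x
    have h2 : HasFDerivAt (fun x : Sp m => x - x₀) (ContinuousLinearMap.id ℝ (Sp m)) x :=
      (hasFDerivAt_id x).sub_const x₀
    have h3 := ((innerSL ℝ p).hasFDerivAt (x := x - x₀)).comp x h2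
    have h4 := h3.const_add c
    exact h4
  have hfd : ∀ x : Sp m, fderiv ℝ (fun x : Sp m => c + ⟪p, x - x₀⟫_ℝ) x v = ⟪p, v⟫_ℝ := by
    intro x
    rw [(hda x).fderiv]
    rfl
  have hcont : Continuous (fun x : Sp m => c + ⟪p, x - x₀⟫_ℝ) :=
    continuous_iff_continuousAt.2 fun x => (hda x).continuousAt
  have key := integral_mul_fderiv_eq_neg_fderiv_mul_of_integrable (𝕜 := ℝ)
      (μ := (volume : Measure (Sp m))) (f := fun x : Sp m => c + ⟪p, x - x₀⟫_ℝ)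
      (g := fun x => fderiv ℝ φ x w) (v := v)
      (by simp_rw [hfd]; exact hgi.const_mul _)
      (by
        have := MS1_int hφ hc v w hcont
        simp_rw [MS1_D2 hφ v w] at this
        exact this)
      ((hcont.mul hg.continuous).integrable_of_hasCompactSupport hgc.mul_left)
      (fun x _ => (hda x).differentiableAt) (fun x _ => hg.differentiable (by simp) x)
  simp_rw [MS1_D2 hφ v w]
  rw [key]
  simp_rw [hfd]
  rw [integral_const_mul, hzero]
  simp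

theorem MS1_translate {m : ℕ} (e : Sp m) (he : ‖e‖ = 1) (x₀ : Sp m) {φ : Sp m → ℝ}
    (hφ : ContDiff ℝ ∞ φ) (hc : HasCompactSupport φ) (v w : Sp m) :
    ∫ x, max ⟪e, x - x₀⟫_ℝ 0 * fderiv ℝ (fderiv ℝ φ) x v w
      = (⟪e, v⟫_ℝ * ⟪e, w⟫_ℝ) * ∫ y, φ (x₀ + y) ∂(planeMeasure e) := by
  have hψ : ContDiff ℝ ∞ (fun z => φ (x₀ + z)) :=
    hφ.comp (contDiff_const.add contDiff_id)
  have hψc : HasCompactSupport (fun z => φ (x₀ + z)) :=
    hc.comp_homeomorph (Homeomorph.addLeft x₀)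
  have h4 := A4 e he (fun z => φ (x₀ + z)) hψ hψc v w
  rw [← h4, ← integral_add_left_eq_self _ x₀]
  refine integral_congr_ae (Eventually.of_forall fun z => ?_)
  have h1 : fderiv ℝ (fun z => φ (x₀ + z)) = fun z => fderiv ℝ φ (x₀ + z) := by
    funext z
    exact fderiv_comp_add_left x₀
  simp only [h1]
  rw [fderiv_comp_add_left (f := fderiv ℝ φ) x₀]
  simp

theorem MS1 {m : ℕ} {U : Set (Sp m)} {μ : Measure (Sp m)} {ν : Sp m → Sp m} {f : Sp m → ℝ}
    (h : Core U μ ν f) (hn : ∀ᵐ x ∂μ, ‖ν x‖ = 1) (x₀ : Sp m) (p₀ e : Sp m) (he : ‖e‖ = 1)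
    (l c : ℝ) (r : ℝ) (hr : ball x₀ r ⊆ U)
    (hf : ∀ x ∈ ball x₀ r, f x = c + ⟪p₀, x - x₀⟫_ℝ + l * max ⟪e, x - x₀⟫_ℝ 0)
    (φ : Sp m → ℝ) (hφ : ContDiff ℝ ∞ φ) (hc : HasCompactSupport φ)
    (hs : tsupport φ ⊆ ball x₀ r) :
    ∫ x, φ x ∂μ = l * ∫ y, φ (x₀ + y) ∂(planeMeasure e) := by
  have hfin : IsFiniteMeasure μ := ⟨h.fin⟩
  let b := EuclideanSpace.basisFun (Fin (m + 1)) ℝ
  -- each term
  have hterm : ∀ i, ∫ x, φ x * (⟪ν x, b i⟫_ℝ * ⟪ν x, b i⟫_ℝ) ∂μ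
      = l * ((⟪e, b i⟫_ℝ * ⟪e, b i⟫_ℝ) * ∫ y, φ (x₀ + y) ∂(planeMeasure e)) := by
    intro i
    rw [← h.hess φ hφ hc (hs.trans hr) (b i) (b i)]
    have h1 : ∀ x, f x * fderiv ℝ (fderiv ℝ φ) x (b i) (b i)
        = (c + ⟪p₀, x - x₀⟫_ℝ) * fderiv ℝ (fderiv ℝ φ) x (b i) (b i)
          + l * (max ⟪e, x - x₀⟫_ℝ 0 * fderiv ℝ (fderiv ℝ φ) x (b i) (b i)) := by
      intro x
      by_cases hx : x ∈ tsupport φ
      · rw [hf x (hs hx)]; ring
      · have h2 : fderiv ℝ (fderiv ℝ φ) x = 0 := by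
          have h3 : x ∉ tsupport (fderiv ℝ φ) := fun h4 => hx (tsupport_fderiv_subset ℝ h4)
          have h5 : x ∉ tsupport (fderiv ℝ (fderiv ℝ φ)) :=
            fun h4 => h3 (tsupport_fderiv_subset ℝ h4)
          exact image_eq_zero_of_notMem_tsupport h5
        rw [h2]; simp
    simp_rw [h1]
    rw [integral_add (MS1_int hφ hc _ _ (by fun_prop))
      ((MS1_int hφ hc _ _ (a := fun x => max ⟪e, x - x₀⟫_ℝ 0) (by fun_prop)).const_mul l),
      MS1_affine hφ hc, integral_const_mul, MS1_translate e he x₀ hφ hc]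
    ring
  have hint : ∀ i, Integrable (fun x => φ x * (⟪ν x, b i⟫_ℝ * ⟪ν x, b i⟫_ℝ)) μ := by
    intro i
    have hφi : Integrable φ μ := hφ.continuous.integrable_of_hasCompactSupport hc
    refine Integrable.mul_bdd (c := 1) hφi ?_ ?_
    · have hm : Measurable (fun x => ⟪ν x, b i⟫_ℝ) := h.meas.inner_const
      exact (hm.mul hm).aestronglyMeasurable
    · filter_upwards [hn] with x hx
      have h1 : |⟪ν x, b i⟫_ℝ| ≤ 1 := by
        have := abs_real_inner_le_norm (ν x) (b i)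
        rw [hx, b.norm_eq_one i] at this
        simpa using this
      rw [Real.norm_eq_abs, abs_mul]
      calc |⟪ν x, b i⟫_ℝ| * |⟪ν x, b i⟫_ℝ| ≤ 1 * 1 :=
            mul_le_mul h1 h1 (abs_nonneg _) zero_le_one
        _ = 1 := by norm_num
  have hsum : ∫ x, φ x ∂μ = ∑ i, ∫ x, φ x * (⟪ν x, b i⟫_ℝ * ⟪ν x, b i⟫_ℝ) ∂μ := by
    rw [← integral_finsetSum _ (fun i _ => hint i)]
    refine integral_congr_ae ?_
    filter_upwards [hn] with x hx
    rw [← Finset.mul_sum]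
    have h1 := b.sum_inner_mul_inner (ν x) (ν x)
    have h2 : ∑ i, ⟪ν x, b i⟫_ℝ * ⟪ν x, b i⟫_ℝ = 1 := by
      rw [real_inner_self_eq_norm_sq, hx, one_pow] at h1
      refine Eq.trans (Finset.sum_congr rfl fun i _ => ?_) h1
      rw [real_inner_comm (b i) (ν x)]
    rw [h2, mul_one]
  rw [hsum]
  simp_rw [hterm]
  rw [← Finset.mul_sum, ← Finset.sum_mul]
  have h1 := b.sum_inner_mul_inner e e
  have h2 : ∑ i, ⟪e, b i⟫_ℝ * ⟪e, b i⟫_ℝ = 1 := by
    rw [real_inner_self_eq_norm_sq, he, one_pow] at h1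
    refine Eq.trans (Finset.sum_congr rfl fun i _ => ?_) h1
    rw [real_inner_comm (b i) e]
  rw [h2, one_mul]

end P214
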