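import Vale.Agent.P214.Defs

/-!
MS2. Two measures finite on compacts with equal integrals of smooth functions compactly supported in an open set agree on that set.
-/

namespace P214

open MeasureTheory Set Filter Metric
open scoped Topology ContDiff InnerProductSpace ENNReal

theorem MS2_lim {m : ℕ} (μ : Measure (Sp m)) [IsFiniteMeasureOnCompacts μ] {O : Set (Sp m)}
    (hO : IsOpen O) (hc : IsCompact (closure O)) {f : Sp m → ℝ} (hf : Continuous f)
    (hs : f.support = O) (hr : ∀ x, f x ∈ Icc (0 : ℝ) 1) :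
    Tendsto (fun k : ℕ => ∫ x, (1 - (1 - f x) ^ (k + 1)) ∂μ) atTop (𝓝 (μ O).toReal) := by
  have h1 : (μ O).toReal = ∫ x, O.indicator (fun _ => (1 : ℝ)) x ∂μ := by
    rw [integral_indicator hO.measurableSet, setIntegral_const, smul_eq_mul, mul_one]
    rfl
  rw [h1]
  refine tendsto_integral_of_dominated_convergence ((closure O).indicator fun _ => (1 : ℝ))
    (fun k => ?_) ?_ (fun k => ?_) ?_
  · exact (continuous_const.sub ((continuous_const.sub hf).pow _)).aestronglyMeasurable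
  · rw [integrable_indicator_iff isClosed_closure.measurableSet]
    exact integrableOn_const hc.measure_lt_top.ne
  · refine Eventually.of_forall fun x => ?_
    obtain ⟨h2, h3⟩ := hr x
    by_cases hx : x ∈ O
    · rw [indicator_of_mem (subset_closure hx), Real.norm_of_nonneg]
      · have := pow_nonneg (show (0 : ℝ) ≤ 1 - f x by linarith) (k + 1)
        linarith
      · have := pow_le_one₀ (show (0 : ℝ) ≤ 1 - f x by linarith)
          (show 1 - f x ≤ 1 by linarith) (n := k + 1)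
        linarith
    · have h4 : f x = 0 := by
        rw [← hs] at hx
        exact Function.notMem_support.1 hx
      rw [h4]
      simp only [sub_zero, one_pow, sub_self, norm_zero]
      exact indicator_nonneg (fun _ _ => zero_le_one) _
  · refine Eventually.of_forall fun x => ?_
    obtain ⟨h2, h3⟩ := hr x
    by_cases hx : x ∈ O
    · rw [indicator_of_mem hx]
      have h4 : f x ≠ 0 := by
        rw [← hs] at hx
        exact hx
      have h5 : 0 < f x := lt_of_le_of_ne h2 (Ne.symm h4)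
      have h6 : Tendsto (fun k : ℕ => (1 - f x) ^ (k + 1)) atTop (𝓝 0) :=
        (tendsto_pow_atTop_nhds_zero_of_lt_one (by linarith) (by linarith)).comp
          (tendsto_add_atTop_nat 1)
      simpa using (tendsto_const_nhds (x := (1 : ℝ))).sub h6
    · have h4 : f x = 0 := by
        rw [← hs] at hx
        exact Function.notMem_support.1 hx
      rw [indicator_of_notMem hx, h4]
      simp

theorem MS2_open {m : ℕ} (μ₁ μ₂ : Measure (Sp m)) [IsFiniteMeasureOnCompacts μ₁]
    [IsFiniteMeasureOnCompacts μ₂] (B : Set (Sp m))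
    (h : ∀ φ : Sp m → ℝ, ContDiff ℝ ∞ φ → HasCompactSupport φ → tsupport φ ⊆ B →
      (∀ x, 0 ≤ φ x) → ∫ x, φ x ∂μ₁ = ∫ x, φ x ∂μ₂) {O : Set (Sp m)} (hO : IsOpen O)
    (hc : IsCompact (closure O)) (hB : closure O ⊆ B) : μ₁ O = μ₂ O := by
  obtain ⟨f, hs, hf, hr⟩ := hO.exists_contDiff_support_eq (n := ⊤)
  have hr' : ∀ x, f x ∈ Icc (0 : ℝ) 1 := fun x => hr (mem_range_self x)
  have h1 := MS2_lim μ₁ hO hc hf.continuous hs hr'
  have h2 := MS2_lim μ₂ hO hc hf.continuous hs hr'
  have h3 : ∀ k : ℕ, ∫ x, (1 - (1 - f x) ^ (k + 1)) ∂μ₁ = ∫ x, (1 - (1 - f x) ^ (k + 1)) ∂μ₂ := by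
    intro k
    have hsup : Function.support (fun x => 1 - (1 - f x) ^ (k + 1)) ⊆ O := by
      intro x hx
      rw [← hs]
      intro h4
      refine hx ?_
      show 1 - (1 - f x) ^ (k + 1) = 0
      rw [h4]
      simp
    have hts : tsupport (fun x => 1 - (1 - f x) ^ (k + 1)) ⊆ closure O := closure_mono hsup
    refine h _ ?_ ?_ (hts.trans hB) ?_
    · exact contDiff_const.sub ((contDiff_const.sub hf).pow _)
    · exact hc.of_isClosed_subset (isClosed_tsupport _) hts
    · intro x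
      have := pow_le_one₀ (show (0 : ℝ) ≤ 1 - f x by linarith [(hr' x).2])
        (show 1 - f x ≤ 1 by linarith [(hr' x).1]) (n := k + 1)
      linarith
  simp only [h3] at h1
  have h4 := tendsto_nhds_unique h1 h2
  have f1 : μ₁ O ≠ ⊤ := ((measure_mono subset_closure).trans_lt hc.measure_lt_top).ne
  have f2 : μ₂ O ≠ ⊤ := ((measure_mono subset_closure).trans_lt hc.measure_lt_top).ne
  exact (ENNReal.toReal_eq_toReal_iff' f1 f2).1 h4

theorem MS2_le {m : ℕ} (μ₁ μ₂ : Measure (Sp m)) [IsFiniteMeasureOnCompacts μ₁]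
    [IsFiniteMeasureOnCompacts μ₂] (B : Set (Sp m)) (hB : IsOpen B)
    (h : ∀ φ : Sp m → ℝ, ContDiff ℝ ∞ φ → HasCompactSupport φ → tsupport φ ⊆ B →
      (∀ x, 0 ≤ φ x) → ∫ x, φ x ∂μ₁ = ∫ x, φ x ∂μ₂) {A : Set (Sp m)} (hA : A ⊆ B) :
    μ₁ A ≤ μ₂ A := by
  rw [A.measure_eq_iInf_isOpen μ₂]
  refine le_iInf₂ fun W hAW => le_iInf fun hW => ?_
  have h1 : μ₁ A ≤ μ₁ (W ∩ B) := measure_mono (subset_inter hAW hA)
  refine h1.trans (le_trans ?_ (measure_mono (inter_subset_left (t := B))))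
  rw [(hW.inter hB).measure_eq_iSup_isCompact μ₁]
  refine iSup₂_le fun K hKW => iSup_le fun hK => ?_
  obtain ⟨O, hO, hKO, hOW, hOc⟩ := exists_open_between_and_isCompact_closure hK (hW.inter hB) hKW
  calc μ₁ K ≤ μ₁ O := measure_mono hKO
    _ = μ₂ O := MS2_open μ₁ μ₂ B h hO hOc (hOW.trans inter_subset_right)
    _ ≤ μ₂ (W ∩ B) := measure_mono (subset_closure.trans hOW)

theorem MS2 {m : ℕ} (μ₁ μ₂ : Measure (Sp m)) [IsFiniteMeasureOnCompacts μ₁]
    [IsFiniteMeasureOnCompacts μ₂] (B : Set (Sp m)) (hB : IsOpen B)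
    (h : ∀ φ : Sp m → ℝ, ContDiff ℝ ∞ φ → HasCompactSupport φ → tsupport φ ⊆ B →
      (∀ x, 0 ≤ φ x) → ∫ x, φ x ∂μ₁ = ∫ x, φ x ∂μ₂) :
    μ₁.restrict B = μ₂.restrict B := by
  ext A hA
  rw [Measure.restrict_apply hA, Measure.restrict_apply hA]
  exact le_antisymm (MS2_le μ₁ μ₂ B hB h inter_subset_right)
    (MS2_le μ₂ μ₁ B hB (fun φ h1 h2 h3 h4 => (h φ h1 h2 h3 h4).symm) inter_subset_right)

end P214
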