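import Vale.Agent.P214.Defs
import Vale.Agent.P214.FLAT
import Vale.Agent.P214.MS1
import Vale.Agent.P214.MS2
import Vale.Agent.P214.PL
import Vale.Agent.P214.L2
import Vale.Agent.P214.A8

/-!
REG. A point whose subdifferential is a nondegenerate segment is flat (L2 for the integer, FLAT, MS1, MS2, A8, PL).
-/

namespace P214

open MeasureTheory Set Filter Metric
open scoped Topology ContDiff InnerProductSpace ENNReal

theorem REG {m : ℕ} {U : Set (Sp m)} {μ : Measure (Sp m)} {ν : Sp m → Sp m} {f : Sp m → ℝ}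
    (h : Core U μ ν f) (x₀ : Sp m) (hx₀ : x₀ ∈ U) (p₀ e : Sp m) (he : ‖e‖ = 1) (l : ℝ)
    (hl : 0 < l) (hs : sub f x₀ = segment ℝ p₀ (p₀ + l • e)) : FlatAt μ x₀ := by
  have hfin : IsFiniteMeasure μ := ⟨h.fin⟩
  obtain ⟨⟨Q, hQ1, hQ⟩, _⟩ := L2 h x₀ hx₀ p₀ e he l hl hs
  obtain ⟨r, hr, hrU, hf⟩ := FLAT h x₀ hx₀ p₀ e he l hl hs
  refine ⟨r, e, Q, hr, he, hQ1, ?_⟩
  have hte : (fun y : Sp m => x₀ + y) = ⇑(Homeomorph.addLeft x₀) := rfl
  have hm : Measurable (fun y : Sp m => x₀ + y) := measurable_const_add x₀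
  have h1 : IsFiniteMeasureOnCompacts (Measure.map (fun y => x₀ + y) (planeMeasure e)) := by
    refine ⟨fun K hK => ?_⟩
    rw [Measure.map_apply hm hK.isClosed.measurableSet, hte]
    exact ((Homeomorph.addLeft x₀).isCompact_preimage.2 hK).measure_lt_top
  have h2 : IsFiniteMeasureOnCompacts ((Q : ℝ≥0∞) •
      Measure.map (fun y => x₀ + y) (planeMeasure e)) := by
    refine ⟨fun K hK => ?_⟩
    rw [Measure.smul_apply, smul_eq_mul]
    exact ENNReal.mul_lt_top (ENNReal.natCast_lt_top Q) hK.measure_lt_top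
  rw [← Measure.restrict_smul]
  apply MS2 μ _ (ball x₀ r) isOpen_ball
  intro φ hφ hc hsup _
  rw [MS1 h ((A8 h).mono fun x hx => hx.1) x₀ p₀ e he l (f x₀) r hrU hf φ hφ hc hsup,
    integral_smul_measure, ENNReal.toReal_natCast, smul_eq_mul, hQ, hte,
    (Homeomorph.addLeft x₀).measurableEmbedding.integral_map]
  rfl

end P214
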