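import Vale.Agent.P214.Defs

/-!
ST1. The potential identity implies stationarity, tested on smooth fields: write X in coordinates,
tr DX = sum_i d_i X_i sum_j nu_j nu_j and <DX nu, nu> = sum_ij d_j X_i nu_i nu_j, apply the
potential identity to phi = d_i X_i (v = w = e_j) and phi = d_j X_i (v = e_j, w = e_i); the third
derivatives d_j d_j d_i X_i and d_j d_i d_j X_i agree.
-/

namespace P214

open MeasureTheory Set Filter Metric
open scoped Topology ContDiff InnerProductSpace ENNReal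

theorem ST1_smooth {m : ℕ} (g : Sp m → ℝ) (hg : ContDiff ℝ ∞ g) (a : Sp m) :
    ContDiff ℝ ∞ (fun y => fderiv ℝ g y a) := by
  have h1 : ContDiff ℝ ∞ (fderiv ℝ g) := hg.fderiv_right (by norm_cast)
  exact h1.clm_apply contDiff_const

theorem ST1_d2 {m : ℕ} (g : Sp m → ℝ) (hg : ContDiff ℝ ∞ g) (x v w : Sp m) :
    fderiv ℝ (fderiv ℝ g) x v w = fderiv ℝ (fun y => fderiv ℝ g y w) x v := by
  have h0 : ContDiff ℝ ∞ (fderiv ℝ g) := hg.fderiv_right (by norm_cast)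
  have h1 : DifferentiableAt ℝ (fderiv ℝ g) x := (h0.differentiable (by simp)) x
  have h2 := h1.hasFDerivAt.clm_apply (hasFDerivAt_const w x)
  rw [h2.fderiv]
  simp

theorem ST1_symm {m : ℕ} (g : Sp m → ℝ) (hg : ContDiff ℝ ∞ g) (y a b : Sp m) :
    fderiv ℝ (fun z => fderiv ℝ g z a) y b = fderiv ℝ (fun z => fderiv ℝ g z b) y a := by
  rw [← ST1_d2 g hg, ← ST1_d2 g hg]
  have h : IsSymmSndFDerivAt ℝ g y := by
    refine (hg.contDiffAt (x := y)).isSymmSndFDerivAt ?_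
    rw [minSmoothness_of_isRCLikeNormedField]
    norm_cast
  exact h b a

theorem ST1_third {m : ℕ} (g : Sp m → ℝ) (hg : ContDiff ℝ ∞ g) (x a b : Sp m) :
    fderiv ℝ (fderiv ℝ (fun y => fderiv ℝ g y a)) x b b =
      fderiv ℝ (fderiv ℝ (fun y => fderiv ℝ g y b)) x b a := by
  rw [ST1_d2 _ (ST1_smooth g hg a), ST1_d2 _ (ST1_smooth g hg b)]
  have : (fun y => fderiv ℝ (fun z => fderiv ℝ g z a) y b) =
      fun y => fderiv ℝ (fun z => fderiv ℝ g z b) y a := funext fun y => ST1_symm g hg y a b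
  rw [this]

theorem ST1_int {m : ℕ} {U : Set (Sp m)} {μ : Measure (Sp m)} {ν : Sp m → Sp m}
    (hV : IsIntegralVarifold U μ ν) (φ : Sp m → ℝ) (hφ : Continuous φ)
    (hc : HasCompactSupport φ) (hs : tsupport φ ⊆ U) (v w : Sp m) :
    Integrable (fun x => φ x * (⟪ν x, v⟫_ℝ * ⟪ν x, w⟫_ℝ)) μ := by
  obtain ⟨C, hC⟩ := hφ.bounded_above_of_compact_support hc
  have hν : ∀ᵐ x ∂μ, ‖ν x‖ = 1 := hV.2.2.2.mono (fun x ⟨q, hq⟩ => hq.1)
  have hmeas : AEStronglyMeasurable (fun x => φ x * (⟪ν x, v⟫_ℝ * ⟪ν x, w⟫_ℝ)) μ :=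
    (hφ.measurable.mul ((hV.2.2.1.inner_const).mul (hV.2.2.1.inner_const))).aestronglyMeasurable
  have hK : μ (tsupport φ) < ⊤ := hV.2.1 _ hc hs
  have hsup : Function.support (fun x => φ x * (⟪ν x, v⟫_ℝ * ⟪ν x, w⟫_ℝ)) ⊆ tsupport φ := by
    intro x hx
    apply subset_tsupport φ
    intro h0
    apply hx
    show φ x * (⟪ν x, v⟫_ℝ * ⟪ν x, w⟫_ℝ) = 0
    rw [h0, zero_mul]
  rw [← integrableOn_iff_integrable_of_support_subset hsup]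
  refine Measure.integrableOn_of_bounded (M := C * (‖v‖ * ‖w‖)) hK.ne hmeas ?_
  filter_upwards [ae_restrict_of_ae hν] with x hx
  have h1 : ‖⟪ν x, v⟫_ℝ‖ ≤ ‖v‖ := by
    have := norm_inner_le_norm (𝕜 := ℝ) (ν x) v
    rwa [hx, one_mul] at this
  have h2 : ‖⟪ν x, w⟫_ℝ‖ ≤ ‖w‖ := by
    have := norm_inner_le_norm (𝕜 := ℝ) (ν x) w
    rwa [hx, one_mul] at this
  rw [norm_mul, norm_mul]
  have h3 : 0 ≤ C := (norm_nonneg _).trans (hC x)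
  exact mul_le_mul (hC x) (mul_le_mul h1 h2 (norm_nonneg _) (norm_nonneg _)) (by positivity) h3

theorem ST1_comp {m : ℕ} (X : Sp m → Sp m) (hX : ContDiff ℝ ∞ X) (c x v : Sp m) :
    fderiv ℝ (fun y => ⟪c, X y⟫_ℝ) x v = ⟪c, fderiv ℝ X x v⟫_ℝ := by
  have h1 : DifferentiableAt ℝ X x := (hX.differentiable (by simp)) x
  have h2 := (innerSL ℝ c).hasFDerivAt.comp x h1.hasFDerivAt
  have h3 : HasFDerivAt (fun y => ⟪c, X y⟫_ℝ) ((innerSL ℝ c).comp (fderiv ℝ X x)) x := h2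
  rw [h3.fderiv]
  rfl

theorem ST1 {m : ℕ} (U : Set (Sp m)) (hU : IsOpen U) (μ : Measure (Sp m)) (ν : Sp m → Sp m)
    (f : Sp m → ℝ) (hV : IsIntegralVarifold U μ ν) (hf : LocallyIntegrableOn f U)
    (hp : IsPotential U μ ν f) (X : Sp m → Sp m) (hX : ContDiff ℝ ∞ X)
    (hc : HasCompactSupport X) (hs : tsupport X ⊆ U) :
    ∫ x, (LinearMap.trace ℝ (Sp m) (fderiv ℝ X x : Sp m →ₗ[ℝ] Sp m)
      - ⟪fderiv ℝ X x (ν x), ν x⟫_ℝ) ∂μ = 0 := by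
  obtain ⟨b, -⟩ : ∃ b : OrthonormalBasis (Fin (m + 1)) ℝ (Sp m), True :=
    ⟨EuclideanSpace.basisFun (Fin (m + 1)) ℝ, trivial⟩
  have hν : ∀ᵐ x ∂μ, ‖ν x‖ = 1 := hV.2.2.2.mono (fun x ⟨q, hq⟩ => hq.1)
  -- the components and their derivatives
  have hg : ∀ i, ContDiff ℝ ∞ (fun y => ⟪b i, X y⟫_ℝ) := fun i => contDiff_const.inner ℝ hX
  have hgs : ∀ i, tsupport (fun y => ⟪b i, X y⟫_ℝ) ⊆ tsupport X := by
    intro i
    refine closure_mono fun y hy hy2 => hy ?_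
    show ⟪b i, X y⟫_ℝ = 0
    rw [hy2, inner_zero_right]
  have hgc : ∀ i, HasCompactSupport (fun y => ⟪b i, X y⟫_ℝ) := fun i =>
    hc.of_isClosed_subset (isClosed_tsupport _) (hgs i)
  have hφ1 : ∀ i a, ContDiff ℝ ∞ (fun y => fderiv ℝ (fun z => ⟪b i, X z⟫_ℝ) y a) :=
    fun i a => ST1_smooth _ (hg i) a
  have hφ2 : ∀ i a, HasCompactSupport (fun y => fderiv ℝ (fun z => ⟪b i, X z⟫_ℝ) y a) :=
    fun i a => (hgc i).fderiv_apply ℝ a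
  have hφ3 : ∀ i a, tsupport (fun y => fderiv ℝ (fun z => ⟪b i, X z⟫_ℝ) y a) ⊆ U :=
    fun i a => ((tsupport_fderiv_apply_subset ℝ a).trans (hgs i)).trans hs
  have hint : ∀ i a v w, Integrable (fun x => fderiv ℝ (fun z => ⟪b i, X z⟫_ℝ) x a *
      (⟪ν x, v⟫_ℝ * ⟪ν x, w⟫_ℝ)) μ := fun i a v w =>
    ST1_int hV _ (hφ1 i a).continuous (hφ2 i a) (hφ3 i a) v w
  have hpot : ∀ i a v w, ∫ x, fderiv ℝ (fun z => ⟪b i, X z⟫_ℝ) x a *
      (⟪ν x, v⟫_ℝ * ⟪ν x, w⟫_ℝ) ∂μ =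
      ∫ x, f x * fderiv ℝ (fderiv ℝ (fun y => fderiv ℝ (fun z => ⟪b i, X z⟫_ℝ) y a)) x v w :=
    fun i a v w => (hp _ (hφ1 i a) (hφ2 i a) (hφ3 i a) v w).symm
  have hEq : ∀ᵐ x ∂μ, (LinearMap.trace ℝ (Sp m) (fderiv ℝ X x : Sp m →ₗ[ℝ] Sp m)
      - ⟪fderiv ℝ X x (ν x), ν x⟫_ℝ) = ∑ i, ∑ j,
        (fderiv ℝ (fun z => ⟪b i, X z⟫_ℝ) x (b i) * (⟪ν x, b j⟫_ℝ * ⟪ν x, b j⟫_ℝ) -
          fderiv ℝ (fun z => ⟪b i, X z⟫_ℝ) x (b j) * (⟪ν x, b j⟫_ℝ * ⟪ν x, b i⟫_ℝ)) := by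
    filter_upwards [hν] with x hx
    have e1 : LinearMap.trace ℝ (Sp m) (fderiv ℝ X x : Sp m →ₗ[ℝ] Sp m) =
        ∑ i, ∑ j, fderiv ℝ (fun z => ⟪b i, X z⟫_ℝ) x (b i) *
          (⟪ν x, b j⟫_ℝ * ⟪ν x, b j⟫_ℝ) := by
      rw [LinearMap.trace_eq_sum_inner _ b]
      refine Finset.sum_congr rfl fun i _ => ?_
      rw [← Finset.mul_sum, ST1_comp X hX]
      have e2 : ∑ j, ⟪ν x, b j⟫_ℝ * ⟪ν x, b j⟫_ℝ = 1 := by
        have h := b.sum_inner_mul_inner (ν x) (ν x)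
        rw [real_inner_self_eq_norm_sq, hx, one_pow] at h
        refine Eq.trans (Finset.sum_congr rfl fun j _ => ?_) h
        rw [real_inner_comm (ν x) (b j)]
      rw [e2, mul_one]
      rfl
    have e3 : ⟪fderiv ℝ X x (ν x), ν x⟫_ℝ = ∑ i, ∑ j,
        fderiv ℝ (fun z => ⟪b i, X z⟫_ℝ) x (b j) * (⟪ν x, b j⟫_ℝ * ⟪ν x, b i⟫_ℝ) := by
      rw [← b.sum_inner_mul_inner]
      refine Finset.sum_congr rfl fun i _ => ?_
      have e4 : ⟪fderiv ℝ X x (ν x), b i⟫_ℝ =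
          ∑ j, fderiv ℝ (fun z => ⟪b i, X z⟫_ℝ) x (b j) * ⟪ν x, b j⟫_ℝ := by
        have h := b.sum_repr' (ν x)
        have h2 : fderiv ℝ (fun z => ⟪b i, X z⟫_ℝ) x (ν x) =
            ∑ j, ⟪b j, ν x⟫_ℝ * fderiv ℝ (fun z => ⟪b i, X z⟫_ℝ) x (b j) := by
          conv_lhs => rw [← h]
          rw [map_sum]
          refine Finset.sum_congr rfl fun j _ => ?_
          rw [map_smul, smul_eq_mul]
        rw [real_inner_comm, ← ST1_comp X hX, h2]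
        refine Finset.sum_congr rfl fun j _ => ?_
        rw [real_inner_comm (ν x) (b j), mul_comm]
      rw [e4, Finset.sum_mul]
      refine Finset.sum_congr rfl fun j _ => ?_
      rw [real_inner_comm (ν x) (b i), mul_assoc]
    rw [e1, e3, ← Finset.sum_sub_distrib]
    refine Finset.sum_congr rfl fun i _ => ?_
    rw [← Finset.sum_sub_distrib]
  have hsub : ∀ i j, Integrable (fun x =>
      fderiv ℝ (fun z => ⟪b i, X z⟫_ℝ) x (b i) * (⟪ν x, b j⟫_ℝ * ⟪ν x, b j⟫_ℝ) -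
        fderiv ℝ (fun z => ⟪b i, X z⟫_ℝ) x (b j) * (⟪ν x, b j⟫_ℝ * ⟪ν x, b i⟫_ℝ)) μ :=
    fun i j => (hint i (b i) (b j) (b j)).sub (hint i (b j) (b j) (b i))
  rw [integral_congr_ae hEq]
  rw [integral_finsetSum _ fun i _ => integrable_finsetSum _ fun j _ => hsub i j]
  refine Finset.sum_eq_zero fun i _ => ?_
  rw [integral_finsetSum _ fun j _ => hsub i j]
  refine Finset.sum_eq_zero fun j _ => ?_
  rw [integral_sub (hint i (b i) (b j) (b j)) (hint i (b j) (b j) (b i)), hpot, hpot]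
  have e5 : ∀ x, fderiv ℝ (fderiv ℝ (fun y => fderiv ℝ (fun z => ⟪b i, X z⟫_ℝ) y (b i))) x
      (b j) (b j) = fderiv ℝ (fderiv ℝ (fun y => fderiv ℝ (fun z => ⟪b i, X z⟫_ℝ) y (b j))) x
      (b j) (b i) := fun x => ST1_third _ (hg i) x (b i) (b j)
  simp only [e5, sub_self]

end P214
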